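import Mathlib

namespace Vale.Agent.Lib.P064

open Finset

/-- hockey stick identity: the sum of `C(d-1,s)` over `s+1 ≤ d ≤ D` is `C(D,s+1)` -/
lemma hockey (s D : ℕ) : ∑ d ∈ Icc (s + 1) D, (d - 1).choose s = D.choose (s + 1) := by
  induction D with
  | zero => simp
  | succ D ih =>
    by_cases h : s + 1 ≤ D + 1
    · rw [Finset.sum_Icc_succ_top h, ih, Nat.add_sub_cancel, Nat.choose_succ_succ, add_comm]
    · have h0 : Icc (s + 1) (D + 1) = ∅ := Finset.Icc_eq_empty (by omega)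
      rw [h0, Finset.sum_empty, Nat.choose_eq_zero_of_lt (by omega)]

/-- the sum of `C(deg v, s+1)` rewritten through the counts of vertices of degree at least `d` -/
lemma sum_choose_deg {ι : Type*} (S : Finset ι) (deg : ι → ℕ) (N s : ℕ)
    (hdeg : ∀ v ∈ S, deg v ≤ N) :
    ∑ v ∈ S, (deg v).choose (s + 1)
      = ∑ d ∈ Icc (s + 1) N, (S.filter (fun v => d ≤ deg v)).card * (d - 1).choose s := by
  have h1 : ∀ v ∈ S, (deg v).choose (s + 1)
      = ∑ d ∈ Icc (s + 1) N, if d ≤ deg v then (d - 1).choose s else 0 := by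
    intro v hv
    rw [← hockey s (deg v), ← Finset.sum_filter]
    congr 1
    ext d
    simp only [mem_filter, mem_Icc]
    have := hdeg v hv
    omega
  rw [Finset.sum_congr rfl h1, Finset.sum_comm]
  refine Finset.sum_congr rfl fun d _ => ?_
  rw [← Finset.sum_filter, Finset.sum_const, smul_eq_mul]

/-- binomial identity behind the first-moment computation -/
lemma star_sum (N s : ℕ) (x : ℝ) :
    ∑ d ∈ Icc (s + 1) N, (d : ℝ) * (N.choose d) * x ^ d * ((d - 1).choose s)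
      = (s + 1) * N.choose (s + 1) * x ^ (s + 1) * (1 + x) ^ (N - (s + 1)) := by
  by_cases h : s + 1 ≤ N
  · have hterm : ∀ d ∈ Icc (s + 1) N, (d : ℝ) * (N.choose d) * x ^ d * ((d - 1).choose s)
        = (s + 1) * N.choose (s + 1) * x ^ (s + 1)
          * (x ^ (d - (s + 1)) * 1 ^ (N - (s + 1) - (d - (s + 1)))
            * ((N - (s + 1)).choose (d - (s + 1)))) := by
      intro d hd
      rw [mem_Icc] at hd
      have e1 : d * (d - 1).choose s = d.choose (s + 1) * (s + 1) := by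
        have := Nat.add_one_mul_choose_eq (d - 1) s
        rwa [Nat.sub_add_cancel (by omega)] at this
      have e2 : N.choose d * d.choose (s + 1)
          = N.choose (s + 1) * (N - (s + 1)).choose (d - (s + 1)) := Nat.choose_mul hd.1
      have e1' : (d : ℝ) * ((d - 1).choose s : ℝ) = (d.choose (s + 1) : ℝ) * (s + 1) := by
        exact_mod_cast e1
      have e2' : (N.choose d : ℝ) * (d.choose (s + 1) : ℝ)
          = (N.choose (s + 1) : ℝ) * ((N - (s + 1)).choose (d - (s + 1)) : ℝ) := by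
        exact_mod_cast e2
      have e3 : x ^ d = x ^ (s + 1) * x ^ (d - (s + 1)) := by
        rw [← pow_add]
        congr 1
        omega
      rw [one_pow, mul_one, e3]
      linear_combination ((N.choose d : ℝ) * x ^ (s + 1) * x ^ (d - (s + 1))) * e1'
        + ((s + 1 : ℝ) * x ^ (s + 1) * x ^ (d - (s + 1))) * e2'
    rw [Finset.sum_congr rfl hterm, ← Finset.mul_sum]
    congr 1
    rw [add_comm 1 x, add_pow, ← Finset.Ico_add_one_right_eq_Icc, Finset.sum_Ico_eq_sum_range]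
    have hr : N + 1 - (s + 1) = N - (s + 1) + 1 := by omega
    rw [hr]
    refine Finset.sum_congr rfl fun j _ => ?_
    rw [Nat.add_sub_cancel_left]
  · have h0 : Icc (s + 1) N = ∅ := Finset.Icc_eq_empty (by omega)
    rw [h0, Finset.sum_empty, Nat.choose_eq_zero_of_lt (by omega)]
    simp

/-- ratio of binomial coefficients -/
lemma choose_ratio (D N t : ℕ) (h : D ≤ N) : D.choose t * N ^ t ≤ N.choose t * D ^ t := by
  induction t with
  | zero => simp
  | succ t ih =>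
    by_cases ht : t < D
    · have e1 : D.choose (t + 1) * (t + 1) = D.choose t * (D - t) := Nat.choose_succ_right_eq D t
      have e2 : N.choose (t + 1) * (t + 1) = N.choose t * (N - t) := Nat.choose_succ_right_eq N t
      have key : (D - t) * N ≤ D * (N - t) := by
        zify [ht.le, (ht.le.trans h)]
        nlinarith
      have : D.choose (t + 1) * N ^ (t + 1) * (t + 1) ≤ N.choose (t + 1) * D ^ (t + 1) * (t + 1) := by
        calc D.choose (t + 1) * N ^ (t + 1) * (t + 1)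
            = (D.choose (t + 1) * (t + 1)) * (N ^ t * N) := by ring
          _ = (D.choose t * N ^ t) * ((D - t) * N) := by rw [e1]; ring
          _ ≤ (N.choose t * D ^ t) * (D * (N - t)) := Nat.mul_le_mul ih key
          _ = (N.choose t * (N - t)) * (D ^ t * D) := by ring
          _ = N.choose (t + 1) * D ^ (t + 1) * (t + 1) := by rw [← e2]; ring
      exact Nat.le_of_mul_le_mul_right this (Nat.succ_pos t)
    · rw [Nat.choose_eq_zero_of_lt (by omega)]
      simp

/-- if `C(M,k) y^k ≥ 1` then `k ≤ 3 M y` -/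
lemma card_bound (k M : ℕ) (y : ℝ) (hy : 0 ≤ y) (h : 1 ≤ (M.choose k : ℝ) * y ^ k) :
    (k : ℝ) ≤ 3 * M * y := by
  by_cases hk : k = 0
  · subst hk
    have : (0 : ℝ) ≤ 3 * M * y := by positivity
    simpa using this
  have hfact : (0 : ℝ) < (k.factorial : ℝ) := by exact_mod_cast Nat.factorial_pos k
  have h1 : (M.choose k : ℝ) ≤ (M : ℝ) ^ k / (k.factorial : ℝ) := Nat.choose_le_pow_div k M
  have h2 : (k.factorial : ℝ) ≤ ((M : ℝ) * y) ^ k := by
    have : 1 ≤ (M : ℝ) ^ k / (k.factorial : ℝ) * y ^ k :=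
      le_trans h (mul_le_mul_of_nonneg_right h1 (pow_nonneg hy k))
    rw [div_mul_eq_mul_div, le_div_iff₀ hfact, one_mul] at this
    rw [mul_pow]
    exact this
  have h3 : (k : ℝ) ^ k / (k.factorial : ℝ) ≤ Real.exp k :=
    Real.pow_div_factorial_le_exp (k : ℝ) (Nat.cast_nonneg k) k
  have h4 : (k : ℝ) ^ k ≤ (Real.exp 1 * ((M : ℝ) * y)) ^ k := by
    rw [div_le_iff₀ hfact] at h3
    rw [mul_pow, Real.exp_one_pow]
    exact le_trans h3 (mul_le_mul_of_nonneg_left h2 (Real.exp_pos _).le)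
  have h5 : (k : ℝ) ≤ Real.exp 1 * ((M : ℝ) * y) := by
    have hnn : (0 : ℝ) ≤ Real.exp 1 * ((M : ℝ) * y) := by positivity
    exact (pow_le_pow_iff_left₀ (Nat.cast_nonneg k) hnn hk).mp h4
  have h6 : Real.exp 1 * ((M : ℝ) * y) ≤ 3 * ((M : ℝ) * y) :=
    mul_le_mul_of_nonneg_right Real.exp_one_lt_three.le (by positivity)
  linarith

lemma pow_bound_one (s : ℕ) : (6 : ℝ) * ((s + 1) * 3 ^ (s + 1)) ≤ 36 ^ (s + 1) := by
  have h1 : ((s + 1 : ℕ) : ℝ) ≤ 2 ^ (s + 1) := by exact_mod_cast (Nat.lt_two_pow_self).le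
  have h2 : (6 : ℝ) ≤ 6 ^ (s + 1) := by
    calc (6 : ℝ) = 6 ^ 1 := by norm_num
      _ ≤ 6 ^ (s + 1) := pow_le_pow_right₀ (by norm_num) (by omega)
  have h3 : (36 : ℝ) ^ (s + 1) = 6 ^ (s + 1) * (2 ^ (s + 1) * 3 ^ (s + 1)) := by
    rw [← mul_pow, ← mul_pow]; norm_num
  rw [h3]
  push_cast at h1
  exact mul_le_mul h2 (mul_le_mul_of_nonneg_right h1 (by positivity)) (by positivity)
    (by positivity)

lemma pow_bound_two (s : ℕ) :
    (4 : ℝ) ^ (s + 1) + 6 * ((s + 1) * 2 ^ (s + 1)) ≤ 36 ^ (s + 1) := by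
  have h1 : ((s + 1 : ℕ) : ℝ) ≤ 2 ^ (s + 1) := by exact_mod_cast (Nat.lt_two_pow_self).le
  push_cast at h1
  have h2 : (9 : ℝ) ≤ 9 ^ (s + 1) := by
    calc (9 : ℝ) = 9 ^ 1 := by norm_num
      _ ≤ 9 ^ (s + 1) := pow_le_pow_right₀ (by norm_num) (by omega)
  have h3 : (36 : ℝ) ^ (s + 1) = 9 ^ (s + 1) * 4 ^ (s + 1) := by
    rw [← mul_pow]; norm_num
  have h4 : (4 : ℝ) ^ (s + 1) = 2 ^ (s + 1) * 2 ^ (s + 1) := by
    rw [← mul_pow]; norm_num
  have h5 : (0 : ℝ) < 2 ^ (s + 1) := by positivity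
  have h6 : ((s : ℝ) + 1) * 2 ^ (s + 1) ≤ 2 ^ (s + 1) * 2 ^ (s + 1) :=
    mul_le_mul_of_nonneg_right h1 h5.le
  have h7 : (9 : ℝ) * 4 ^ (s + 1) ≤ 9 ^ (s + 1) * 4 ^ (s + 1) :=
    mul_le_mul_of_nonneg_right h2 (by positivity)
  have hX : (0 : ℝ) ≤ 2 ^ (s + 1) * 2 ^ (s + 1) := by positivity
  rw [h3]
  rw [h4] at h7 ⊢
  linarith

lemma one_add_pow_le_exp (x : ℝ) (hx : 0 ≤ x) (m : ℕ) : (1 + x) ^ m ≤ Real.exp (m * x) := by
  rw [Real.exp_nat_mul]
  exact pow_le_pow_left₀ (by linarith) (by linarith [Real.add_one_le_exp x]) m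

/-- the main estimate of the sum over degrees -/
lemma main_sum (n N s : ℕ) (q : ℝ) (hq0 : 0 ≤ q) (S : ℕ → ℕ)
    (hS1 : ∀ d, S d ≤ n)
    (hS2 : ∀ d, 1 ≤ d → (S d : ℝ) ≤ 6 * d * n * N.choose d * q ^ d) :
    ∑ d ∈ Icc (s + 1) N, (S d : ℝ) * ((d - 1).choose s : ℝ)
      ≤ (n : ℝ) * N.choose (s + 1) * (36 * q) ^ (s + 1) := by
  have hC : (0 : ℝ) ≤ (N.choose (s + 1) : ℝ) := Nat.cast_nonneg _
  have hn : (0 : ℝ) ≤ (n : ℝ) := Nat.cast_nonneg _
  by_cases hreg : q * N ≤ s + 1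
  · -- sparse regime
    have hI : ∑ d ∈ Icc (s + 1) N, (S d : ℝ) * ((d - 1).choose s : ℝ)
        ≤ ∑ d ∈ Icc (s + 1) N,
            6 * n * ((d : ℝ) * (N.choose d) * q ^ d * ((d - 1).choose s)) := by
      refine Finset.sum_le_sum fun d hd => ?_
      rw [mem_Icc] at hd
      have h := hS2 d (by omega)
      have hc : (0 : ℝ) ≤ ((d - 1).choose s : ℝ) := Nat.cast_nonneg _
      calc (S d : ℝ) * ((d - 1).choose s : ℝ)
          ≤ (6 * d * n * N.choose d * q ^ d) * ((d - 1).choose s : ℝ) :=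
            mul_le_mul_of_nonneg_right h hc
        _ = 6 * n * ((d : ℝ) * (N.choose d) * q ^ d * ((d - 1).choose s)) := by ring
    rw [← Finset.mul_sum, star_sum] at hI
    have hexp : (1 + q) ^ (N - (s + 1)) ≤ (3 : ℝ) ^ (s + 1) := by
      have h1 := one_add_pow_le_exp q hq0 (N - (s + 1))
      have h2 : ((N - (s + 1) : ℕ) : ℝ) * q ≤ ((s + 1 : ℕ) : ℝ) * 1 := by
        have : ((N - (s + 1) : ℕ) : ℝ) ≤ (N : ℝ) := by exact_mod_cast Nat.sub_le _ _
        push_cast
        nlinarith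
      have h3 : Real.exp (((s + 1 : ℕ) : ℝ) * 1) ≤ 3 ^ (s + 1) := by
        rw [Real.exp_nat_mul]
        exact pow_le_pow_left₀ (Real.exp_pos 1).le Real.exp_one_lt_three.le _
      exact le_trans h1 (le_trans (Real.exp_le_exp.mpr h2) h3)
    have hq : (0 : ℝ) ≤ q ^ (s + 1) := pow_nonneg hq0 _
    calc ∑ d ∈ Icc (s + 1) N, (S d : ℝ) * ((d - 1).choose s : ℝ)
        ≤ 6 * n * ((s + 1) * N.choose (s + 1) * q ^ (s + 1) * (1 + q) ^ (N - (s + 1))) := hI
      _ ≤ 6 * n * ((s + 1) * N.choose (s + 1) * q ^ (s + 1) * 3 ^ (s + 1)) := by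
          have : (0 : ℝ) ≤ 6 * n * ((s + 1) * N.choose (s + 1) * q ^ (s + 1)) := by positivity
          nlinarith [mul_le_mul_of_nonneg_left hexp this]
      _ = (n : ℝ) * N.choose (s + 1) * q ^ (s + 1) * (6 * ((s + 1) * 3 ^ (s + 1))) := by ring
      _ ≤ (n : ℝ) * N.choose (s + 1) * q ^ (s + 1) * 36 ^ (s + 1) :=
          mul_le_mul_of_nonneg_left (pow_bound_one s) (by positivity)
      _ = (n : ℝ) * N.choose (s + 1) * (36 * q) ^ (s + 1) := by rw [mul_pow]; ring
  · -- dense regime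
    rw [not_le] at hreg
    have hNpos : 0 < N := by
      rcases Nat.eq_zero_or_pos N with h | h
      · subst h
        have : (0 : ℝ) ≤ (s : ℝ) := Nat.cast_nonneg s
        simp at hreg
        linarith
      · exact h
    have hNr : (0 : ℝ) < (N : ℝ) := by exact_mod_cast hNpos
    have hqN : (1 : ℝ) < q * N := by
      have : (0 : ℝ) ≤ (s : ℝ) := Nat.cast_nonneg s
      linarith
    set D : ℕ := ⌈3 * q * N⌉₊ with hD
    have hD1 : 3 * q * N ≤ (D : ℝ) := Nat.le_ceil _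
    have hD2 : (D : ℝ) < 3 * q * N + 1 := Nat.ceil_lt_add_one (by positivity)
    have hD3 : (D : ℝ) ≤ 4 * q * N := by linarith
    have hterm : ∀ d ∈ Icc (s + 1) N, (S d : ℝ) * ((d - 1).choose s : ℝ)
        ≤ (if d ≤ D then (n : ℝ) * ((d - 1).choose s : ℝ) else 0)
          + 6 * n / 2 ^ D * ((d : ℝ) * (N.choose d) * (2 * q) ^ d * ((d - 1).choose s)) := by
      intro d hd
      rw [mem_Icc] at hd
      have hc : (0 : ℝ) ≤ ((d - 1).choose s : ℝ) := Nat.cast_nonneg _
      have hsecond : (0 : ℝ)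
          ≤ 6 * n / 2 ^ D * ((d : ℝ) * (N.choose d) * (2 * q) ^ d * ((d - 1).choose s)) := by
        positivity
      by_cases hdD : d ≤ D
      · rw [if_pos hdD]
        have : (S d : ℝ) ≤ n := by exact_mod_cast hS1 d
        nlinarith [mul_le_mul_of_nonneg_right this hc]
      · rw [if_neg hdD, zero_add]
        have h := hS2 d (by omega)
        have hpow : q ^ d ≤ (2 * q) ^ d / 2 ^ D := by
          rw [mul_pow, le_div_iff₀ (by positivity)]
          have : (2 : ℝ) ^ D ≤ 2 ^ d := pow_le_pow_right₀ (by norm_num) (by omega)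
          nlinarith [pow_nonneg hq0 d]
        calc (S d : ℝ) * ((d - 1).choose s : ℝ)
            ≤ (6 * d * n * N.choose d * q ^ d) * ((d - 1).choose s : ℝ) :=
              mul_le_mul_of_nonneg_right h hc
          _ ≤ (6 * d * n * N.choose d * ((2 * q) ^ d / 2 ^ D)) * ((d - 1).choose s : ℝ) := by
              apply mul_le_mul_of_nonneg_right _ hc
              apply mul_le_mul_of_nonneg_left hpow
              positivity
          _ = 6 * n / 2 ^ D * ((d : ℝ) * (N.choose d) * (2 * q) ^ d * ((d - 1).choose s)) := by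
              ring
    have hsum := Finset.sum_le_sum hterm
    rw [Finset.sum_add_distrib, ← Finset.mul_sum, star_sum] at hsum
    -- the low part
    have hlow : ∑ d ∈ Icc (s + 1) N, (if d ≤ D then (n : ℝ) * ((d - 1).choose s : ℝ) else 0)
        ≤ (n : ℝ) * N.choose (s + 1) * (4 * q) ^ (s + 1) := by
      rw [← Finset.sum_filter]
      have hfil : (Icc (s + 1) N).filter (fun d => d ≤ D) = Icc (s + 1) (min D N) := by
        ext d
        simp only [mem_filter, mem_Icc, le_min_iff]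
        tauto
      rw [hfil, ← Finset.mul_sum]
      have hh := hockey s (min D N)
      have hh' : ∑ d ∈ Icc (s + 1) (min D N), ((d - 1).choose s : ℝ)
          = ((min D N).choose (s + 1) : ℝ) := by exact_mod_cast hh
      rw [hh']
      have hr := choose_ratio (min D N) N (s + 1) (min_le_right D N)
      have hr2 : (min D N).choose (s + 1) * N ^ (s + 1) ≤ N.choose (s + 1) * D ^ (s + 1) :=
        le_trans hr (Nat.mul_le_mul_left _ (Nat.pow_le_pow_left (min_le_left D N) _))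
      have hr3 : ((min D N).choose (s + 1) : ℝ) * (N : ℝ) ^ (s + 1)
          ≤ (N.choose (s + 1) : ℝ) * (D : ℝ) ^ (s + 1) := by exact_mod_cast hr2
      have hr4 : (D : ℝ) ^ (s + 1) ≤ (4 * q * N) ^ (s + 1) :=
        pow_le_pow_left₀ (Nat.cast_nonneg D) hD3 _
      have hr5 : ((min D N).choose (s + 1) : ℝ) * (N : ℝ) ^ (s + 1)
          ≤ ((N.choose (s + 1) : ℝ) * (4 * q) ^ (s + 1)) * (N : ℝ) ^ (s + 1) := by
        calc ((min D N).choose (s + 1) : ℝ) * (N : ℝ) ^ (s + 1)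
            ≤ (N.choose (s + 1) : ℝ) * (D : ℝ) ^ (s + 1) := hr3
          _ ≤ (N.choose (s + 1) : ℝ) * (4 * q * N) ^ (s + 1) :=
              mul_le_mul_of_nonneg_left hr4 hC
          _ = ((N.choose (s + 1) : ℝ) * (4 * q) ^ (s + 1)) * (N : ℝ) ^ (s + 1) := by
              rw [mul_pow (4 * q) (N : ℝ)]; ring
      have hr6 : ((min D N).choose (s + 1) : ℝ) ≤ (N.choose (s + 1) : ℝ) * (4 * q) ^ (s + 1) :=
        le_of_mul_le_mul_right hr5 (by positivity)
      calc (n : ℝ) * ((min D N).choose (s + 1) : ℝ)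
          ≤ (n : ℝ) * ((N.choose (s + 1) : ℝ) * (4 * q) ^ (s + 1)) :=
            mul_le_mul_of_nonneg_left hr6 hn
        _ = (n : ℝ) * N.choose (s + 1) * (4 * q) ^ (s + 1) := by ring
    -- the high part
    have hexp : (1 + 2 * q) ^ (N - (s + 1)) ≤ (2 : ℝ) ^ D := by
      have h1 := one_add_pow_le_exp (2 * q) (by positivity) (N - (s + 1))
      have hlog : (0.6931471803 : ℝ) < Real.log 2 := Real.log_two_gt_d9
      have h2 : ((N - (s + 1) : ℕ) : ℝ) * (2 * q) ≤ (D : ℝ) * Real.log 2 := by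
        have : ((N - (s + 1) : ℕ) : ℝ) ≤ (N : ℝ) := by exact_mod_cast Nat.sub_le _ _
        have hqNn : 0 ≤ q * N := by positivity
        have hDn : (0 : ℝ) ≤ (D : ℝ) := Nat.cast_nonneg D
        nlinarith
      have h3 : Real.exp ((D : ℝ) * Real.log 2) = 2 ^ D := by
        rw [Real.exp_nat_mul, Real.exp_log (by norm_num)]
      exact le_trans h1 (le_trans (Real.exp_le_exp.mpr h2) h3.le)
    have hhigh : 6 * n / 2 ^ D
        * ((s + 1) * N.choose (s + 1) * (2 * q) ^ (s + 1) * (1 + 2 * q) ^ (N - (s + 1)))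
        ≤ 6 * n * ((s + 1) * N.choose (s + 1) * (2 * q) ^ (s + 1)) := by
      have h2D : (0 : ℝ) < 2 ^ D := by positivity
      have hA : (0 : ℝ) ≤ 6 * n * ((s + 1) * N.choose (s + 1) * (2 * q) ^ (s + 1)) := by
        positivity
      rw [div_mul_eq_mul_div, div_le_iff₀ h2D]
      nlinarith [mul_le_mul_of_nonneg_left hexp hA]
    have hq : (0 : ℝ) ≤ q ^ (s + 1) := pow_nonneg hq0 _
    calc ∑ d ∈ Icc (s + 1) N, (S d : ℝ) * ((d - 1).choose s : ℝ)
        ≤ (n : ℝ) * N.choose (s + 1) * (4 * q) ^ (s + 1)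
          + 6 * n * ((s + 1) * N.choose (s + 1) * (2 * q) ^ (s + 1)) :=
          le_trans hsum (add_le_add hlow hhigh)
      _ = (n : ℝ) * N.choose (s + 1) * q ^ (s + 1)
          * (4 ^ (s + 1) + 6 * ((s + 1) * 2 ^ (s + 1))) := by
          rw [mul_pow, mul_pow]; ring
      _ ≤ (n : ℝ) * N.choose (s + 1) * q ^ (s + 1) * 36 ^ (s + 1) :=
          mul_le_mul_of_nonneg_left (pow_bound_two s) (by positivity)
      _ = (n : ℝ) * N.choose (s + 1) * (36 * q) ^ (s + 1) := by rw [mul_pow]; ring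

end Vale.Agent.Lib.P064
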