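import Vale.Agent.Lib.P064.Conflict

namespace Vale.Agent.Lib.P064

open Finset

open Vale.Agent.Lib.P034.H6

open scoped Classical

variable {n : ℕ}

/-- a maximum family of pairwise edge-disjoint members of a family of graphs -/
lemma exists_max_packing_sub (S : Finset (SimpleGraph (Fin n))) :
    ∃ P : Finset (SimpleGraph (Fin n)), P ⊆ S ∧
      (P : Set (SimpleGraph (Fin n))).PairwiseDisjoint (fun G' => G'.edgeFinset) ∧
      ∀ Q : Finset (SimpleGraph (Fin n)), Q ⊆ S →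
        (Q : Set (SimpleGraph (Fin n))).PairwiseDisjoint (fun G' => G'.edgeFinset) →
        Q.card ≤ P.card := by
  set fam := S.powerset.filter
    (fun Q : Finset (SimpleGraph (Fin n)) =>
      (Q : Set (SimpleGraph (Fin n))).PairwiseDisjoint (fun G' => G'.edgeFinset)) with hfam
  have hne : fam.Nonempty := ⟨∅, by simp [hfam]⟩
  obtain ⟨P, hP, hmax⟩ := Finset.exists_max_image fam Finset.card hne
  rw [hfam, Finset.mem_filter, Finset.mem_powerset] at hP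
  refine ⟨P, hP.1, hP.2, fun Q hQ1 hQ2 => hmax Q ?_⟩
  rw [hfam, Finset.mem_filter, Finset.mem_powerset]
  exact ⟨hQ1, hQ2⟩

/-- every member shares an edge with a member of a maximum edge-disjoint subfamily -/
lemma cover_of_max_packing_sub (S : Finset (SimpleGraph (Fin n)))
    (hne : ∀ G' ∈ S, 1 ≤ G'.edgeFinset.card)
    (P : Finset (SimpleGraph (Fin n))) (hP : P ⊆ S)
    (hdis : (P : Set (SimpleGraph (Fin n))).PairwiseDisjoint (fun G' => G'.edgeFinset))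
    (hmax : ∀ Q : Finset (SimpleGraph (Fin n)), Q ⊆ S →
        (Q : Set (SimpleGraph (Fin n))).PairwiseDisjoint (fun G' => G'.edgeFinset) →
        Q.card ≤ P.card)
    (G' : SimpleGraph (Fin n)) (hG' : G' ∈ S) :
    ∃ Q ∈ P, ∃ e ∈ Q.edgeFinset, e ∈ G'.edgeFinset := by
  by_contra hno
  have hno' : ∀ Q ∈ P, Disjoint G'.edgeFinset Q.edgeFinset := by
    intro Q hQ
    rw [Finset.disjoint_left]
    intro e he1 he2
    exact hno ⟨Q, hQ, e, he2, he1⟩
  have hcard : 1 ≤ G'.edgeFinset.card := hne G' hG'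
  have hnot : G' ∉ P := by
    intro h
    obtain ⟨e, he⟩ := Finset.card_pos.mp hcard
    exact hno ⟨G', h, e, he, he⟩
  have hdis' : ((insert G' P : Finset (SimpleGraph (Fin n))) :
      Set (SimpleGraph (Fin n))).PairwiseDisjoint (fun G' => G'.edgeFinset) := by
    rw [Finset.coe_insert]
    apply hdis.insert
    intro Q hQ _
    exact hno' Q hQ
  have := hmax (insert G' P) (Finset.insert_subset hG' hP) hdis'
  rw [Finset.card_insert_of_notMem hnot] at this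
  omega

/-- the packing bound for a family of copies of `T₁` in `H` given through a map `c` -/
theorem packing_family (H T₁ : SimpleGraph (Fin n)) (q : ℝ) (hq0 : 0 ≤ q)
    (hyp : ∀ F : SimpleGraph (Fin n), F ≤ H →
      (1 : ℝ) ≤ (copies ⊤ F : ℝ) * q ^ F.edgeSet.ncard)
    (hm : 1 ≤ T₁.edgeFinset.card)
    (A : Finset (SimpleGraph (Fin n))) (c : SimpleGraph (Fin n) → SimpleGraph (Fin n))
    (hc : ∀ G ∈ A, c G ∈ copiesFinset H T₁)
    (D : ℝ) (hD0 : 0 ≤ D)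
    (hD : ∀ a b, ((A.filter (fun G => (c G).Adj a b)).card : ℝ) ≤ D) :
    (A.card : ℝ) ≤ 3 * (copies ⊤ T₁ : ℝ) * q ^ T₁.edgeFinset.card
      * ((T₁.edgeFinset.card : ℝ) * D) := by
  set S := A.image c with hS
  have hSsub : S ⊆ copiesFinset H T₁ := by
    intro Q hQ
    rw [hS, Finset.mem_image] at hQ
    obtain ⟨G, hG, rfl⟩ := hQ
    exact hc G hG
  obtain ⟨P, hP, hdis, hmax⟩ := exists_max_packing_sub S
  have hP' : P ⊆ copiesFinset H T₁ := hP.trans hSsub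
  have hle : unionGraph P ≤ H :=
    unionGraph_le H P (fun G' hG' => ((mem_copiesFinset H T₁ G').mp (hP' hG')).1)
  have h2 := hyp (unionGraph P) hle
  rw [unionGraph_edges H T₁ P hP' hdis] at h2
  have h3 := copies_unionGraph_le H T₁ P hP'
  have h4 : (1 : ℝ) ≤ (((copies ⊤ T₁).choose P.card : ℕ) : ℝ)
      * (q ^ T₁.edgeFinset.card) ^ P.card := by
    have hq : (0 : ℝ) ≤ q ^ (P.card * T₁.edgeFinset.card) := pow_nonneg hq0 _
    have h3' : (copies ⊤ (unionGraph P) : ℝ) ≤ (((copies ⊤ T₁).choose P.card : ℕ) : ℝ) := by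
      exact_mod_cast h3
    calc (1 : ℝ) ≤ (copies ⊤ (unionGraph P) : ℝ) * q ^ (P.card * T₁.edgeFinset.card) := h2
      _ ≤ (((copies ⊤ T₁).choose P.card : ℕ) : ℝ) * q ^ (P.card * T₁.edgeFinset.card) :=
          mul_le_mul_of_nonneg_right h3' hq
      _ = (((copies ⊤ T₁).choose P.card : ℕ) : ℝ) * (q ^ T₁.edgeFinset.card) ^ P.card := by
          rw [← pow_mul, mul_comm P.card]
  have h5 := card_bound P.card (copies ⊤ T₁) (q ^ T₁.edgeFinset.card) (pow_nonneg hq0 _) h4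
  have hsub : A ⊆ P.biUnion (fun Q => Q.edgeFinset.biUnion (fun e =>
      A.filter (fun G => e ∈ (c G).edgeFinset))) := by
    intro G hG
    have hcG : c G ∈ S := Finset.mem_image_of_mem c hG
    obtain ⟨Q, hQ, e, he1, he2⟩ := cover_of_max_packing_sub S
      (fun G' hG' => by
        rw [card_edgeFinset_of_mem H T₁ G' (hSsub hG')]
        exact hm) P hP hdis hmax (c G) hcG
    rw [Finset.mem_biUnion]
    refine ⟨Q, hQ, ?_⟩
    rw [Finset.mem_biUnion]
    refine ⟨e, he1, ?_⟩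
    rw [Finset.mem_filter]
    exact ⟨hG, he2⟩
  have hedge : ∀ e : Sym2 (Fin n),
      ((A.filter (fun G => e ∈ (c G).edgeFinset)).card : ℝ) ≤ D := by
    intro e
    induction e using Sym2.ind with
    | _ a b =>
      have : A.filter (fun G => s(a, b) ∈ (c G).edgeFinset)
          = A.filter (fun G => (c G).Adj a b) := by
        apply Finset.filter_congr
        intro G _
        rw [SimpleGraph.mem_edgeFinset, SimpleGraph.mem_edgeSet]
      rw [this]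
      exact hD a b
  have hA : A.card ≤ ∑ Q ∈ P, ∑ e ∈ Q.edgeFinset,
      (A.filter (fun G => e ∈ (c G).edgeFinset)).card :=
    le_trans (Finset.card_le_card hsub) (le_trans Finset.card_biUnion_le
      (Finset.sum_le_sum (fun Q _ => Finset.card_biUnion_le)))
  have hA' : (A.card : ℝ) ≤ ∑ Q ∈ P, ∑ e ∈ Q.edgeFinset,
      ((A.filter (fun G => e ∈ (c G).edgeFinset)).card : ℝ) := by
    exact_mod_cast hA
  have h6 : (A.card : ℝ) ≤ (P.card : ℝ) * ((T₁.edgeFinset.card : ℝ) * D) := by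
    refine le_trans hA' ?_
    calc ∑ Q ∈ P, ∑ e ∈ Q.edgeFinset, ((A.filter (fun G => e ∈ (c G).edgeFinset)).card : ℝ)
        ≤ ∑ Q ∈ P, ∑ _e ∈ Q.edgeFinset, D :=
          Finset.sum_le_sum (fun Q _ => Finset.sum_le_sum (fun e _ => hedge e))
      _ = ∑ _Q ∈ P, (T₁.edgeFinset.card : ℝ) * D := by
          apply Finset.sum_congr rfl
          intro Q hQ
          rw [Finset.sum_const, nsmul_eq_mul, card_edgeFinset_of_mem H T₁ Q (hP' hQ)]
      _ = (P.card : ℝ) * ((T₁.edgeFinset.card : ℝ) * D) := by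
          rw [Finset.sum_const, nsmul_eq_mul]
  exact le_trans h6 (mul_le_mul_of_nonneg_right h5 (by positivity))

/-- the graphs `T'` such that the pair `(T', F₁)` is the image of `(T₁, F₁)` under a permutation
fixing `F₁` -/
noncomputable def orbT (F₁ T₁ : SimpleGraph (Fin n)) : Finset (SimpleGraph (Fin n)) :=
  Finset.univ.filter (fun T' =>
    ∃ σ : Equiv.Perm (Fin n), permGraph σ T₁ = T' ∧ permGraph σ F₁ = F₁)

lemma copies_top_le_orb (F₁ T₁ : SimpleGraph (Fin n)) :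
    copies ⊤ T₁ ≤ copies ⊤ F₁ * (orbT F₁ T₁).card := by
  rw [copies_eq_card, copies_eq_card]
  have hsub : copiesFinset ⊤ T₁ ⊆ (copiesFinset ⊤ F₁).biUnion (fun G =>
      Finset.univ.filter (fun T' =>
        ∃ ρ : Equiv.Perm (Fin n), permGraph ρ T₁ = T' ∧ permGraph ρ F₁ = G)) := by
    intro T' hT'
    rw [mem_copiesFinset] at hT'
    obtain ⟨ρ, hρ⟩ := exists_perm_of_iso T' T₁ hT'.2
    rw [Finset.mem_biUnion]
    refine ⟨permGraph ρ F₁, ?_, ?_⟩
    · rw [mem_copiesFinset]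
      exact ⟨le_top, permGraph_iso ρ F₁ F₁ ⟨SimpleGraph.Iso.refl⟩⟩
    · rw [Finset.mem_filter]
      exact ⟨Finset.mem_univ _, ρ, hρ, rfl⟩
  refine le_trans (Finset.card_le_card hsub) (le_trans Finset.card_biUnion_le ?_)
  have hfib : ∀ G ∈ copiesFinset ⊤ F₁,
      (Finset.univ.filter (fun T' =>
        ∃ ρ : Equiv.Perm (Fin n), permGraph ρ T₁ = T' ∧ permGraph ρ F₁ = G)).card
      ≤ (orbT F₁ T₁).card := by
    intro G hG
    rw [mem_copiesFinset] at hG
    obtain ⟨τ, hτ⟩ := exists_perm_of_iso G F₁ hG.2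
    have hsub' : Finset.univ.filter (fun T' =>
        ∃ ρ : Equiv.Perm (Fin n), permGraph ρ T₁ = T' ∧ permGraph ρ F₁ = G)
        ⊆ (orbT F₁ T₁).image (permGraph τ) := by
      intro T' hT'
      rw [Finset.mem_filter] at hT'
      obtain ⟨-, ρ, hρ1, hρ2⟩ := hT'
      rw [Finset.mem_image]
      refine ⟨permGraph (τ⁻¹ * ρ) T₁, ?_, ?_⟩
      · rw [orbT, Finset.mem_filter]
        refine ⟨Finset.mem_univ _, τ⁻¹ * ρ, rfl, ?_⟩
        rw [permGraph_mul, hρ2, ← hτ, permGraph_inv_cancel]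
      · rw [permGraph_mul, permGraph_cancel_inv, hρ1]
    exact le_trans (Finset.card_le_card hsub') Finset.card_image_le
  calc ∑ G ∈ copiesFinset ⊤ F₁, (Finset.univ.filter (fun T' =>
        ∃ ρ : Equiv.Perm (Fin n), permGraph ρ T₁ = T' ∧ permGraph ρ F₁ = G)).card
      ≤ ∑ _G ∈ copiesFinset ⊤ F₁, (orbT F₁ T₁).card := Finset.sum_le_sum hfib
    _ = (copiesFinset ⊤ F₁).card * (orbT F₁ T₁).card := by
        rw [Finset.sum_const, smul_eq_mul]

/-- the graphs `T₁` such that `(T₁, F₁)` is carried onto the closure pair of `G` -/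
noncomputable def repT (H F₁ : SimpleGraph (Fin n)) (K : ℕ) (G : SimpleGraph (Fin n)) :
    Finset (SimpleGraph (Fin n)) :=
  Finset.univ.filter (fun T₁ =>
    ∃ σ : Equiv.Perm (Fin n), permGraph σ T₁ = cl H K G ∧ permGraph σ F₁ = G)

lemma mem_repT (H F₁ : SimpleGraph (Fin n)) (K : ℕ) (G T₁ : SimpleGraph (Fin n)) :
    T₁ ∈ repT H F₁ K G ↔
      ∃ σ : Equiv.Perm (Fin n), permGraph σ T₁ = cl H K G ∧ permGraph σ F₁ = G := by
  rw [repT, Finset.mem_filter]
  exact ⟨fun h => h.2, fun h => ⟨Finset.mem_univ _, h⟩⟩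

lemma repT_nonempty (H F₁ : SimpleGraph (Fin n)) (K : ℕ) (G : SimpleGraph (Fin n))
    (hG : G ∈ copiesFinset H F₁) : (repT H F₁ K G).Nonempty := by
  rw [mem_copiesFinset] at hG
  obtain ⟨τ, hτ⟩ := exists_perm_of_iso G F₁ hG.2
  refine ⟨permGraph τ⁻¹ (cl H K G), ?_⟩
  rw [mem_repT]
  exact ⟨τ, permGraph_cancel_inv τ _, hτ⟩

lemma mem_repT_iff_classH (H F₁ : SimpleGraph (Fin n)) (K : ℕ) (G : SimpleGraph (Fin n))
    (hG : G ∈ copiesFinset H F₁) (T₁ : SimpleGraph (Fin n)) :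
    T₁ ∈ repT H F₁ K G ↔ G ∈ classH H F₁ T₁ K := by
  rw [mem_repT, mem_classH]
  constructor
  · intro h
    exact ⟨hG, h⟩
  · intro h
    exact h.2

lemma orbT_subset_repT (H F₁ : SimpleGraph (Fin n)) (K : ℕ) (G T₁ : SimpleGraph (Fin n))
    (hT₁ : T₁ ∈ repT H F₁ K G) : orbT F₁ T₁ ⊆ repT H F₁ K G := by
  intro T' hT'
  rw [mem_repT] at hT₁ ⊢
  obtain ⟨σ, hσ1, hσ2⟩ := hT₁
  rw [orbT, Finset.mem_filter] at hT'
  obtain ⟨-, σ₀, h01, h02⟩ := hT'
  have h03 : permGraph σ₀⁻¹ F₁ = F₁ := by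
    have := permGraph_inv_cancel σ₀ F₁
    rw [h02] at this
    exact this
  refine ⟨σ * σ₀⁻¹, ?_, ?_⟩
  · rw [permGraph_mul, ← h01, permGraph_inv_cancel, hσ1]
  · rw [permGraph_mul, h03, hσ2]

lemma class_pair (H F₁ : SimpleGraph (Fin n)) (K : ℕ) (β : SimpleGraph (Fin n) → ℝ)
    (hβ : ∀ T₁, 0 ≤ β T₁)
    (hclass : ∀ T₁, ((classH H F₁ T₁ K).card : ℝ) ≤ (orbT F₁ T₁).card * β T₁)
    (G : SimpleGraph (Fin n)) (hG : G ∈ copiesFinset H F₁) (T₁ : SimpleGraph (Fin n))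
    (hT₁ : T₁ ∈ repT H F₁ K G) :
    (1 : ℝ) / (repT H F₁ K G).card ≤ β T₁ / (classH H F₁ T₁ K).card := by
  have hGcls : G ∈ classH H F₁ T₁ K := (mem_repT_iff_classH H F₁ K G hG T₁).mp hT₁
  have hpos1 : (0 : ℝ) < ((classH H F₁ T₁ K).card : ℝ) := by
    exact_mod_cast Finset.card_pos.mpr ⟨G, hGcls⟩
  have hpos2 : (0 : ℝ) < ((repT H F₁ K G).card : ℝ) := by
    exact_mod_cast Finset.card_pos.mpr (repT_nonempty H F₁ K G hG)
  rw [div_le_div_iff₀ hpos2 hpos1, one_mul]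
  have h1 := hclass T₁
  have h2 : ((orbT F₁ T₁).card : ℝ) ≤ ((repT H F₁ K G).card : ℝ) := by
    exact_mod_cast Finset.card_le_card (orbT_subset_repT H F₁ K G T₁ hT₁)
  calc ((classH H F₁ T₁ K).card : ℝ) ≤ (orbT F₁ T₁).card * β T₁ := h1
    _ ≤ (repT H F₁ K G).card * β T₁ := mul_le_mul_of_nonneg_right h2 (hβ T₁)
    _ = β T₁ * (repT H F₁ K G).card := mul_comm _ _

lemma card_as_sum (H F₁ : SimpleGraph (Fin n)) (K : ℕ) :
    ((copiesFinset H F₁).card : ℝ)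
      = ∑ G ∈ copiesFinset H F₁, ∑ _T₁ ∈ repT H F₁ K G, (1 : ℝ) / (repT H F₁ K G).card := by
  have h1 : ∀ G ∈ copiesFinset H F₁,
      ∑ _T₁ ∈ repT H F₁ K G, (1 : ℝ) / (repT H F₁ K G).card = 1 := by
    intro G hG
    rw [Finset.sum_const, nsmul_eq_mul]
    have : (0 : ℝ) < ((repT H F₁ K G).card : ℝ) := by
      exact_mod_cast Finset.card_pos.mpr (repT_nonempty H F₁ K G hG)
    field_simp
  rw [Finset.sum_congr rfl h1, Finset.sum_const, nsmul_eq_mul, mul_one]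

lemma swap_sum (H F₁ : SimpleGraph (Fin n)) (K : ℕ) (f : SimpleGraph (Fin n) → ℝ) :
    ∑ G ∈ copiesFinset H F₁, ∑ T₁ ∈ repT H F₁ K G, f T₁
      = ∑ T₁ : SimpleGraph (Fin n), ∑ _G ∈ classH H F₁ T₁ K, f T₁ := by
  apply Finset.sum_comm'
  intro G T₁
  constructor
  · rintro ⟨hG, hT₁⟩
    exact ⟨(mem_repT_iff_classH H F₁ K G hG T₁).mp hT₁, Finset.mem_univ _⟩
  · rintro ⟨hG, -⟩
    have hGC : G ∈ copiesFinset H F₁ := ((mem_classH H F₁ T₁ K G).mp hG).1
    exact ⟨hGC, (mem_repT_iff_classH H F₁ K G hGC T₁).mpr hG⟩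

/-- summing the class bounds over all closure types -/
lemma class_partition (H F₁ : SimpleGraph (Fin n)) (K : ℕ) (β : SimpleGraph (Fin n) → ℝ)
    (hβ : ∀ T₁, 0 ≤ β T₁)
    (hclass : ∀ T₁, ((classH H F₁ T₁ K).card : ℝ) ≤ (orbT F₁ T₁).card * β T₁) :
    (copies H F₁ : ℝ) ≤ ∑ T₁ : SimpleGraph (Fin n), β T₁ := by
  rw [copies_eq_card, card_as_sum H F₁ K]
  have h1 : ∑ G ∈ copiesFinset H F₁, ∑ _T₁ ∈ repT H F₁ K G, (1 : ℝ) / (repT H F₁ K G).card
      ≤ ∑ G ∈ copiesFinset H F₁, ∑ T₁ ∈ repT H F₁ K G, β T₁ / (classH H F₁ T₁ K).card :=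
    Finset.sum_le_sum (fun G hG => Finset.sum_le_sum
      (fun T₁ hT₁ => class_pair H F₁ K β hβ hclass G hG T₁ hT₁))
  refine le_trans h1 ?_
  rw [swap_sum H F₁ K (fun T₁ => β T₁ / (classH H F₁ T₁ K).card)]
  apply Finset.sum_le_sum
  intro T₁ _
  rw [Finset.sum_const, nsmul_eq_mul]
  by_cases h0 : (classH H F₁ T₁ K).card = 0
  · rw [h0]
    simpa using hβ T₁
  · have hpos : (0 : ℝ) < ((classH H F₁ T₁ K).card : ℝ) := by
      exact_mod_cast Nat.pos_of_ne_zero h0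
    have e : ((classH H F₁ T₁ K).card : ℝ) * (β T₁ / (classH H F₁ T₁ K).card) = β T₁ := by
      field_simp
    rw [e]

end Vale.Agent.Lib.P064
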