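import Vale.Agent.Lib.P064.Packing

namespace Vale.Agent.Lib.P064

open Finset

open scoped Classical

variable {n : ℕ}

/-- the part of `F` on the vertex set `W` -/
def restr (F : SimpleGraph (Fin n)) (W : Finset (Fin n)) : SimpleGraph (Fin n) where
  Adj a b := F.Adj a b ∧ a ∈ W ∧ b ∈ W
  symm := ⟨fun _ _ h => ⟨h.1.symm, h.2.2, h.2.1⟩⟩
  loopless := ⟨fun _ h => F.loopless.irrefl _ h.1⟩

lemma restr_adj (F : SimpleGraph (Fin n)) (W : Finset (Fin n)) (a b : Fin n) :
    (restr F W).Adj a b ↔ F.Adj a b ∧ a ∈ W ∧ b ∈ W := Iff.rfl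

lemma restr_le (F : SimpleGraph (Fin n)) (W : Finset (Fin n)) : restr F W ≤ F :=
  fun _ _ h => h.1

lemma embSet_restr (F G : SimpleGraph (Fin n)) (W : Finset (Fin n)) :
    embSet (restr F W) G W = embSet F G W := by
  ext φ
  rw [mem_embSet, mem_embSet]
  constructor
  · intro h u v huv
    exact h u v ⟨huv, u.2, v.2⟩
  · intro h u v huv
    exact h u v huv.1

lemma card_embSet_le (F G : SimpleGraph (Fin n)) (W : Finset (Fin n)) :
    (embSet F G W).card ≤ n.descFactorial W.card := by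
  have h := Finset.card_le_card (Finset.filter_subset
    (fun φ : ↥W ↪ Fin n => ∀ u v : ↥W, F.Adj u v → G.Adj (φ u) (φ v)) Finset.univ)
  rw [Finset.card_univ, Fintype.card_embedding_eq, Fintype.card_fin, Fintype.card_coe] at h
  exact h

/-- a connected piece on `W` has at least `|W| - 1` edges -/
lemma edges_ge_of_conn (F₁ : SimpleGraph (Fin n)) (W : Finset (Fin n)) (hne : W.Nonempty)
    (hconn : ∀ S : Finset (Fin n), S ⊆ W → S.Nonempty → S ≠ W →
      ∃ x ∈ S, ∃ y ∈ W \ S, F₁.Adj x y) :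
    W.card ≤ F₁.edgeFinset.card + 1 := by
  have key : ∀ k : ℕ, 1 ≤ k → k ≤ W.card → ∃ S : Finset (Fin n), S ⊆ W ∧ S.card = k ∧
      k ≤ (F₁.edgeFinset.filter (fun e => ∀ x ∈ e, x ∈ S)).card + 1 := by
    intro k hk
    induction k, hk using Nat.le_induction with
    | base =>
      intro _
      obtain ⟨w, hw⟩ := hne
      exact ⟨{w}, Finset.singleton_subset_iff.mpr hw, Finset.card_singleton w, by omega⟩
    | succ k hk ih =>
      intro hk1
      obtain ⟨S, hS, hcard, hedges⟩ := ih (by omega)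
      have hSne : S.Nonempty := by
        rw [← Finset.card_pos]
        omega
      have hSW : S ≠ W := by
        intro h
        rw [h] at hcard
        omega
      obtain ⟨x, hx, y, hy, hxy⟩ := hconn S hS hSne hSW
      rw [Finset.mem_sdiff] at hy
      refine ⟨insert y S, Finset.insert_subset hy.1 hS, ?_, ?_⟩
      · rw [Finset.card_insert_of_notMem hy.2, hcard]
      · have hsub : insert s(x, y) (F₁.edgeFinset.filter (fun e => ∀ z ∈ e, z ∈ S))
            ⊆ F₁.edgeFinset.filter (fun e => ∀ z ∈ e, z ∈ insert y S) := by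
          intro e he
          rw [Finset.mem_insert] at he
          rw [Finset.mem_filter]
          rcases he with rfl | he
          · refine ⟨?_, ?_⟩
            · rw [SimpleGraph.mem_edgeFinset, SimpleGraph.mem_edgeSet]
              exact hxy
            · intro z hz
              rw [Sym2.mem_iff] at hz
              rw [Finset.mem_insert]
              rcases hz with rfl | rfl
              · exact Or.inr hx
              · exact Or.inl rfl
          · rw [Finset.mem_filter] at he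
            exact ⟨he.1, fun z hz => Finset.mem_insert_of_mem (he.2 z hz)⟩
        have hnot : s(x, y) ∉ F₁.edgeFinset.filter (fun e => ∀ z ∈ e, z ∈ S) := by
          intro h
          rw [Finset.mem_filter] at h
          exact hy.2 (h.2 y (Sym2.mem_mk_right x y))
        have := Finset.card_le_card hsub
        rw [Finset.card_insert_of_notMem hnot] at this
        omega
  have h1 : 1 ≤ W.card := Finset.card_pos.mpr hne
  obtain ⟨S, _, _, hedges⟩ := key W.card h1 le_rfl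
  have := Finset.card_le_card (Finset.filter_subset (fun e => ∀ x ∈ e, x ∈ S) F₁.edgeFinset)
  omega

lemma six_sq_le (m : ℕ) (hm : 1 ≤ m) : 6 * m ^ 2 ≤ 8 ^ m := by
  induction m, hm using Nat.le_induction with
  | base => norm_num
  | succ m hm ih =>
    have h1 : (m + 1) ^ 2 ≤ 8 * m ^ 2 := by nlinarith
    calc 6 * (m + 1) ^ 2 ≤ 6 * (8 * m ^ 2) := Nat.mul_le_mul_left 6 h1
      _ = 8 * (6 * m ^ 2) := by ring
      _ ≤ 8 * 8 ^ m := Nat.mul_le_mul_left 8 ih
      _ = 8 ^ (m + 1) := by ring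

/-- the bound for a connected piece in a host graph of maximum degree at most `Δ` -/
lemma piece_bound (F₁ H : SimpleGraph (Fin n)) (W : Finset (Fin n)) (Δ : ℕ) (hΔ1 : 1 ≤ Δ)
    (hΔ : ∀ x, (H.neighborFinset x).card ≤ Δ)
    (hW : ∀ u v, F₁.Adj u v → u ∈ W)
    (hconn : ∀ S : Finset (Fin n), S ⊆ W → S.Nonempty → S ≠ W →
      ∃ x ∈ S, ∃ y ∈ W \ S, F₁.Adj x y)
    (h2 : 2 ≤ W.card) (q : ℝ) (hq0 : 0 ≤ q)
    (hyp : ∀ F : SimpleGraph (Fin n), F ≤ H →
      (1 : ℝ) ≤ (copies ⊤ F : ℝ) * q ^ F.edgeSet.ncard) :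
    ((embSet F₁ H W).card : ℝ)
      ≤ (n.descFactorial W.card : ℝ) * (8 * Δ * q) ^ F₁.edgeFinset.card := by
  have hne : W.Nonempty := by
    rw [← Finset.card_pos]
    omega
  have hm := edges_ge_of_conn F₁ W hne hconn
  set m := F₁.edgeFinset.card with hmdef
  have hm1 : 1 ≤ m := by omega
  have hD := copies_through_le F₁ H W Δ hΔ hW hconn
  have pb := packing_bound H F₁ q hq0 hyp hm1 (Fintype.card F₁.Dart * Δ ^ (W.card - 2)) hD
  rw [SimpleGraph.dart_card_eq_twice_card_edges, ← hmdef] at pb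
  have e1 := card_embSet_eq F₁ H W hW
  have e2 := card_embSet_eq F₁ ⊤ W hW
  rw [card_embSet_top] at e2
  rw [e1, e2]
  push_cast at pb ⊢
  have hA : (0 : ℝ) ≤ ((embSet F₁ F₁ W).card : ℝ) := Nat.cast_nonneg _
  have hpow : (Δ : ℝ) ^ (W.card - 2) ≤ (Δ : ℝ) ^ m := by
    have : Δ ^ (W.card - 2) ≤ Δ ^ m := Nat.pow_le_pow_right hΔ1 (by omega)
    exact_mod_cast this
  have hsix : (6 : ℝ) * (m : ℝ) ^ 2 ≤ 8 ^ m := by
    have := six_sq_le m hm1
    exact_mod_cast this
  have hqm : (0 : ℝ) ≤ q ^ m := pow_nonneg hq0 m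
  have hc : (0 : ℝ) ≤ (copies ⊤ F₁ : ℝ) := Nat.cast_nonneg _
  have hΔ0 : (0 : ℝ) ≤ (Δ : ℝ) := Nat.cast_nonneg _
  have hm0 : (0 : ℝ) ≤ (m : ℝ) := Nat.cast_nonneg _
  calc (copies H F₁ : ℝ) * ((embSet F₁ F₁ W).card : ℝ)
      ≤ (3 * (copies ⊤ F₁ : ℝ) * q ^ m * ((m : ℝ) * (2 * (m : ℝ) * (Δ : ℝ) ^ (W.card - 2))))
          * ((embSet F₁ F₁ W).card : ℝ) := mul_le_mul_of_nonneg_right pb hA
    _ = ((copies ⊤ F₁ : ℝ) * ((embSet F₁ F₁ W).card : ℝ)) * q ^ m
          * ((6 * (m : ℝ) ^ 2) * (Δ : ℝ) ^ (W.card - 2)) := by ring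
    _ ≤ ((copies ⊤ F₁ : ℝ) * ((embSet F₁ F₁ W).card : ℝ)) * q ^ m
          * (8 ^ m * (Δ : ℝ) ^ m) := by
        apply mul_le_mul_of_nonneg_left _ (by positivity)
        exact mul_le_mul hsix hpow (by positivity) (by positivity)
    _ = (copies ⊤ F₁ : ℝ) * ((embSet F₁ F₁ W).card : ℝ) * (8 * (Δ : ℝ) * q) ^ m := by
        rw [mul_pow, mul_pow]
        ring

lemma restr_empty (F : SimpleGraph (Fin n)) : (restr F ∅).edgeFinset.card = 0 := by
  rw [Finset.card_eq_zero]
  ext e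
  induction e using Sym2.ind with
  | _ a b =>
    simp [restr_adj]

/-- splitting the edges of a closed vertex set along a closed subset -/
lemma restr_edges_split (F : SimpleGraph (Fin n)) (W W₁ : Finset (Fin n)) (hsub : W₁ ⊆ W)
    (hcl₁ : ∀ u ∈ W₁, ∀ v, F.Adj u v → v ∈ W₁) :
    (restr F W).edgeFinset.card
      = (restr F W₁).edgeFinset.card + (restr F (W \ W₁)).edgeFinset.card := by
  have hunion : (restr F W).edgeFinset
      = (restr F W₁).edgeFinset ∪ (restr F (W \ W₁)).edgeFinset := by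
    ext e
    induction e using Sym2.ind with
    | _ a b =>
      simp only [Finset.mem_union, SimpleGraph.mem_edgeFinset, SimpleGraph.mem_edgeSet, restr_adj,
        Finset.mem_sdiff]
      constructor
      · rintro ⟨hab, ha, hb⟩
        by_cases ha1 : a ∈ W₁
        · exact Or.inl ⟨hab, ha1, hcl₁ a ha1 b hab⟩
        · refine Or.inr ⟨hab, ⟨ha, ha1⟩, hb, fun hb1 => ha1 (hcl₁ b hb1 a hab.symm)⟩
      · rintro (⟨hab, ha, hb⟩ | ⟨hab, ⟨ha, _⟩, hb, _⟩)
        · exact ⟨hab, hsub ha, hsub hb⟩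
        · exact ⟨hab, ha, hb⟩
  have hdisj : Disjoint (restr F W₁).edgeFinset (restr F (W \ W₁)).edgeFinset := by
    rw [Finset.disjoint_left]
    intro e
    induction e using Sym2.ind with
    | _ a b =>
      simp only [SimpleGraph.mem_edgeFinset, SimpleGraph.mem_edgeSet, restr_adj,
        Finset.mem_sdiff]
      rintro ⟨_, ha, _⟩ ⟨_, ⟨_, ha'⟩, _⟩
      exact ha' ha
  rw [hunion, Finset.card_union_of_disjoint hdisj]

/-- the product bound over the connected pieces of a closed vertex set without isolated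
vertices -/
lemma comp_bound (F H : SimpleGraph (Fin n)) (y : ℝ) (hy : 0 ≤ y)
    (hpiece : ∀ W₁ : Finset (Fin n), 2 ≤ W₁.card →
      (∀ u ∈ W₁, ∀ v, F.Adj u v → v ∈ W₁) →
      (∀ S : Finset (Fin n), S ⊆ W₁ → S.Nonempty → S ≠ W₁ →
        ∃ x ∈ S, ∃ z ∈ W₁ \ S, F.Adj x z) →
      ((embSet F H W₁).card : ℝ) ≤ (n : ℝ) ^ W₁.card * y ^ (restr F W₁).edgeFinset.card) :
    ∀ (k : ℕ) (W : Finset (Fin n)), W.card ≤ k →
      (∀ u ∈ W, ∀ v, F.Adj u v → v ∈ W) → (∀ u ∈ W, ∃ v, F.Adj u v) →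
      ((embSet F H W).card : ℝ) ≤ (n : ℝ) ^ W.card * y ^ (restr F W).edgeFinset.card := by
  have hempty : ((embSet F H ∅).card : ℝ)
      ≤ (n : ℝ) ^ (∅ : Finset (Fin n)).card * y ^ (restr F ∅).edgeFinset.card := by
    rw [restr_empty, Finset.card_empty, pow_zero, pow_zero, mul_one]
    have := card_embSet_le F H ∅
    rw [Finset.card_empty, Nat.descFactorial_zero] at this
    exact_mod_cast this
  intro k
  induction k with
  | zero =>
    intro W hW _ _
    have : W = ∅ := Finset.card_eq_zero.mp (by omega)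
    subst this
    exact hempty
  | succ k ih =>
    intro W hWk hcl hiso
    by_cases hWe : W = ∅
    · subst hWe
      exact hempty
    obtain ⟨u, hu⟩ := Finset.nonempty_iff_ne_empty.mpr hWe
    set W₁ := W.filter (fun w => F.Reachable u w) with hW₁
    have hsub : W₁ ⊆ W := Finset.filter_subset _ _
    have hu₁ : u ∈ W₁ := by
      rw [hW₁, Finset.mem_filter]
      exact ⟨hu, SimpleGraph.Reachable.refl u⟩
    have hcl₁ : ∀ a ∈ W₁, ∀ b, F.Adj a b → b ∈ W₁ := by
      intro a ha b hab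
      rw [hW₁, Finset.mem_filter] at ha ⊢
      exact ⟨hcl a ha.1 b hab, ha.2.trans hab.reachable⟩
    have hcl₂ : ∀ a ∈ W \ W₁, ∀ b, F.Adj a b → b ∈ W \ W₁ := by
      intro a ha b hab
      rw [Finset.mem_sdiff] at ha ⊢
      exact ⟨hcl a ha.1 b hab, fun hb => ha.2 (hcl₁ b hb a hab.symm)⟩
    have hiso₂ : ∀ a ∈ W \ W₁, ∃ v, F.Adj a v := by
      intro a ha
      rw [Finset.mem_sdiff] at ha
      exact hiso a ha.1
    have hcard : (W \ W₁).card + W₁.card = W.card := Finset.card_sdiff_add_card_eq_card hsub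
    have hpos : 0 < W₁.card := Finset.card_pos.mpr ⟨u, hu₁⟩
    have h₂ := ih (W \ W₁) (by omega) hcl₂ hiso₂
    have htwo : 2 ≤ W₁.card := by
      obtain ⟨v, hv⟩ := hiso u hu
      have hv₁ := hcl₁ u hu₁ v hv
      exact Finset.one_lt_card.mpr ⟨u, hu₁, v, hv₁, hv.ne⟩
    have hconn : ∀ S : Finset (Fin n), S ⊆ W₁ → S.Nonempty → S ≠ W₁ →
        ∃ x ∈ S, ∃ z ∈ W₁ \ S, F.Adj x z := by
      intro S hS hSne hSW
      obtain ⟨s, hs⟩ := hSne
      obtain ⟨t, ht, htS⟩ := Finset.exists_of_ssubset (Finset.ssubset_iff_subset_ne.mpr ⟨hS, hSW⟩)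
      have hs₁ := hS hs
      rw [hW₁, Finset.mem_filter] at hs₁ ht
      obtain ⟨p⟩ := hs₁.2.symm.trans ht.2
      obtain ⟨d, -, hd1, hd2⟩ := p.exists_boundary_dart (S : Set (Fin n)) hs htS
      refine ⟨d.fst, hd1, d.snd, ?_, d.adj⟩
      rw [Finset.mem_sdiff]
      exact ⟨hcl₁ d.fst (hS hd1) d.snd d.adj, hd2⟩
    have h₁ := hpiece W₁ htwo hcl₁ hconn
    have hunion : W₁ ∪ (W \ W₁) = W := Finset.union_sdiff_of_subset hsub
    have hle := card_embSet_union_le F H W₁ (W \ W₁)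
    rw [hunion] at hle
    have hle' : ((embSet F H W).card : ℝ)
        ≤ ((embSet F H W₁).card : ℝ) * ((embSet F H (W \ W₁)).card : ℝ) := by
      exact_mod_cast hle
    rw [restr_edges_split F W W₁ hsub hcl₁, ← hcard]
    calc ((embSet F H W).card : ℝ)
        ≤ ((embSet F H W₁).card : ℝ) * ((embSet F H (W \ W₁)).card : ℝ) := hle'
      _ ≤ ((n : ℝ) ^ W₁.card * y ^ (restr F W₁).edgeFinset.card)
            * ((n : ℝ) ^ (W \ W₁).card * y ^ (restr F (W \ W₁)).edgeFinset.card) :=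
          mul_le_mul h₁ h₂ (Nat.cast_nonneg _) (by positivity)
      _ = (n : ℝ) ^ ((W \ W₁).card + W₁.card)
            * y ^ ((restr F W₁).edgeFinset.card + (restr F (W \ W₁)).edgeFinset.card) := by
          rw [pow_add, pow_add]
          ring

end Vale.Agent.Lib.P064
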