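import Vale.Agent.Lib.P064.Sparse

namespace Vale.Agent.Lib.P064

open Finset

open Vale.Agent.Lib.P034.H6

open scoped Classical

variable {n : ℕ}

/-- the copies `G` of `F₁` in `H` whose closure pair `(cl G, G)` is carried onto `(T₁, F₁)` by a
permutation of the vertex set -/
noncomputable def classH (H F₁ T₁ : SimpleGraph (Fin n)) (K : ℕ) :
    Finset (SimpleGraph (Fin n)) :=
  (copiesFinset H F₁).filter (fun G =>
    ∃ σ : Equiv.Perm (Fin n), permGraph σ T₁ = cl H K G ∧ permGraph σ F₁ = G)

lemma mem_classH (H F₁ T₁ : SimpleGraph (Fin n)) (K : ℕ) (G : SimpleGraph (Fin n)) :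
    G ∈ classH H F₁ T₁ K ↔ G ∈ copiesFinset H F₁ ∧
      ∃ σ : Equiv.Perm (Fin n), permGraph σ T₁ = cl H K G ∧ permGraph σ F₁ = G := by
  simp [classH]

/-- the weight of a vertex of degree at least `K` in `T₁` -/
noncomputable def hw (T₁ : SimpleGraph (Fin n)) (K : ℕ) (w : Fin n) : ℝ :=
  if K ≤ T₁.degree w then 2 ^ T₁.degree w else 1

lemma one_le_hw (T₁ : SimpleGraph (Fin n)) (K : ℕ) (w : Fin n) : 1 ≤ hw T₁ K w := by
  rw [hw]
  split_ifs
  · exact one_le_pow₀ (by norm_num)
  · exact le_rfl

lemma exp_half_le_two : Real.exp (1 / 2) ≤ 2 := by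
  have h := Real.exp_one_lt_three
  have e : Real.exp 1 = Real.exp (1 / 2) * Real.exp (1 / 2) := by
    rw [← Real.exp_add]
    norm_num
  nlinarith [Real.exp_pos (1 / 2 : ℝ)]

lemma supp_eq_of_conn (F₁ : SimpleGraph (Fin n)) (W : Finset (Fin n))
    (hW : ∀ u v, F₁.Adj u v → u ∈ W)
    (hconn : ∀ S : Finset (Fin n), S ⊆ W → S.Nonempty → S ≠ W →
      ∃ x ∈ S, ∃ y ∈ W \ S, F₁.Adj x y)
    (h2 : 2 ≤ W.card) : supp F₁ = W := by
  ext w
  rw [mem_supp]
  constructor
  · rintro ⟨v, hv⟩
    exact hW w v hv
  · intro hw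
    have hne : ({w} : Finset (Fin n)) ≠ W := by
      intro h
      rw [← h, Finset.card_singleton] at h2
      omega
    obtain ⟨x, hx, y, _, hxy⟩ := hconn {w} (by simpa using hw) ⟨w, by simp⟩ hne
    rw [Finset.mem_singleton] at hx
    subst hx
    exact ⟨y, hxy⟩

/-- the conflict bound: the number of copies in a class through a given vertex -/
lemma conflict_bound (H F₁ T₁ : SimpleGraph (Fin n)) (W : Finset (Fin n)) (K : ℕ) (hK : 1 ≤ K)
    (hW : ∀ u v, F₁.Adj u v → u ∈ W)
    (hconn : ∀ S : Finset (Fin n), S ⊆ W → S.Nonempty → S ≠ W →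
      ∃ x ∈ S, ∃ y ∈ W \ S, F₁.Adj x y)
    (h2 : 2 ≤ W.card) (a : Fin n) :
    (((classH H F₁ T₁ K).filter (fun G => a ∈ supp G)).card : ℝ)
      ≤ W.card * (2 ^ W.card * (2 * (K : ℝ)) ^ F₁.edgeFinset.card * ∏ w ∈ W, hw T₁ K w) := by
  have hsuppF : supp F₁ = W := supp_eq_of_conn F₁ W hW hconn h2
  have hK0 : (0 : ℝ) < (K : ℝ) := by exact_mod_cast hK
  have hK1 : (1 : ℝ) ≤ (K : ℝ) := by exact_mod_cast hK
  set B := (classH H F₁ T₁ K).filter (fun G => a ∈ supp G) with hB
  have hex : ∀ G ∈ B, ∃ σ : Equiv.Perm (Fin n),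
      permGraph σ T₁ = cl H K G ∧ permGraph σ F₁ = G := by
    intro G hG
    rw [hB, Finset.mem_filter, mem_classH] at hG
    exact hG.1.2
  choose! sel hsel using hex
  have hGH : ∀ G ∈ B, G ≤ H := by
    intro G hG
    rw [hB, Finset.mem_filter, mem_classH, mem_copiesFinset] at hG
    exact hG.1.1.1
  have haG : ∀ G ∈ B, a ∈ supp G := fun G hG => (Finset.mem_filter.mp hG).2
  have hmaps : ∀ G ∈ B, (sel G).symm a ∈ W := by
    intro G hG
    have ha' : a ∈ supp (permGraph (sel G) F₁) := by
      rw [(hsel G hG).2]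
      exact haG G hG
    rw [mem_supp_permGraph, hsuppF] at ha'
    exact ha'
  set M : ℝ := 2 ^ W.card * (2 * (K : ℝ)) ^ F₁.edgeFinset.card * ∏ w ∈ W, hw T₁ K w with hM
  have hprodpos : (0 : ℝ) < ∏ w ∈ W, hw T₁ K w :=
    Finset.prod_pos (fun w _ => lt_of_lt_of_le one_pos (one_le_hw T₁ K w))
  have hMpos : 0 < M := by
    rw [hM]
    positivity
  have hfiber : ∀ u ∈ W, ((B.filter (fun G => (sel G).symm a = u)).card : ℝ) ≤ M := by
    intro u hu
    obtain ⟨r, hrinj, hrprev⟩ := exists_conn_order F₁ W hconn u hu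
    set Bu := B.filter (fun G => (sel G).symm a = u) with hBu
    have hBuB : ∀ G ∈ Bu, G ∈ B := fun G hG => (Finset.mem_filter.mp hG).1
    have hau : ∀ G ∈ Bu, (sel G) u = a := by
      intro G hG
      have := (Finset.mem_filter.mp hG).2
      rw [← this, Equiv.apply_symm_apply]
    -- out-neighbourhoods
    have hgmem : ∀ (G : SimpleGraph (Fin n)) (x y : Fin n),
        y ∈ (outN F₁ W r ((sel G).symm x)).map (sel G).toEmbedding ↔
          (sel G).symm y ∈ W ∧ F₁.Adj ((sel G).symm x) ((sel G).symm y)
            ∧ r ((sel G).symm x) < r ((sel G).symm y) := by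
      intro G x y
      rw [Finset.mem_map_equiv, mem_outN]
    have hsuppG : ∀ G ∈ Bu, supp G = W.map (sel G).toEmbedding := by
      intro G hG
      ext x
      rw [Finset.mem_map_equiv, ← hsuppF, ← mem_supp_permGraph, (hsel G (hBuB G hG)).2]
    have hadjF : ∀ G ∈ Bu, ∀ x y, G.Adj x y ↔ F₁.Adj ((sel G).symm x) ((sel G).symm y) := by
      intro G hG x y
      have hσ := (hsel G (hBuB G hG)).2
      constructor
      · intro h
        have : (permGraph (sel G) F₁).Adj x y := by
          rw [hσ]
          exact h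
        exact this
      · intro h
        have : (permGraph (sel G) F₁).Adj x y := h
        rw [hσ] at this
        exact this
    have hadj : ∀ G ∈ Bu, ∀ x y, G.Adj x y ↔
        (x ∈ supp G ∧ y ∈ (outN F₁ W r ((sel G).symm x)).map (sel G).toEmbedding) ∨
        (y ∈ supp G ∧ x ∈ (outN F₁ W r ((sel G).symm y)).map (sel G).toEmbedding) := by
      intro G hG x y
      constructor
      · intro h
        have h' := (hadjF G hG x y).mp h
        have hx : (sel G).symm x ∈ W := hW _ _ h'
        have hy : (sel G).symm y ∈ W := hW _ _ h'.symm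
        have hrne : r ((sel G).symm x) ≠ r ((sel G).symm y) := fun e => h'.ne (hrinj hx hy e)
        rcases lt_or_gt_of_ne hrne with hlt | hgt
        · left
          refine ⟨supp_left G x y h, ?_⟩
          rw [hgmem]
          exact ⟨hy, h', hlt⟩
        · right
          refine ⟨supp_left G y x h.symm, ?_⟩
          rw [hgmem]
          exact ⟨hx, h'.symm, hgt⟩
      · rintro (⟨_, h⟩ | ⟨_, h⟩)
        · rw [hgmem] at h
          exact (hadjF G hG x y).mpr h.2.1
        · rw [hgmem] at h
          exact (hadjF G hG x y).mpr h.2.1.symm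
    -- the weights
    set π : Fin n → Finset (Fin n) → ℝ := fun x A =>
      if H.degree x < K then (1 / 2 : ℝ) * (1 / (2 * (K : ℝ))) ^ A.card
      else (1 / 2 : ℝ) ^ H.degree x with hπ
    have hπ0 : ∀ x A, 0 ≤ π x A := by
      intro x A
      rw [hπ]
      dsimp only
      split_ifs <;> positivity
    have hπ1 : ∀ x, ∑ A ∈ (H.neighborFinset x).powerset, π x A ≤ 1 := by
      intro x
      rw [hπ]
      dsimp only
      by_cases hx : H.degree x < K
      · simp only [hx, if_true]
        rw [← Finset.mul_sum]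
        have hs := Finset.sum_pow_mul_eq_add_pow (1 / (2 * (K : ℝ))) (1 : ℝ) (H.neighborFinset x)
        simp only [one_pow, mul_one] at hs
        rw [hs, SimpleGraph.card_neighborFinset_eq_degree]
        have hc0 : (0 : ℝ) ≤ 1 / (2 * (K : ℝ)) := by positivity
        have h1 : (1 / (2 * (K : ℝ)) + 1) ^ H.degree x ≤ (1 / (2 * (K : ℝ)) + 1) ^ K :=
          pow_le_pow_right₀ (by linarith) hx.le
        have h2 : (1 / (2 * (K : ℝ)) + 1) ^ K ≤ Real.exp (K * (1 / (2 * (K : ℝ)))) := by
          rw [add_comm]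
          exact one_add_pow_le_exp _ hc0 K
        have h3 : (K : ℝ) * (1 / (2 * (K : ℝ))) = 1 / 2 := by
          field_simp
        rw [h3] at h2
        have := exp_half_le_two
        linarith
      · simp only [hx, if_false]
        rw [Finset.sum_const, Finset.card_powerset, SimpleGraph.card_neighborFinset_eq_degree,
          nsmul_eq_mul]
        push_cast
        rw [← mul_pow]
        norm_num
    -- apply the generation count
    have hgen := gen_count (fun x => H.neighborFinset x) π hπ0 hπ1 a Bu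
      (fun G x => (outN F₁ W r ((sel G).symm x)).map (sel G).toEmbedding) (fun G => supp G)
      (fun G hG => haG G (hBuB G hG))
      (by
        intro G hG x hx
        constructor
        · intro y hy
          have h := (hadj G hG x y).mpr (Or.inl ⟨hx, hy⟩)
          rw [SimpleGraph.mem_neighborFinset]
          exact hGH G (hBuB G hG) h
        · intro y hy
          have h := (hadj G hG x y).mpr (Or.inl ⟨hx, hy⟩)
          exact supp_left G y x h.symm)
      (by
        intro G hG Z haZ hZ
        have hall : ∀ k : ℕ, ∀ w ∈ W, r w = k → (sel G) w ∈ Z := by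
          intro k
          induction k using Nat.strong_induction_on with
          | _ k ih =>
            intro w hw hrw
            by_cases hwu : w = u
            · rw [hwu, hau G hG]
              exact haZ
            · obtain ⟨w', hw', hadj', hlt⟩ := hrprev w hw hwu
              have hZ' := ih (r w') (by omega) w' hw' rfl
              have hsupp' : (sel G) w' ∈ supp G := by
                rw [hsuppG G hG, Finset.mem_map_equiv, Equiv.symm_apply_apply]
                exact hw'
              apply hZ ((sel G) w') hZ' hsupp'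
              rw [hgmem, Equiv.symm_apply_apply, Equiv.symm_apply_apply]
              exact ⟨hw, hadj', hlt⟩
        intro x hx
        rw [hsuppG G hG, Finset.mem_map_equiv] at hx
        have := hall (r ((sel G).symm x)) ((sel G).symm x) hx rfl
        rwa [Equiv.apply_symm_apply] at this)
      (by
        intro G hG G' hG' hsupp hg
        ext x y
        rw [hadj G hG x y, hadj G' hG' x y]
        constructor
        · rintro (⟨hx, hy⟩ | ⟨hy, hx⟩)
          · left
            refine ⟨hsupp ▸ hx, ?_⟩
            rw [← hg x hx]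
            exact hy
          · right
            refine ⟨hsupp ▸ hy, ?_⟩
            rw [← hg y hy]
            exact hx
        · rintro (⟨hx, hy⟩ | ⟨hy, hx⟩)
          · left
            have hx' : x ∈ supp G := hsupp ▸ hx
            refine ⟨hx', ?_⟩
            rw [hg x hx']
            exact hy
          · right
            have hy' : y ∈ supp G := hsupp ▸ hy
            refine ⟨hy', ?_⟩
            rw [hg y hy']
            exact hx)
    -- lower bound for the weight of each copy
    have hc0 : (0 : ℝ) ≤ 1 / (2 * (K : ℝ)) := by positivity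
    have hc1 : 1 / (2 * (K : ℝ)) ≤ 1 := by
      rw [div_le_one (by positivity)]
      linarith
    have hwt : ∀ G ∈ Bu, M⁻¹ ≤ ∏ x ∈ supp G,
        π x ((outN F₁ W r ((sel G).symm x)).map (sel G).toEmbedding) := by
      intro G hG
      rw [hsuppG G hG, Finset.prod_map]
      have hterm : ∀ w ∈ W,
          (1 / 2 : ℝ) * (1 / (2 * (K : ℝ))) ^ (outN F₁ W r w).card * (hw T₁ K w)⁻¹
          ≤ π ((sel G).toEmbedding w)
              ((outN F₁ W r ((sel G).symm ((sel G).toEmbedding w))).map (sel G).toEmbedding) := by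
        intro w hw'
        have hcw : (0 : ℝ) ≤ (1 / 2 : ℝ) * (1 / (2 * (K : ℝ))) ^ (outN F₁ W r w).card := by
          positivity
        have hcw1 : (1 / 2 : ℝ) * (1 / (2 * (K : ℝ))) ^ (outN F₁ W r w).card ≤ 1 := by
          have : (1 / (2 * (K : ℝ))) ^ (outN F₁ W r w).card ≤ 1 := pow_le_one₀ hc0 hc1
          linarith
        have hhw1 := one_le_hw T₁ K w
        have hhwinv : (hw T₁ K w)⁻¹ ≤ 1 := inv_le_one_of_one_le₀ hhw1
        have hhwinv0 : (0 : ℝ) ≤ (hw T₁ K w)⁻¹ := by positivity
        rw [hπ]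
        dsimp only
        rw [Equiv.coe_toEmbedding, Equiv.symm_apply_apply, Finset.card_map]
        by_cases hx : H.degree ((sel G) w) < K
        · simp only [hx, if_true]
          calc (1 / 2 : ℝ) * (1 / (2 * (K : ℝ))) ^ (outN F₁ W r w).card * (hw T₁ K w)⁻¹
              ≤ (1 / 2 : ℝ) * (1 / (2 * (K : ℝ))) ^ (outN F₁ W r w).card * 1 :=
                mul_le_mul_of_nonneg_left hhwinv hcw
            _ = (1 / 2 : ℝ) * (1 / (2 * (K : ℝ))) ^ (outN F₁ W r w).card := mul_one _
        · simp only [hx, if_false]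
          rw [not_lt] at hx
          have hsupp' : (sel G) w ∈ supp G := by
            rw [hsuppG G hG, Finset.mem_map_equiv, Equiv.symm_apply_apply]
            exact hw'
          have hd1 := cl_degree H K G (hGH G (hBuB G hG)) ((sel G) w) hsupp' hx
          rw [← (hsel G (hBuB G hG)).1, degree_permGraph] at hd1
          have hhw : hw T₁ K w = 2 ^ H.degree ((sel G) w) := by
            rw [hw, hd1, if_pos hx]
          rw [hhw]
          have e : ((2 : ℝ) ^ H.degree ((sel G) w))⁻¹ = (1 / 2 : ℝ) ^ H.degree ((sel G) w) := by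
            rw [one_div, inv_pow]
          rw [e]
          have hp : (0 : ℝ) ≤ (1 / 2 : ℝ) ^ H.degree ((sel G) w) := by positivity
          calc (1 / 2 : ℝ) * (1 / (2 * (K : ℝ))) ^ (outN F₁ W r w).card
                * (1 / 2 : ℝ) ^ H.degree ((sel G) w)
              ≤ 1 * (1 / 2 : ℝ) ^ H.degree ((sel G) w) := mul_le_mul_of_nonneg_right hcw1 hp
            _ = (1 / 2 : ℝ) ^ H.degree ((sel G) w) := one_mul _
      have hprod : M⁻¹ ≤ ∏ w ∈ W,
          ((1 / 2 : ℝ) * (1 / (2 * (K : ℝ))) ^ (outN F₁ W r w).card * (hw T₁ K w)⁻¹) := by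
        rw [Finset.prod_mul_distrib, Finset.prod_mul_distrib, Finset.prod_const,
          Finset.prod_pow_eq_pow_sum, Finset.prod_inv_distrib]
        have hsum := sum_card_outN_le F₁ W r
        have hpow : (1 / (2 * (K : ℝ))) ^ F₁.edgeFinset.card
            ≤ (1 / (2 * (K : ℝ))) ^ (∑ w ∈ W, (outN F₁ W r w).card) :=
          pow_le_pow_of_le_one hc0 hc1 hsum
        have e : M⁻¹ = (1 / 2 : ℝ) ^ W.card * (1 / (2 * (K : ℝ))) ^ F₁.edgeFinset.card
            * (∏ w ∈ W, hw T₁ K w)⁻¹ := by
          rw [hM, mul_inv, mul_inv, one_div, one_div, inv_pow, inv_pow]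
        rw [e]
        apply mul_le_mul_of_nonneg_right _ (by positivity)
        apply mul_le_mul_of_nonneg_left hpow (by positivity)
      refine le_trans hprod ?_
      apply Finset.prod_le_prod
      · intro w _
        have := one_le_hw T₁ K w
        positivity
      · exact hterm
    have hsum : (Bu.card : ℝ) * M⁻¹ ≤ 1 := by
      calc (Bu.card : ℝ) * M⁻¹ = ∑ _G ∈ Bu, M⁻¹ := by
            rw [Finset.sum_const, nsmul_eq_mul]
        _ ≤ ∑ G ∈ Bu, ∏ x ∈ supp G,
              π x ((outN F₁ W r ((sel G).symm x)).map (sel G).toEmbedding) :=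
            Finset.sum_le_sum hwt
        _ ≤ 1 := hgen
    rw [← div_eq_mul_inv, div_le_one hMpos] at hsum
    exact hsum
  have hcard : B.card = ∑ u ∈ W, (B.filter (fun G => (sel G).symm a = u)).card :=
    Finset.card_eq_sum_card_fiberwise (fun G hG => hmaps G hG)
  calc (B.card : ℝ) = ∑ u ∈ W, ((B.filter (fun G => (sel G).symm a = u)).card : ℝ) := by
        rw [hcard]
        push_cast
        rfl
    _ ≤ ∑ _u ∈ W, M := Finset.sum_le_sum hfiber
    _ = W.card * M := by rw [Finset.sum_const, nsmul_eq_mul]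

end Vale.Agent.Lib.P064
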