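import Mathlib

namespace Vale.Agent.Lib.P064

/-- `copies G F` is the number of subgraphs of `G` isomorphic to `F`.  All graphs live on the
vertex set `Fin n` (a graph with fewer vertices is padded with isolated vertices) and a
subgraph of `G` is a graph `G' ≤ G` on the same vertex set. -/
noncomputable def copies {n : ℕ} (G F : SimpleGraph (Fin n)) : ℕ :=
  Set.ncard {G' : SimpleGraph (Fin n) | G' ≤ G ∧ Nonempty (G' ≃g F)}

/-- The star with centre `c` and leaf set `A` on the vertex set `Fin n`:
`u` and `v` are adjacent iff they are distinct, one of them is `c` and the other lies in `A`. -/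
def starGraph {n : ℕ} (c : Fin n) (A : Finset (Fin n)) : SimpleGraph (Fin n) :=
  SimpleGraph.fromRel fun u v => u = c ∧ v ∈ A

end Vale.Agent.Lib.P064
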