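import Vale.Agent.Lib.P064.Stars

namespace Vale.Agent.Lib.P064

open Finset

open scoped Classical

variable {n : ℕ}

/-- the finset of copies of `F` in `G` -/
noncomputable def copiesFinset (G F : SimpleGraph (Fin n)) : Finset (SimpleGraph (Fin n)) :=
  Finset.univ.filter fun G' => G' ≤ G ∧ Nonempty (G' ≃g F)

lemma mem_copiesFinset (G F G' : SimpleGraph (Fin n)) :
    G' ∈ copiesFinset G F ↔ G' ≤ G ∧ Nonempty (G' ≃g F) := by
  simp [copiesFinset]

lemma copies_eq_card (G F : SimpleGraph (Fin n)) : copies G F = (copiesFinset G F).card := by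
  rw [copies, ← Set.ncard_coe_finset]
  congr 1
  ext G'
  simp [mem_copiesFinset]

/-- embeddings of the part of `F` on the vertex set `W` into `G` -/
noncomputable def embSet (F G : SimpleGraph (Fin n)) (W : Finset (Fin n)) :
    Finset (↥W ↪ Fin n) :=
  Finset.univ.filter fun φ => ∀ u v : ↥W, F.Adj u v → G.Adj (φ u) (φ v)

lemma mem_embSet (F G : SimpleGraph (Fin n)) (W : Finset (Fin n)) (φ : ↥W ↪ Fin n) :
    φ ∈ embSet F G W ↔ ∀ u v : ↥W, F.Adj u v → G.Adj (φ u) (φ v) := by
  simp [embSet]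

/-- the image of the part of `F` on `W` under an embedding -/
def pushGraph (F : SimpleGraph (Fin n)) (W : Finset (Fin n)) (φ : ↥W ↪ Fin n) :
    SimpleGraph (Fin n) where
  Adj a b := ∃ u v : ↥W, F.Adj u v ∧ φ u = a ∧ φ v = b
  symm := ⟨by
    rintro a b ⟨u, v, h, rfl, rfl⟩
    exact ⟨v, u, h.symm, rfl, rfl⟩⟩
  loopless := ⟨by
    rintro a ⟨u, v, h, h1, h2⟩
    have : u = v := φ.injective (h1.trans h2.symm)
    subst this
    exact F.loopless.irrefl _ h⟩

lemma pushGraph_adj (F : SimpleGraph (Fin n)) (W : Finset (Fin n)) (φ : ↥W ↪ Fin n)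
    (a b : Fin n) :
    (pushGraph F W φ).Adj a b ↔ ∃ u v : ↥W, F.Adj u v ∧ φ u = a ∧ φ v = b := Iff.rfl

lemma pushGraph_le (F G : SimpleGraph (Fin n)) (W : Finset (Fin n)) (φ : ↥W ↪ Fin n)
    (hφ : φ ∈ embSet F G W) : pushGraph F W φ ≤ G := by
  intro a b hab
  rw [pushGraph_adj] at hab
  obtain ⟨u, v, h, rfl, rfl⟩ := hab
  exact (mem_embSet F G W φ).mp hφ u v h

/-- a permutation extending an embedding, which carries `F` onto the pushed graph -/
lemma pushGraph_perm (F : SimpleGraph (Fin n)) (W : Finset (Fin n))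
    (hW : ∀ u v, F.Adj u v → u ∈ W) (φ : ↥W ↪ Fin n) :
    ∃ σ : Equiv.Perm (Fin n), (∀ w : ↥W, σ w = φ w) ∧
      ∀ a b, (pushGraph F W φ).Adj (σ a) (σ b) ↔ F.Adj a b := by
  obtain ⟨σ, hσ⟩ := Equiv.Perm.exists_extending_pair (fun w : ↥W => (w : Fin n)) φ
    Subtype.val_injective φ.injective
  refine ⟨σ, hσ, fun a b => ?_⟩
  rw [pushGraph_adj]
  constructor
  · rintro ⟨u, v, h, h1, h2⟩
    rw [← hσ u] at h1
    rw [← hσ v] at h2
    have e1 := σ.injective h1
    have e2 := σ.injective h2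
    rw [← e1, ← e2]
    exact h
  · intro h
    exact ⟨⟨a, hW a b h⟩, ⟨b, hW b a h.symm⟩, h, (hσ _).symm, (hσ _).symm⟩

/-- the restriction of a permutation to `W` -/
def restrictPerm (W : Finset (Fin n)) (σ : Equiv.Perm (Fin n)) : ↥W ↪ Fin n :=
  ⟨fun w => σ w, fun _ _ h => Subtype.ext (σ.injective h)⟩

lemma pushGraph_restrictPerm (F G' : SimpleGraph (Fin n)) (W : Finset (Fin n))
    (hW : ∀ u v, F.Adj u v → u ∈ W) (σ : Equiv.Perm (Fin n))
    (hσ : ∀ u v, G'.Adj (σ u) (σ v) ↔ F.Adj u v) :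
    pushGraph F W (restrictPerm W σ) = G' := by
  ext a b
  rw [pushGraph_adj]
  constructor
  · rintro ⟨u, v, h, rfl, rfl⟩
    exact (hσ u v).mpr h
  · intro h
    obtain ⟨a', rfl⟩ := σ.surjective a
    obtain ⟨b', rfl⟩ := σ.surjective b
    have h' := (hσ a' b').mp h
    exact ⟨⟨a', hW a' b' h'⟩, ⟨b', hW b' a' h'.symm⟩, h', rfl, rfl⟩

/-- an embedding of `F` into itself is onto the edges of `F` -/
lemma self_emb_surj (F : SimpleGraph (Fin n)) (W : Finset (Fin n))
    (hW : ∀ u v, F.Adj u v → u ∈ W) (τ : ↥W ↪ Fin n) (hτ : τ ∈ embSet F F W)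
    (a b : Fin n) (hab : F.Adj a b) : ∃ u v : ↥W, F.Adj u v ∧ τ u = a ∧ τ v = b := by
  have hτ' := (mem_embSet F F W τ).mp hτ
  let g : {p : Fin n × Fin n // F.Adj p.1 p.2} → {p : Fin n × Fin n // F.Adj p.1 p.2} :=
    fun p => ⟨(τ ⟨p.1.1, hW _ _ p.2⟩, τ ⟨p.1.2, hW _ _ p.2.symm⟩),
      hτ' ⟨p.1.1, hW _ _ p.2⟩ ⟨p.1.2, hW _ _ p.2.symm⟩ p.2⟩
  have hg : Function.Injective g := by
    rintro ⟨⟨p1, p2⟩, hp⟩ ⟨⟨q1, q2⟩, hq⟩ h
    simp only [g, Subtype.mk.injEq, Prod.mk.injEq] at h
    have h1 := τ.injective h.1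
    have h2 := τ.injective h.2
    simp only [Subtype.mk.injEq] at h1 h2
    subst h1 h2
    rfl
  obtain ⟨⟨⟨p1, p2⟩, hp⟩, hpe⟩ := (Finite.injective_iff_surjective.mp hg) ⟨(a, b), hab⟩
  simp only [g, Subtype.mk.injEq, Prod.mk.injEq] at hpe
  exact ⟨⟨p1, hW _ _ hp⟩, ⟨p2, hW _ _ hp.symm⟩, hp, hpe.1, hpe.2⟩

/-- orbit-stabilizer counting: embeddings = copies times automorphisms -/
theorem card_embSet_eq (F G : SimpleGraph (Fin n)) (W : Finset (Fin n))
    (hW : ∀ u v, F.Adj u v → u ∈ W) :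
    (embSet F G W).card = copies G F * (embSet F F W).card := by
  rw [copies_eq_card]
  have hmaps : Set.MapsTo (pushGraph F W) (embSet F G W : Set (↥W ↪ Fin n))
      (copiesFinset G F : Set (SimpleGraph (Fin n))) := by
    intro φ hφ
    rw [Finset.mem_coe] at hφ
    rw [Finset.mem_coe, mem_copiesFinset]
    refine ⟨pushGraph_le F G W φ hφ, ?_⟩
    rw [iso_iff_perm]
    obtain ⟨σ, -, hσ⟩ := pushGraph_perm F W hW φ
    exact ⟨σ, hσ⟩
  rw [Finset.card_eq_sum_card_fiberwise hmaps]
  have hfib : ∀ G' ∈ copiesFinset G F,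
      ((embSet F G W).filter (fun φ => pushGraph F W φ = G')).card = (embSet F F W).card := by
    intro G' hG'
    rw [mem_copiesFinset] at hG'
    obtain ⟨hle, hiso⟩ := hG'
    obtain ⟨σ₀, hσ₀⟩ := (iso_iff_perm G' F).mp hiso
    refine Finset.card_bij (fun φ _ => φ.trans σ₀.symm.toEmbedding) ?_ ?_ ?_
    · intro φ hφ
      rw [Finset.mem_filter] at hφ
      rw [mem_embSet]
      intro u v huv
      have h1 : (pushGraph F W φ).Adj (φ u) (φ v) := ⟨u, v, huv, rfl, rfl⟩
      rw [hφ.2] at h1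
      have h2 := (hσ₀ (σ₀.symm (φ u)) (σ₀.symm (φ v))).mp (by simpa using h1)
      simpa using h2
    · intro φ _ φ' _ h
      ext w
      have := congrArg (fun ψ : ↥W ↪ Fin n => ψ w) h
      simp only [Function.Embedding.trans_apply, Equiv.coe_toEmbedding,
        EmbeddingLike.apply_eq_iff_eq] at this
      rw [this]
    · intro τ hτ
      have hτ' := (mem_embSet F F W τ).mp hτ
      refine ⟨τ.trans σ₀.toEmbedding, ?_, ?_⟩
      · rw [Finset.mem_filter, mem_embSet]
        refine ⟨?_, ?_⟩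
        · intro u v huv
          apply hle
          simp only [Function.Embedding.trans_apply, Equiv.coe_toEmbedding]
          exact (hσ₀ _ _).mpr (hτ' u v huv)
        · ext a b
          rw [pushGraph_adj]
          constructor
          · rintro ⟨u, v, h, rfl, rfl⟩
            simp only [Function.Embedding.trans_apply, Equiv.coe_toEmbedding]
            exact (hσ₀ _ _).mpr (hτ' u v h)
          · intro h
            obtain ⟨a', rfl⟩ := σ₀.surjective a
            obtain ⟨b', rfl⟩ := σ₀.surjective b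
            have h' := (hσ₀ a' b').mp h
            obtain ⟨u, v, huv, hu, hv⟩ := self_emb_surj F W hW τ hτ a' b' h'
            refine ⟨u, v, huv, ?_, ?_⟩
            · simp only [Function.Embedding.trans_apply, Equiv.coe_toEmbedding, hu]
            · simp only [Function.Embedding.trans_apply, Equiv.coe_toEmbedding, hv]
      · ext w
        simp
  rw [Finset.sum_congr rfl hfib, Finset.sum_const, smul_eq_mul]

/-- all embeddings are embeddings into the complete graph -/
lemma card_embSet_top (F : SimpleGraph (Fin n)) (W : Finset (Fin n)) :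
    (embSet F ⊤ W).card = n.descFactorial W.card := by
  have h : embSet F ⊤ W = Finset.univ := by
    ext φ
    simp only [mem_embSet, Finset.mem_univ, iff_true, SimpleGraph.top_adj]
    intro u v huv h
    have : u = v := φ.injective h
    subst this
    exact F.loopless.irrefl _ huv
  rw [h, Finset.card_univ, Fintype.card_embedding_eq, Fintype.card_fin, Fintype.card_coe]

/-- restriction of embeddings to the two parts of a union -/
lemma card_embSet_union_le (F G : SimpleGraph (Fin n)) (W₁ W₂ : Finset (Fin n)) :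
    (embSet F G (W₁ ∪ W₂)).card ≤ (embSet F G W₁).card * (embSet F G W₂).card := by
  rw [← Finset.card_product]
  let r₁ : (↥(W₁ ∪ W₂) ↪ Fin n) → (↥W₁ ↪ Fin n) := fun φ =>
    ⟨fun w => φ ⟨w.1, Finset.mem_union_left _ w.2⟩, fun a b h => by
      have := φ.injective h
      simp only [Subtype.mk.injEq] at this
      exact Subtype.ext this⟩
  let r₂ : (↥(W₁ ∪ W₂) ↪ Fin n) → (↥W₂ ↪ Fin n) := fun φ =>
    ⟨fun w => φ ⟨w.1, Finset.mem_union_right _ w.2⟩, fun a b h => by
      have := φ.injective h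
      simp only [Subtype.mk.injEq] at this
      exact Subtype.ext this⟩
  apply Finset.card_le_card_of_injOn (fun φ => (r₁ φ, r₂ φ))
  · intro φ hφ
    rw [Finset.mem_coe, mem_embSet] at hφ
    rw [Finset.mem_coe, Finset.mem_product, mem_embSet, mem_embSet]
    exact ⟨fun u v huv => hφ ⟨u.1, _⟩ ⟨v.1, _⟩ huv, fun u v huv => hφ ⟨u.1, _⟩ ⟨v.1, _⟩ huv⟩
  · intro φ _ φ' _ h
    simp only [Prod.mk.injEq] at h
    apply DFunLike.ext
    rintro ⟨w, hw⟩
    rcases Finset.mem_union.mp hw with h1 | h2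
    · have := congrArg (fun ψ : ↥W₁ ↪ Fin n => ψ ⟨w, h1⟩) h.1
      exact this
    · have := congrArg (fun ψ : ↥W₂ ↪ Fin n => ψ ⟨w, h2⟩) h.2
      exact this

/-- the number of homomorphic extensions of a partial map, in a connected piece, is at most
`Δ ^ (number of free vertices)` -/
lemma card_extensions_le (F H : SimpleGraph (Fin n)) (W : Finset (Fin n)) (Δ : ℕ)
    (hΔ : ∀ x, (H.neighborFinset x).card ≤ Δ)
    (hconn : ∀ S : Finset (Fin n), S ⊆ W → S.Nonempty → S ≠ W →
      ∃ x ∈ S, ∃ y ∈ W \ S, F.Adj x y) :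
    ∀ (k : ℕ) (S : Finset (Fin n)), S ⊆ W → S.Nonempty → W.card - S.card = k →
      ∀ ψ : Fin n → Fin n,
        ((Finset.univ : Finset (↥W → Fin n)).filter (fun φ =>
          (∀ u v : ↥W, F.Adj u v → H.Adj (φ u) (φ v)) ∧
            ∀ u : ↥W, (u : Fin n) ∈ S → φ u = ψ u)).card ≤ Δ ^ k := by
  intro k
  induction k with
  | zero =>
    intro S hS _ hk ψ
    have hSW : S = W := Finset.eq_of_subset_of_card_le hS (by omega)
    rw [pow_zero, Finset.card_le_one]
    intro φ hφ φ' hφ'
    rw [Finset.mem_filter] at hφ hφ'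
    funext u
    rw [hφ.2.2 u (hSW ▸ u.2), hφ'.2.2 u (hSW ▸ u.2)]
  | succ k ih =>
    intro S hS hne hk ψ
    have hSW : S ≠ W := by
      intro h
      rw [h] at hk
      omega
    obtain ⟨x, hx, y, hy, hxy⟩ := hconn S hS hne hSW
    rw [Finset.mem_sdiff] at hy
    have hxW : x ∈ W := hS hx
    have hsub : ((Finset.univ : Finset (↥W → Fin n)).filter (fun φ =>
          (∀ u v : ↥W, F.Adj u v → H.Adj (φ u) (φ v)) ∧
            ∀ u : ↥W, (u : Fin n) ∈ S → φ u = ψ u))
        ⊆ (H.neighborFinset (ψ x)).biUnion (fun b =>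
          ((Finset.univ : Finset (↥W → Fin n)).filter (fun φ =>
            (∀ u v : ↥W, F.Adj u v → H.Adj (φ u) (φ v)) ∧
              ∀ u : ↥W, (u : Fin n) ∈ insert y S → φ u = Function.update ψ y b u))) := by
      intro φ hφ
      rw [Finset.mem_filter] at hφ
      rw [Finset.mem_biUnion]
      refine ⟨φ ⟨y, hy.1⟩, ?_, ?_⟩
      · rw [SimpleGraph.mem_neighborFinset, ← hφ.2.2 ⟨x, hxW⟩ hx]
        exact hφ.2.1 ⟨x, hxW⟩ ⟨y, hy.1⟩ hxy
      · rw [Finset.mem_filter]
        refine ⟨Finset.mem_univ _, hφ.2.1, ?_⟩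
        intro u hu
        rw [Finset.mem_insert] at hu
        by_cases huy : (u : Fin n) = y
        · have : u = ⟨y, hy.1⟩ := Subtype.ext huy
          rw [this, Function.update_self]
        · rw [Function.update_of_ne huy]
          rcases hu with h | h
          · exact absurd h huy
          · exact hφ.2.2 u h
    refine le_trans (Finset.card_le_card hsub) (le_trans Finset.card_biUnion_le ?_)
    have hins : W.card - (insert y S).card = k := by
      rw [Finset.card_insert_of_notMem hy.2]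
      omega
    have hterm : ∀ b ∈ H.neighborFinset (ψ x),
        ((Finset.univ : Finset (↥W → Fin n)).filter (fun φ =>
            (∀ u v : ↥W, F.Adj u v → H.Adj (φ u) (φ v)) ∧
              ∀ u : ↥W, (u : Fin n) ∈ insert y S → φ u = Function.update ψ y b u)).card
          ≤ Δ ^ k := by
      intro b _
      exact ih (insert y S) (Finset.insert_subset hy.1 hS) (Finset.insert_nonempty y S) hins
        (Function.update ψ y b)
    calc _ ≤ ∑ _b ∈ H.neighborFinset (ψ x), Δ ^ k := Finset.sum_le_sum hterm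
      _ = (H.neighborFinset (ψ x)).card * Δ ^ k := by rw [Finset.sum_const, smul_eq_mul]
      _ ≤ Δ * Δ ^ k := Nat.mul_le_mul_right _ (hΔ (ψ x))
      _ = Δ ^ (k + 1) := by rw [pow_succ, mul_comm]

/-- the number of copies of a connected piece `F` (with vertex support in `W`) in `H` that
contain a given adjacent pair is at most `(number of darts of F) * Δ ^ (|W| - 2)` -/
lemma copies_through_le (F H : SimpleGraph (Fin n)) (W : Finset (Fin n)) (Δ : ℕ)
    (hΔ : ∀ x, (H.neighborFinset x).card ≤ Δ)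
    (hW : ∀ u v, F.Adj u v → u ∈ W)
    (hconn : ∀ S : Finset (Fin n), S ⊆ W → S.Nonempty → S ≠ W →
      ∃ x ∈ S, ∃ y ∈ W \ S, F.Adj x y)
    (a b : Fin n) :
    ((copiesFinset H F).filter (fun G' => G'.Adj a b)).card
      ≤ Fintype.card F.Dart * Δ ^ (W.card - 2) := by
  let E : F.Dart → Finset (↥W ↪ Fin n) := fun d =>
    (embSet F H W).filter (fun φ =>
      ∃ u v : ↥W, (u : Fin n) = d.fst ∧ (v : Fin n) = d.snd ∧ φ u = a ∧ φ v = b)
  have hsub : (copiesFinset H F).filter (fun G' => G'.Adj a b)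
      ⊆ (Finset.univ : Finset F.Dart).biUnion (fun d => (E d).image (pushGraph F W)) := by
    intro G' hG'
    rw [Finset.mem_filter, mem_copiesFinset] at hG'
    obtain ⟨⟨hle, hiso⟩, hab⟩ := hG'
    obtain ⟨σ, hσ⟩ := (iso_iff_perm G' F).mp hiso
    obtain ⟨a', rfl⟩ := σ.surjective a
    obtain ⟨b', rfl⟩ := σ.surjective b
    have hab' := (hσ a' b').mp hab
    rw [Finset.mem_biUnion]
    refine ⟨⟨(a', b'), hab'⟩, Finset.mem_univ _, ?_⟩
    rw [Finset.mem_image]
    refine ⟨restrictPerm W σ, ?_, pushGraph_restrictPerm F G' W hW σ hσ⟩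
    rw [Finset.mem_filter, mem_embSet]
    exact ⟨fun u v huv => hle ((hσ u v).mpr huv), ⟨a', hW _ _ hab'⟩, ⟨b', hW _ _ hab'.symm⟩,
      rfl, rfl, rfl, rfl⟩
  have hE : ∀ d : F.Dart, (E d).card ≤ Δ ^ (W.card - 2) := by
    intro d
    have hd1 : d.fst ∈ W := hW _ _ d.adj
    have hd2 : d.snd ∈ W := hW _ _ d.adj.symm
    have hne : d.fst ≠ d.snd := d.adj.ne
    have hS : ({d.fst, d.snd} : Finset (Fin n)) ⊆ W := by
      intro x hx
      rw [Finset.mem_insert, Finset.mem_singleton] at hx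
      rcases hx with rfl | rfl
      · exact hd1
      · exact hd2
    have hcard : ({d.fst, d.snd} : Finset (Fin n)).card = 2 := Finset.card_pair hne
    have hext := card_extensions_le F H W Δ hΔ hconn (W.card - 2) {d.fst, d.snd} hS
      ⟨d.fst, Finset.mem_insert_self _ _⟩ (by rw [hcard]) (fun x => if x = d.fst then a else b)
    refine le_trans (Finset.card_le_card_of_injOn
      (fun φ : ↥W ↪ Fin n => (⇑φ : ↥W → Fin n)) ?_ ?_) hext
    · intro φ hφ
      simp only [E, Finset.coe_filter, Set.mem_ofPred_eq, mem_embSet] at hφ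
      obtain ⟨hhom, u₀, v₀, hu₀, hv₀, hua, hvb⟩ := hφ
      rw [Finset.mem_coe, Finset.mem_filter]
      refine ⟨Finset.mem_univ _, hhom, ?_⟩
      intro u hu
      rw [Finset.mem_insert, Finset.mem_singleton] at hu
      rcases hu with h | h
      · have hu' : u = u₀ := Subtype.ext (h.trans hu₀.symm)
        show φ u = _
        rw [hu', hua, if_pos hu₀]
      · have hu' : u = v₀ := Subtype.ext (h.trans hv₀.symm)
        show φ u = _
        rw [hu', hvb, if_neg]
        rw [hv₀]
        exact hne.symm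
    · intro φ _ φ' _ h
      exact DFunLike.coe_injective h
  calc ((copiesFinset H F).filter (fun G' => G'.Adj a b)).card
      ≤ ((Finset.univ : Finset F.Dart).biUnion (fun d => (E d).image (pushGraph F W))).card :=
        Finset.card_le_card hsub
    _ ≤ ∑ d : F.Dart, ((E d).image (pushGraph F W)).card := Finset.card_biUnion_le
    _ ≤ ∑ _d : F.Dart, Δ ^ (W.card - 2) :=
        Finset.sum_le_sum (fun d _ => le_trans Finset.card_image_le (hE d))
    _ = Fintype.card F.Dart * Δ ^ (W.card - 2) := by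
        rw [Finset.sum_const, Finset.card_univ, smul_eq_mul]

/-- the union of a family of graphs -/
def unionGraph (F : Finset (SimpleGraph (Fin n))) : SimpleGraph (Fin n) where
  Adj a b := ∃ G' ∈ F, G'.Adj a b
  symm := ⟨fun _ _ ⟨G', h, hab⟩ => ⟨G', h, hab.symm⟩⟩
  loopless := ⟨fun a ⟨G', _, h⟩ => G'.loopless.irrefl a h⟩

lemma unionGraph_adj (F : Finset (SimpleGraph (Fin n))) (a b : Fin n) :
    (unionGraph F).Adj a b ↔ ∃ G' ∈ F, G'.Adj a b := Iff.rfl

lemma ncard_edgeSet (F : SimpleGraph (Fin n)) : F.edgeSet.ncard = F.edgeFinset.card := by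
  rw [← SimpleGraph.coe_edgeFinset, Set.ncard_coe_finset]

lemma unionGraph_edgeFinset (F : Finset (SimpleGraph (Fin n))) :
    (unionGraph F).edgeFinset = F.biUnion (fun G' => G'.edgeFinset) := by
  ext e
  induction e using Sym2.ind with
  | _ a b =>
    simp only [SimpleGraph.mem_edgeFinset, SimpleGraph.mem_edgeSet, unionGraph_adj,
      Finset.mem_biUnion]

lemma unionGraph_le (H : SimpleGraph (Fin n)) (F : Finset (SimpleGraph (Fin n)))
    (hF : ∀ G' ∈ F, G' ≤ H) : unionGraph F ≤ H := by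
  intro a b hab
  obtain ⟨G', hG', h⟩ := hab
  exact hF G' hG' h

end Vale.Agent.Lib.P064
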