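import Vale.Agent.Lib.P064.Components

namespace Vale.Agent.Lib.P064

open Finset

open scoped Classical

variable {n : ℕ}

/-- the set of non-isolated vertices of `F` -/
noncomputable def supp (F : SimpleGraph (Fin n)) : Finset (Fin n) :=
  Finset.univ.filter (fun u => ∃ v, F.Adj u v)

lemma mem_supp (F : SimpleGraph (Fin n)) (u : Fin n) : u ∈ supp F ↔ ∃ v, F.Adj u v := by
  simp [supp]

lemma supp_left (F : SimpleGraph (Fin n)) (u v : Fin n) (h : F.Adj u v) : u ∈ supp F :=
  (mem_supp F u).mpr ⟨v, h⟩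

lemma restr_supp (F : SimpleGraph (Fin n)) : restr F (supp F) = F := by
  ext a b
  rw [restr_adj]
  constructor
  · intro h
    exact h.1
  · intro h
    exact ⟨h, supp_left F a b h, supp_left F b a h.symm⟩

lemma card_supp_le (F : SimpleGraph (Fin n)) : (supp F).card ≤ 2 * F.edgeFinset.card := by
  rw [← SimpleGraph.dart_card_eq_twice_card_edges, ← Fintype.card_coe]
  have hex : ∀ u : ↥(supp F), ∃ v, F.Adj u v := fun u => (mem_supp F u).mp u.2
  let f : ↥(supp F) → F.Dart := fun u => ⟨((u : Fin n), Classical.choose (hex u)),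
    Classical.choose_spec (hex u)⟩
  apply Fintype.card_le_of_injective f
  intro u v h
  have := congrArg (fun d : F.Dart => d.fst) h
  exact Subtype.ext this

lemma pow_le_exp_descFactorial (N v : ℕ) (hv : v ≤ N) :
    (N : ℝ) ^ v ≤ Real.exp v * (N.descFactorial v : ℝ) := by
  have h1 := choose_ratio v N v hv
  rw [Nat.choose_self, one_mul] at h1
  have h1' : (N : ℝ) ^ v ≤ (N.choose v : ℝ) * (v : ℝ) ^ v := by exact_mod_cast h1
  have hfact : (0 : ℝ) < (v.factorial : ℝ) := by exact_mod_cast Nat.factorial_pos v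
  have h2 : (v : ℝ) ^ v / (v.factorial : ℝ) ≤ Real.exp v :=
    Real.pow_div_factorial_le_exp (v : ℝ) (Nat.cast_nonneg v) v
  rw [div_le_iff₀ hfact] at h2
  have h3 : (N.descFactorial v : ℝ) = (v.factorial : ℝ) * (N.choose v : ℝ) := by
    rw [Nat.descFactorial_eq_factorial_mul_choose]
    push_cast
    ring
  rw [h3]
  calc (N : ℝ) ^ v ≤ (N.choose v : ℝ) * (v : ℝ) ^ v := h1'
    _ ≤ (N.choose v : ℝ) * (Real.exp v * (v.factorial : ℝ)) :=
        mul_le_mul_of_nonneg_left h2 (Nat.cast_nonneg _)
    _ = Real.exp v * ((v.factorial : ℝ) * (N.choose v : ℝ)) := by ring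

lemma exp_le_nine_pow (v m : ℕ) (h : v ≤ 2 * m) : Real.exp v ≤ 9 ^ m := by
  have h1 : Real.exp v ≤ Real.exp (2 * m : ℕ) := by
    apply Real.exp_le_exp.mpr
    exact_mod_cast h
  have h2 : Real.exp ((2 * m : ℕ) : ℝ) = Real.exp 1 ^ (2 * m) := by
    rw [← Real.exp_nat_mul, mul_one]
  have h3 : Real.exp 1 ^ (2 * m) ≤ (3 : ℝ) ^ (2 * m) :=
    pow_le_pow_left₀ (Real.exp_pos 1).le Real.exp_one_lt_three.le _
  have h4 : (3 : ℝ) ^ (2 * m) = 9 ^ m := by
    rw [pow_mul]
    norm_num
  rw [h2] at h1
  linarith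

/-- from a bound on the embeddings of the support to a bound on the number of copies -/
theorem final_step (F H : SimpleGraph (Fin n)) (y : ℝ) (hy : 0 ≤ y)
    (h : ((embSet F H (supp F)).card : ℝ)
      ≤ (n : ℝ) ^ (supp F).card * y ^ F.edgeFinset.card) :
    (copies H F : ℝ) ≤ (copies ⊤ F : ℝ) * (9 * y) ^ F.edgeFinset.card := by
  have hW : ∀ u v, F.Adj u v → u ∈ supp F := supp_left F
  have e1 := card_embSet_eq F H (supp F) hW
  have e2 := card_embSet_eq F ⊤ (supp F) hW
  rw [card_embSet_top] at e2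
  have hApos : 0 < (embSet F F (supp F)).card := by
    rw [Finset.card_pos]
    refine ⟨Function.Embedding.subtype _, ?_⟩
    rw [mem_embSet]
    intro u v huv
    exact huv
  have hA : (0 : ℝ) < ((embSet F F (supp F)).card : ℝ) := by exact_mod_cast hApos
  have hv : (supp F).card ≤ n := by
    have := Finset.card_le_univ (supp F)
    rwa [Fintype.card_fin] at this
  have h3 := pow_le_exp_descFactorial n (supp F).card hv
  have h4 := exp_le_nine_pow (supp F).card F.edgeFinset.card (card_supp_le F)
  rw [e1] at h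
  rw [e2] at h3
  push_cast at h h3
  have hym : (0 : ℝ) ≤ y ^ F.edgeFinset.card := pow_nonneg hy _
  have hc : (0 : ℝ) ≤ (copies ⊤ F : ℝ) := Nat.cast_nonneg _
  have key : (copies H F : ℝ) * ((embSet F F (supp F)).card : ℝ)
      ≤ ((copies ⊤ F : ℝ) * (9 * y) ^ F.edgeFinset.card) * ((embSet F F (supp F)).card : ℝ) := by
    calc (copies H F : ℝ) * ((embSet F F (supp F)).card : ℝ)
        ≤ (n : ℝ) ^ (supp F).card * y ^ F.edgeFinset.card := h
      _ ≤ (Real.exp ((supp F).card) * ((copies ⊤ F : ℝ) * ((embSet F F (supp F)).card : ℝ)))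
            * y ^ F.edgeFinset.card := mul_le_mul_of_nonneg_right h3 hym
      _ ≤ (9 ^ F.edgeFinset.card * ((copies ⊤ F : ℝ) * ((embSet F F (supp F)).card : ℝ)))
            * y ^ F.edgeFinset.card := by
          apply mul_le_mul_of_nonneg_right _ hym
          exact mul_le_mul_of_nonneg_right h4 (by positivity)
      _ = ((copies ⊤ F : ℝ) * (9 * y) ^ F.edgeFinset.card)
            * ((embSet F F (supp F)).card : ℝ) := by
          rw [mul_pow]
          ring
  exact le_of_mul_le_mul_right key hA

/-- the comparison for all subgraphs of a host graph of maximum degree at most `Δ` -/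
theorem comparison_deg (H : SimpleGraph (Fin n)) (Δ : ℕ)
    (hΔ : ∀ x, (H.neighborFinset x).card ≤ Δ) (q : ℝ) (hq0 : 0 ≤ q)
    (hyp : ∀ F : SimpleGraph (Fin n), F ≤ H →
      (1 : ℝ) ≤ (copies ⊤ F : ℝ) * q ^ F.edgeSet.ncard)
    (F : SimpleGraph (Fin n)) (hF : F ≤ H) :
    (copies H F : ℝ) ≤ (copies ⊤ F : ℝ) * (72 * Δ * q) ^ F.edgeFinset.card := by
  by_cases hΔ1 : 1 ≤ Δ
  · have hfin := final_step F H (8 * Δ * q) (by positivity) ?_
    · have e : (9 : ℝ) * (8 * Δ * q) = 72 * Δ * q := by ring
      rw [e] at hfin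
      exact hfin
    · have hcb := comp_bound F H (8 * Δ * q) (by positivity) ?_ (supp F).card (supp F) le_rfl
        (fun u hu v huv => supp_left F v u huv.symm) (fun u hu => (mem_supp F u).mp hu)
      · rw [restr_supp] at hcb
        exact hcb
      · intro W₁ h2 hcl hconn
        have hpb := piece_bound (restr F W₁) H W₁ Δ hΔ1 hΔ (fun u v huv => huv.2.1)
          (fun S hS hSne hSW => by
            obtain ⟨x, hx, z, hz, hxz⟩ := hconn S hS hSne hSW
            exact ⟨x, hx, z, hz, hxz, hS hx, (Finset.mem_sdiff.mp hz).1⟩)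
          h2 q hq0 hyp
        rw [embSet_restr] at hpb
        refine le_trans hpb ?_
        apply mul_le_mul_of_nonneg_right _ (by positivity)
        exact_mod_cast Nat.descFactorial_le_pow n W₁.card
  · have hΔ0 : Δ = 0 := by omega
    have hbot : F.edgeFinset.card = 0 := by
      rw [Finset.card_eq_zero]
      ext e
      induction e using Sym2.ind with
      | _ a b =>
        simp only [SimpleGraph.mem_edgeFinset, SimpleGraph.mem_edgeSet, Finset.notMem_empty,
          iff_false]
        intro hab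
        have h1 : b ∈ H.neighborFinset a := by
          rw [SimpleGraph.mem_neighborFinset]
          exact hF hab
        have h2 := hΔ a
        rw [hΔ0, Nat.le_zero, Finset.card_eq_zero] at h2
        rw [h2] at h1
        exact Finset.notMem_empty _ h1
    rw [hbot, pow_zero, mul_one]
    exact_mod_cast copies_le_top H F

end Vale.Agent.Lib.P064
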