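import Vale.Agent.Lib.P064.ThresholdLemmas

namespace Vale.Agent.Lib.P064

open Finset

open scoped Classical

variable {n : ℕ}

/-- an acyclic graph with an edge has a leaf -/
lemma exists_leaf (G : SimpleGraph (Fin n)) (hG : G.IsAcyclic) (a b : Fin n) (hab : G.Adj a b) :
    ∃ u x, G.Adj u x ∧ ∀ w, G.Adj u w → w = x := by
  have : Nonempty (Fin n) := ⟨a⟩
  obtain ⟨u, v, p, hp, hmax⟩ := SimpleGraph.Walk.exists_isPath_forall_isPath_length_le_length G
  have hnil : ¬p.Nil := by
    intro hnil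
    have h1 := hmax a b (SimpleGraph.Walk.cons hab SimpleGraph.Walk.nil) (by simp [hab.ne])
    have h2 : p.length = 0 := SimpleGraph.Walk.length_eq_zero_iff.mpr hnil
    simp at h1
    omega
  refine ⟨u, p.snd, p.adj_snd hnil, fun w hadj => ?_⟩
  apply hG.eq_snd_of_adj_start hp hadj
  have : ¬(p.cons hadj.symm).IsPath := by grind [SimpleGraph.Walk.length_cons]
  grind [hp.cons]

/-- removing a leaf `l` with neighbour `x` loses at most a factor `Δ` -/
lemma card_embSet_erase_le (F H : SimpleGraph (Fin n)) (W : Finset (Fin n)) (Δ : ℕ)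
    (hΔ : ∀ x, (H.neighborFinset x).card ≤ Δ) (l x : Fin n) (hl : l ∈ W) (hx : x ∈ W)
    (hlx : F.Adj l x) :
    (embSet F H W).card ≤ Δ * (embSet F H (W.erase l)).card := by
  have hxl : x ≠ l := hlx.ne'
  have hx' : x ∈ W.erase l := Finset.mem_erase.mpr ⟨hxl, hx⟩
  let r : (↥W ↪ Fin n) → (↥(W.erase l) ↪ Fin n) := fun φ =>
    ⟨fun w => φ ⟨w.1, Finset.mem_of_mem_erase w.2⟩, fun a b h => by
      have := φ.injective h
      simp only [Subtype.mk.injEq] at this
      exact Subtype.ext this⟩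
  have h1 := Finset.card_le_mul_card_image (f := r) (embSet F H W) Δ ?_
  · refine le_trans h1 (Nat.mul_le_mul_left Δ (Finset.card_le_card ?_))
    intro ψ hψ
    rw [Finset.mem_image] at hψ
    obtain ⟨φ, hφ, rfl⟩ := hψ
    rw [mem_embSet] at hφ ⊢
    intro u v huv
    exact hφ ⟨u.1, _⟩ ⟨v.1, _⟩ huv
  · intro ψ _
    refine le_trans ?_ (hΔ (ψ ⟨x, hx'⟩))
    apply Finset.card_le_card_of_injOn (fun φ : ↥W ↪ Fin n => φ ⟨l, hl⟩)
    · intro φ hφ
      rw [Finset.mem_coe, Finset.mem_filter, mem_embSet] at hφ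
      rw [Finset.mem_coe, SimpleGraph.mem_neighborFinset, ← hφ.2]
      exact hφ.1 ⟨x, hx⟩ ⟨l, hl⟩ hlx.symm
    · intro φ hφ φ' hφ' h
      rw [Finset.mem_coe, Finset.mem_filter] at hφ hφ'
      apply DFunLike.ext
      rintro ⟨w, hw⟩
      by_cases hwl : w = l
      · subst hwl
        exact h
      · have := congrArg
          (fun ψ' : ↥(W.erase l) ↪ Fin n => ψ' ⟨w, Finset.mem_erase.mpr ⟨hwl, hw⟩⟩)
          (hφ.2.trans hφ'.2.symm)
        exact this

/-- removing a leaf removes exactly one edge -/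
lemma restr_erase_edges (F : SimpleGraph (Fin n)) (W : Finset (Fin n)) (l x : Fin n)
    (hadj : (restr F W).Adj l x) (huniq : ∀ w, (restr F W).Adj l w → w = x) :
    (restr F W).edgeFinset.card = (restr F (W.erase l)).edgeFinset.card + 1 := by
  have hins : (restr F W).edgeFinset = insert s(l, x) (restr F (W.erase l)).edgeFinset := by
    ext e
    induction e using Sym2.ind with
    | _ a b =>
      simp only [Finset.mem_insert, SimpleGraph.mem_edgeFinset, SimpleGraph.mem_edgeSet]
      constructor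
      · intro hab
        by_cases hal : a = l
        · subst hal
          have := huniq b hab
          subst this
          exact Or.inl rfl
        · by_cases hbl : b = l
          · subst hbl
            have := huniq a hab.symm
            subst this
            exact Or.inl Sym2.eq_swap
          · right
            rw [restr_adj] at hab ⊢
            exact ⟨hab.1, Finset.mem_erase.mpr ⟨hal, hab.2.1⟩,
              Finset.mem_erase.mpr ⟨hbl, hab.2.2⟩⟩
      · rintro (h | h)
        · rw [Sym2.eq_iff] at h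
          rcases h with ⟨rfl, rfl⟩ | ⟨rfl, rfl⟩
          · exact hadj
          · exact hadj.symm
        · rw [restr_adj] at h ⊢
          exact ⟨h.1, Finset.mem_of_mem_erase h.2.1, Finset.mem_of_mem_erase h.2.2⟩
  have hnot : s(l, x) ∉ (restr F (W.erase l)).edgeFinset := by
    rw [SimpleGraph.mem_edgeFinset, SimpleGraph.mem_edgeSet, restr_adj]
    rintro ⟨_, h, _⟩
    exact (Finset.mem_erase.mp h).1 rfl
  rw [hins, Finset.card_insert_of_notMem hnot]

/-- embeddings of a forest into a host graph of maximum degree at most `Δ` -/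
lemma forest_emb (F H : SimpleGraph (Fin n)) (hF : F.IsAcyclic) (Δ : ℕ)
    (hΔ : ∀ x, (H.neighborFinset x).card ≤ Δ) :
    ∀ (k : ℕ) (W : Finset (Fin n)), W.card = k →
      (embSet F H W).card * n ^ (restr F W).edgeFinset.card
        ≤ n ^ W.card * Δ ^ (restr F W).edgeFinset.card := by
  intro k
  induction k with
  | zero =>
    intro W hW
    have : W = ∅ := Finset.card_eq_zero.mp hW
    subst this
    rw [restr_empty, pow_zero, pow_zero, mul_one, mul_one, Finset.card_empty, pow_zero]
    have := card_embSet_le F H ∅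
    rwa [Finset.card_empty, Nat.descFactorial_zero] at this
  | succ k ih =>
    intro W hW
    by_cases hm : (restr F W).edgeFinset.card = 0
    · rw [hm, pow_zero, pow_zero, mul_one, mul_one]
      exact le_trans (card_embSet_le F H W) (Nat.descFactorial_le_pow n W.card)
    · obtain ⟨e, he⟩ := Finset.card_pos.mp (Nat.pos_of_ne_zero hm)
      induction e using Sym2.ind with
      | _ a b =>
        rw [SimpleGraph.mem_edgeFinset, SimpleGraph.mem_edgeSet] at he
        obtain ⟨l, x, hlx, huniq⟩ := exists_leaf (restr F W) (hF.anti (restr_le F W)) a b he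
        have hl : l ∈ W := hlx.2.1
        have hx : x ∈ W := hlx.2.2
        have hcardW : (W.erase l).card = k := by
          rw [Finset.card_erase_of_mem hl, hW]
          rfl
        have h1 := ih (W.erase l) hcardW
        have h2 := card_embSet_erase_le F H W Δ hΔ l x hl hx hlx.1
        have h3 := restr_erase_edges F W l x hlx huniq
        have h4 : W.card = (W.erase l).card + 1 := (Finset.card_erase_add_one hl).symm
        rw [h3, h4]
        calc (embSet F H W).card * n ^ ((restr F (W.erase l)).edgeFinset.card + 1)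
            ≤ (Δ * (embSet F H (W.erase l)).card)
                * n ^ ((restr F (W.erase l)).edgeFinset.card + 1) := Nat.mul_le_mul_right _ h2
          _ = Δ * n * ((embSet F H (W.erase l)).card
                * n ^ (restr F (W.erase l)).edgeFinset.card) := by ring
          _ ≤ Δ * n * (n ^ (W.erase l).card * Δ ^ (restr F (W.erase l)).edgeFinset.card) :=
              Nat.mul_le_mul_left _ h1
          _ = n ^ ((W.erase l).card + 1) * Δ ^ ((restr F (W.erase l)).edgeFinset.card + 1) := by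
              ring

/-- the star at a vertex has at least one expected copy -/
lemma star_hyp (H : SimpleGraph (Fin n)) (q : ℝ) (hq0 : 0 ≤ q)
    (hyp : ∀ F : SimpleGraph (Fin n), F ≤ H →
      (1 : ℝ) ≤ (copies ⊤ F : ℝ) * q ^ F.edgeSet.ncard)
    (x : Fin n) :
    (1 : ℝ) ≤ (n : ℝ) * ((n - 1).choose (H.degree x) : ℝ) * q ^ (H.degree x) := by
  set d := H.degree x with hd
  set y : Σ _ : Fin n, Finset (Fin n) := ⟨x, H.neighborFinset x⟩ with hy
  have hy1 : y ∈ starPairs H d := by
    rw [mem_starPairs]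
    exact ⟨Finset.Subset.refl _, SimpleGraph.card_neighborFinset_eq_degree H x⟩
  have hF : ({y} : Finset (Σ _ : Fin n, Finset (Fin n))) ⊆ starPairs H d :=
    Finset.singleton_subset_iff.mpr hy1
  have hdis : (({y} : Finset (Σ _ : Fin n, Finset (Fin n))) :
      Set (Σ _ : Fin n, Finset (Fin n))).PairwiseDisjoint starEdges := by
    rw [Finset.coe_singleton]
    exact Set.pairwiseDisjoint_singleton _ _
  have h2 := hyp (familyGraph {y}) (familyGraph_le H d {y} hF)
  rw [familyGraph_edges H d {y} hF hdis, Finset.card_singleton, one_mul] at h2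
  have h3 := copies_familyGraph_le H d {y} hF
  rw [card_starPairs_top, Finset.card_singleton, Nat.choose_one_right] at h3
  have h3' : (copies ⊤ (familyGraph {y}) : ℝ) ≤ (n : ℝ) * ((n - 1).choose d : ℝ) := by
    exact_mod_cast h3
  exact le_trans h2 (mul_le_mul_of_nonneg_right h3' (pow_nonneg hq0 d))

/-- a vertex of degree `d ≥ log n` forces `d ≤ 8 n q` -/
lemma deg_le_of_hyp (N d : ℕ) (q : ℝ) (hq0 : 0 ≤ q) (hd : 1 ≤ d) (hlog : Real.log N ≤ d)
    (h : (1 : ℝ) ≤ (N : ℝ) * ((N - 1).choose d : ℝ) * q ^ d) :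
    (d : ℝ) ≤ 8 * N * q := by
  have hN : 1 ≤ N := by
    by_contra hN
    have : N = 0 := by omega
    subst this
    simp at h
    linarith
  have hN0 : (0 : ℝ) < (N : ℝ) := by exact_mod_cast hN
  have hNexp : (N : ℝ) ≤ Real.exp d := (Real.log_le_iff_le_exp hN0).mp hlog
  have hfact : (0 : ℝ) < (d.factorial : ℝ) := by exact_mod_cast Nat.factorial_pos d
  have hC : ((N - 1).choose d : ℝ) ≤ (N : ℝ) ^ d / (d.factorial : ℝ) := by
    have h1 : ((N - 1).choose d : ℝ) ≤ ((N - 1 : ℕ) : ℝ) ^ d / (d.factorial : ℝ) :=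
      Nat.choose_le_pow_div d (N - 1)
    have h2 : ((N - 1 : ℕ) : ℝ) ^ d ≤ (N : ℝ) ^ d := by
      apply pow_le_pow_left₀ (Nat.cast_nonneg _)
      exact_mod_cast Nat.sub_le N 1
    exact le_trans h1 (div_le_div_of_nonneg_right h2 hfact.le)
  have hqd : (0 : ℝ) ≤ q ^ d := pow_nonneg hq0 d
  have h1 : (d.factorial : ℝ) ≤ (N : ℝ) * ((N : ℝ) * q) ^ d := by
    have : (1 : ℝ) ≤ (N : ℝ) * ((N : ℝ) ^ d / (d.factorial : ℝ)) * q ^ d :=
      le_trans h (mul_le_mul_of_nonneg_right (mul_le_mul_of_nonneg_left hC hN0.le) hqd)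
    have e : (N : ℝ) * ((N : ℝ) ^ d / (d.factorial : ℝ)) * q ^ d
        = ((N : ℝ) * ((N : ℝ) * q) ^ d) / (d.factorial : ℝ) := by
      rw [mul_pow]
      field_simp
    rw [e, le_div_iff₀ hfact, one_mul] at this
    exact this
  have h2 : (d : ℝ) ^ d / (d.factorial : ℝ) ≤ Real.exp d :=
    Real.pow_div_factorial_le_exp (d : ℝ) (Nat.cast_nonneg d) d
  rw [div_le_iff₀ hfact] at h2
  have hNq : (0 : ℝ) ≤ ((N : ℝ) * q) ^ d := by positivity
  have h3 : (d : ℝ) ^ d ≤ (Real.exp 1 * Real.exp 1 * ((N : ℝ) * q)) ^ d := by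
    rw [mul_pow, mul_pow, Real.exp_one_pow]
    calc (d : ℝ) ^ d ≤ Real.exp d * (d.factorial : ℝ) := h2
      _ ≤ Real.exp d * ((N : ℝ) * ((N : ℝ) * q) ^ d) :=
          mul_le_mul_of_nonneg_left h1 (Real.exp_pos _).le
      _ ≤ Real.exp d * (Real.exp d * ((N : ℝ) * q) ^ d) := by
          apply mul_le_mul_of_nonneg_left _ (Real.exp_pos _).le
          exact mul_le_mul_of_nonneg_right hNexp hNq
      _ = Real.exp d * Real.exp d * ((N : ℝ) * q) ^ d := by ring
  have hnn : (0 : ℝ) ≤ Real.exp 1 * Real.exp 1 * ((N : ℝ) * q) := by positivity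
  have h4 : (d : ℝ) ≤ Real.exp 1 * Real.exp 1 * ((N : ℝ) * q) :=
    (pow_le_pow_iff_left₀ (Nat.cast_nonneg d) hnn (by omega)).mp h3
  have he : Real.exp 1 * Real.exp 1 ≤ 8 := by
    have h5 : Real.exp 1 ≤ 2.72 := by
      have := Real.exp_one_lt_d9
      linarith
    have h6 : (0 : ℝ) ≤ Real.exp 1 := (Real.exp_pos 1).le
    nlinarith
  have h7 : Real.exp 1 * Real.exp 1 * ((N : ℝ) * q) ≤ 8 * ((N : ℝ) * q) :=
    mul_le_mul_of_nonneg_right he (by positivity)
  linarith

/-- the comparison for forests in a host graph with a vertex of degree at least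
`max(1, log n)`: the constant is `72` -/
theorem comparison_forest_dense (H : SimpleGraph (Fin n)) (q : ℝ) (hq0 : 0 ≤ q)
    (hyp : ∀ F : SimpleGraph (Fin n), F ≤ H →
      (1 : ℝ) ≤ (copies ⊤ F : ℝ) * q ^ F.edgeSet.ncard)
    (F : SimpleGraph (Fin n)) (hacyc : F.IsAcyclic)
    (hdeg : max 1 (Real.log n) ≤ (H.maxDegree : ℝ)) :
    (copies H F : ℝ) ≤ (copies ⊤ F : ℝ) * (72 * q) ^ F.edgeFinset.card := by
  by_cases hm : F.edgeFinset.card = 0
  · rw [hm, pow_zero, mul_one]
    exact_mod_cast copies_le_top H F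
  obtain ⟨e, he⟩ := Finset.card_pos.mp (Nat.pos_of_ne_zero hm)
  have hne : Nonempty (Fin n) := by
    induction e using Sym2.ind with
    | _ a b => exact ⟨a⟩
  have hΔ : ∀ x, (H.neighborFinset x).card ≤ H.maxDegree := by
    intro x
    rw [SimpleGraph.card_neighborFinset_eq_degree]
    exact H.degree_le_maxDegree x
  have hlog : Real.log n ≤ (H.maxDegree : ℝ) := le_trans (le_max_right _ _) hdeg
  have hΔ1 : 1 ≤ H.maxDegree := by
    have : (1 : ℝ) ≤ (H.maxDegree : ℝ) := le_trans (le_max_left _ _) hdeg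
    exact_mod_cast this
  obtain ⟨x₀, hx₀⟩ := H.exists_maximal_degree_vertex
  have hs := star_hyp H q hq0 hyp x₀
  rw [← hx₀] at hs
  have hdeg' := deg_le_of_hyp n H.maxDegree q hq0 hΔ1 hlog hs
  have fe := forest_emb F H hacyc H.maxDegree hΔ (supp F).card (supp F) rfl
  rw [restr_supp] at fe
  have fe' : ((embSet F H (supp F)).card : ℝ) * (n : ℝ) ^ F.edgeFinset.card
      ≤ (n : ℝ) ^ (supp F).card * (H.maxDegree : ℝ) ^ F.edgeFinset.card := by
    exact_mod_cast fe
  have hn0 : (0 : ℝ) < (n : ℝ) := by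
    have : 0 < n := Fin.pos (Classical.choice hne)
    exact_mod_cast this
  have hnm : (0 : ℝ) < (n : ℝ) ^ F.edgeFinset.card := pow_pos hn0 _
  have hpow : (H.maxDegree : ℝ) ^ F.edgeFinset.card ≤ (8 * n * q) ^ F.edgeFinset.card :=
    pow_le_pow_left₀ (Nat.cast_nonneg _) hdeg' _
  have key : ((embSet F H (supp F)).card : ℝ) * (n : ℝ) ^ F.edgeFinset.card
      ≤ ((n : ℝ) ^ (supp F).card * (8 * q) ^ F.edgeFinset.card)
          * (n : ℝ) ^ F.edgeFinset.card := by
    calc ((embSet F H (supp F)).card : ℝ) * (n : ℝ) ^ F.edgeFinset.card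
        ≤ (n : ℝ) ^ (supp F).card * (H.maxDegree : ℝ) ^ F.edgeFinset.card := fe'
      _ ≤ (n : ℝ) ^ (supp F).card * (8 * n * q) ^ F.edgeFinset.card :=
          mul_le_mul_of_nonneg_left hpow (by positivity)
      _ = ((n : ℝ) ^ (supp F).card * (8 * q) ^ F.edgeFinset.card)
            * (n : ℝ) ^ F.edgeFinset.card := by
          rw [mul_pow, mul_pow, mul_pow]
          ring
  have hemb := le_of_mul_le_mul_right key hnm
  have hfin := final_step F H (8 * q) (by positivity) hemb
  have e9 : (9 : ℝ) * (8 * q) = 72 * q := by ring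
  rw [e9] at hfin
  exact hfin

/-- the comparison for forests: the constant is `72 max(1, log n)` -/
theorem comparison_forest (H : SimpleGraph (Fin n)) (q : ℝ) (hq0 : 0 ≤ q)
    (hyp : ∀ F : SimpleGraph (Fin n), F ≤ H →
      (1 : ℝ) ≤ (copies ⊤ F : ℝ) * q ^ F.edgeSet.ncard)
    (F : SimpleGraph (Fin n)) (hF : F ≤ H) (hacyc : F.IsAcyclic) :
    (copies H F : ℝ)
      ≤ (copies ⊤ F : ℝ) * (72 * max 1 (Real.log n) * q) ^ F.edgeFinset.card := by
  have hΔ : ∀ x, (H.neighborFinset x).card ≤ H.maxDegree := by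
    intro x
    rw [SimpleGraph.card_neighborFinset_eq_degree]
    exact H.degree_le_maxDegree x
  have hmax1 : (1 : ℝ) ≤ max 1 (Real.log n) := le_max_left _ _
  have hc : (0 : ℝ) ≤ (copies ⊤ F : ℝ) := Nat.cast_nonneg _
  by_cases hcase : (H.maxDegree : ℝ) ≤ max 1 (Real.log n)
  · have h1 := comparison_deg H H.maxDegree hΔ q hq0 hyp F hF
    refine le_trans h1 (mul_le_mul_of_nonneg_left ?_ hc)
    apply pow_le_pow_left₀ (by positivity)
    exact mul_le_mul_of_nonneg_right (mul_le_mul_of_nonneg_left hcase (by norm_num)) hq0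
  · rw [not_le] at hcase
    have h1 := comparison_forest_dense H q hq0 hyp F hacyc hcase.le
    refine le_trans h1 (mul_le_mul_of_nonneg_left ?_ hc)
    apply pow_le_pow_left₀ (by positivity)
    have : (72 : ℝ) * q = 72 * 1 * q := by ring
    rw [this]
    exact mul_le_mul_of_nonneg_right (mul_le_mul_of_nonneg_left hmax1 (by norm_num)) hq0

end Vale.Agent.Lib.P064
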