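import Mathlib

namespace Vale.Agent.Lib.P064

open Finset

open scoped Classical

variable {n : ℕ}

/-- **Generation count.**  Fix a root `a`, for every vertex `x` a set `N x` of allowed
out-neighbours and a nonnegative weight `π x` on the subsets of `N x` of total mass at most `1`.
Consider a family of structures `(Wf i, g i)`, `i ∈ I`: a vertex set `Wf i` containing `a`, with
an out-neighbourhood `g i x ⊆ N x ∩ Wf i` for each `x ∈ Wf i`, such that `Wf i` is the smallest
set containing `a` and closed under `g i`, and such that distinct indices give distinct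
structures.  Then the weights `∏_{x ∈ Wf i} π x (g i x)` sum to at most `1`. -/
theorem gen_count {ι : Type*} (N : Fin n → Finset (Fin n)) (π : Fin n → Finset (Fin n) → ℝ)
    (hπ0 : ∀ x A, 0 ≤ π x A)
    (hπ1 : ∀ x, ∑ A ∈ (N x).powerset, π x A ≤ 1)
    (a : Fin n) (I : Finset ι) (g : ι → Fin n → Finset (Fin n)) (Wf : ι → Finset (Fin n))
    (h1 : ∀ i ∈ I, a ∈ Wf i)
    (h2 : ∀ i ∈ I, ∀ x ∈ Wf i, g i x ⊆ N x ∧ g i x ⊆ Wf i)
    (h4 : ∀ i ∈ I, ∀ Z : Finset (Fin n), a ∈ Z → (∀ x ∈ Z, x ∈ Wf i → g i x ⊆ Z) → Wf i ⊆ Z)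
    (hinj : ∀ i ∈ I, ∀ j ∈ I, Wf i = Wf j → (∀ x ∈ Wf i, g i x = g j x) → i = j) :
    ∑ i ∈ I, ∏ x ∈ Wf i, π x (g i x) ≤ 1 := by
  -- normalised weights
  set π' : Fin n → Finset (Fin n) → ℝ := fun x A =>
    (if A ∈ (N x).powerset then π x A else 0)
      + (if A = ∅ then 1 - ∑ B ∈ (N x).powerset, π x B else 0) with hπ'
  have hπ'0 : ∀ x A, 0 ≤ π' x A := by
    intro x A
    rw [hπ']
    have h1 : (0 : ℝ) ≤ (if A ∈ (N x).powerset then π x A else 0) := by
      split_ifs
      · exact hπ0 x A
      · exact le_rfl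
    have h2 : (0 : ℝ) ≤ (if A = ∅ then 1 - ∑ B ∈ (N x).powerset, π x B else 0) := by
      split_ifs
      · have := hπ1 x
        linarith
      · exact le_rfl
    exact add_nonneg h1 h2
  have hπ'ge : ∀ x A, A ⊆ N x → π x A ≤ π' x A := by
    intro x A hA
    rw [hπ']
    have hmem : A ∈ (N x).powerset := Finset.mem_powerset.mpr hA
    simp only [hmem, if_true]
    have h2 : (0 : ℝ) ≤ (if A = ∅ then 1 - ∑ B ∈ (N x).powerset, π x B else 0) := by
      split_ifs
      · have := hπ1 x
        linarith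
      · exact le_rfl
    linarith
  have hπ'sum : ∀ x, ∑ A : Finset (Fin n), π' x A = 1 := by
    intro x
    rw [hπ']
    rw [Finset.sum_add_distrib]
    rw [Finset.sum_ite_eq' Finset.univ (∅ : Finset (Fin n))
      (fun _ => 1 - ∑ B ∈ (N x).powerset, π x B)]
    simp only [Finset.mem_univ, if_true]
    rw [← Finset.sum_filter]
    have : (Finset.univ : Finset (Finset (Fin n))).filter (fun A => A ∈ (N x).powerset)
        = (N x).powerset := by
      ext A
      simp
    rw [this]
    ring
  -- the product weight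
  set P : (Fin n → Finset (Fin n)) → ℝ := fun Y => ∏ x, π' x (Y x) with hP
  have hP0 : ∀ Y, 0 ≤ P Y := fun Y => Finset.prod_nonneg (fun x _ => hπ'0 x (Y x))
  have hPsum : ∑ Y : Fin n → Finset (Fin n), P Y = 1 := by
    rw [hP]
    have := Finset.prod_univ_sum (fun _ : Fin n => (Finset.univ : Finset (Finset (Fin n))))
      (fun x A => π' x A)
    rw [Fintype.piFinset_univ] at this
    rw [← this]
    simp [hπ'sum]
  -- cylinders
  set t : ι → Fin n → Finset (Finset (Fin n)) := fun i x =>
    if x ∈ Wf i then {g i x} else Finset.univ with ht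
  set cyl : ι → Finset (Fin n → Finset (Fin n)) := fun i => Fintype.piFinset (t i) with hcyl
  have hcylsum : ∀ i, ∑ Y ∈ cyl i, P Y = ∏ x ∈ Wf i, π' x (g i x) := by
    intro i
    rw [hcyl, hP]
    have := Finset.prod_univ_sum (t i) (fun x A => π' x A)
    rw [← this]
    rw [← Finset.prod_subset (Finset.subset_univ (Wf i))]
    · apply Finset.prod_congr rfl
      intro x hx
      simp [ht, hx]
    · intro x _ hx
      simp [ht, hx, hπ'sum]
  have hmemcyl : ∀ i Y, Y ∈ cyl i ↔ ∀ x ∈ Wf i, Y x = g i x := by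
    intro i Y
    rw [hcyl, Fintype.mem_piFinset]
    constructor
    · intro h x hx
      have := h x
      simpa [ht, hx] using this
    · intro h x
      by_cases hx : x ∈ Wf i
      · simp [ht, hx, h x hx]
      · simp [ht, hx]
  have hdisj : (I : Set ι).PairwiseDisjoint cyl := by
    intro i hi j hj hij
    rw [Function.onFun, Finset.disjoint_left]
    intro Y hYi hYj
    rw [hmemcyl] at hYi hYj
    apply hij
    have hsub1 : Wf i ⊆ Wf j := by
      apply h4 i hi (Wf j) (h1 j hj)
      intro x hxj hxi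
      rw [← hYi x hxi, hYj x hxj]
      exact (h2 j hj x hxj).2
    have hsub2 : Wf j ⊆ Wf i := by
      apply h4 j hj (Wf i) (h1 i hi)
      intro x hxi hxj
      rw [← hYj x hxj, hYi x hxi]
      exact (h2 i hi x hxi).2
    have hW : Wf i = Wf j := Finset.Subset.antisymm hsub1 hsub2
    apply hinj i hi j hj hW
    intro x hx
    rw [← hYi x hx, hYj x (hW ▸ hx)]
  calc ∑ i ∈ I, ∏ x ∈ Wf i, π x (g i x)
      ≤ ∑ i ∈ I, ∏ x ∈ Wf i, π' x (g i x) := by
        apply Finset.sum_le_sum
        intro i hi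
        apply Finset.prod_le_prod
        · intro x _
          exact hπ0 x _
        · intro x hx
          exact hπ'ge x _ (h2 i hi x hx).1
    _ = ∑ i ∈ I, ∑ Y ∈ cyl i, P Y := by
        apply Finset.sum_congr rfl
        intro i _
        rw [hcylsum]
    _ = ∑ Y ∈ I.biUnion cyl, P Y := by
        rw [Finset.sum_biUnion hdisj]
    _ ≤ ∑ Y : Fin n → Finset (Fin n), P Y :=
        Finset.sum_le_sum_of_subset_of_nonneg (Finset.subset_univ _) (fun Y _ _ => hP0 Y)
    _ = 1 := hPsum

end Vale.Agent.Lib.P064
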