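import Vale.Agent.Lib.P064.Embed

namespace Vale.Agent.Lib.P064

open Finset

open scoped Classical

variable {n : ℕ}

/-- transport of a graph by a permutation -/
def permGraph (σ : Equiv.Perm (Fin n)) (G : SimpleGraph (Fin n)) : SimpleGraph (Fin n) where
  Adj a b := G.Adj (σ.symm a) (σ.symm b)
  symm := ⟨fun _ _ h => h.symm⟩
  loopless := ⟨fun _ h => G.loopless.irrefl _ h⟩

lemma permGraph_adj (σ : Equiv.Perm (Fin n)) (G : SimpleGraph (Fin n)) (u v : Fin n) :
    (permGraph σ G).Adj (σ u) (σ v) ↔ G.Adj u v := by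
  show G.Adj (σ.symm (σ u)) (σ.symm (σ v)) ↔ G.Adj u v
  rw [Equiv.symm_apply_apply, Equiv.symm_apply_apply]

lemma permGraph_injective (σ : Equiv.Perm (Fin n)) : Function.Injective (permGraph σ) := by
  intro G G' h
  ext u v
  rw [← permGraph_adj σ G u v, ← permGraph_adj σ G' u v, h]

lemma permGraph_iso (σ : Equiv.Perm (Fin n)) (G F : SimpleGraph (Fin n))
    (h : Nonempty (G ≃g F)) : Nonempty (permGraph σ G ≃g F) := by
  rw [iso_iff_perm] at h ⊢
  obtain ⟨ρ, hρ⟩ := h
  refine ⟨ρ.trans σ, fun u v => ?_⟩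
  rw [Equiv.trans_apply, Equiv.trans_apply, permGraph_adj, hρ]

lemma unionGraph_image_perm (σ : Equiv.Perm (Fin n)) (P : Finset (SimpleGraph (Fin n)))
    (u v : Fin n) :
    (unionGraph (P.image (permGraph σ))).Adj (σ u) (σ v) ↔ (unionGraph P).Adj u v := by
  rw [unionGraph_adj, unionGraph_adj]
  constructor
  · rintro ⟨G', hG', h⟩
    rw [Finset.mem_image] at hG'
    obtain ⟨Q, hQ, rfl⟩ := hG'
    exact ⟨Q, hQ, (permGraph_adj σ Q u v).mp h⟩
  · rintro ⟨Q, hQ, h⟩
    exact ⟨permGraph σ Q, Finset.mem_image_of_mem _ hQ, (permGraph_adj σ Q u v).mpr h⟩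

/-- the number of copies of the union of a family of `k` copies of `F₁` is at most the number
of `k`-sets of copies of `F₁` in the complete graph -/
lemma copies_unionGraph_le (H F₁ : SimpleGraph (Fin n)) (P : Finset (SimpleGraph (Fin n)))
    (hP : P ⊆ copiesFinset H F₁) :
    copies ⊤ (unionGraph P) ≤ (copies ⊤ F₁).choose P.card := by
  have hsub : {G' : SimpleGraph (Fin n) | G' ≤ ⊤ ∧ Nonempty (G' ≃g unionGraph P)}
      ⊆ unionGraph '' (Finset.powersetCard P.card (copiesFinset ⊤ F₁) :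
          Set (Finset (SimpleGraph (Fin n)))) := by
    rintro G' ⟨-, hiso⟩
    obtain ⟨σ, hσ⟩ := (iso_iff_perm G' (unionGraph P)).mp hiso
    refine ⟨P.image (permGraph σ), ?_, ?_⟩
    · rw [Finset.mem_coe, Finset.mem_powersetCard]
      refine ⟨?_, Finset.card_image_of_injective _ (permGraph_injective σ)⟩
      intro Q hQ
      rw [Finset.mem_image] at hQ
      obtain ⟨Q', hQ', rfl⟩ := hQ
      rw [mem_copiesFinset]
      exact ⟨le_top, permGraph_iso σ Q' F₁ ((mem_copiesFinset H F₁ Q').mp (hP hQ')).2⟩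
    · ext u v
      obtain ⟨u', rfl⟩ := σ.surjective u
      obtain ⟨v', rfl⟩ := σ.surjective v
      rw [unionGraph_image_perm, hσ]
  calc copies ⊤ (unionGraph P)
      ≤ Set.ncard (unionGraph '' (Finset.powersetCard P.card (copiesFinset ⊤ F₁) :
          Set (Finset (SimpleGraph (Fin n))))) :=
        Set.ncard_le_ncard hsub (Set.toFinite _)
    _ ≤ Set.ncard (Finset.powersetCard P.card (copiesFinset ⊤ F₁) :
          Set (Finset (SimpleGraph (Fin n)))) :=
        Set.ncard_image_le (Set.toFinite _)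
    _ = (copies ⊤ F₁).choose P.card := by
        rw [Set.ncard_coe_finset, Finset.card_powersetCard, copies_eq_card]

/-- a copy has the same number of edges -/
lemma card_edgeFinset_of_mem (H F₁ G' : SimpleGraph (Fin n)) (h : G' ∈ copiesFinset H F₁) :
    G'.edgeFinset.card = F₁.edgeFinset.card := by
  obtain ⟨f⟩ := ((mem_copiesFinset H F₁ G').mp h).2
  exact f.card_edgeFinset_eq

/-- a maximum family of pairwise edge-disjoint copies -/
lemma exists_max_packing (H F₁ : SimpleGraph (Fin n)) :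
    ∃ P : Finset (SimpleGraph (Fin n)), P ⊆ copiesFinset H F₁ ∧
      (P : Set (SimpleGraph (Fin n))).PairwiseDisjoint (fun G' => G'.edgeFinset) ∧
      ∀ Q : Finset (SimpleGraph (Fin n)), Q ⊆ copiesFinset H F₁ →
        (Q : Set (SimpleGraph (Fin n))).PairwiseDisjoint (fun G' => G'.edgeFinset) →
        Q.card ≤ P.card := by
  set fam := (copiesFinset H F₁).powerset.filter
    (fun Q : Finset (SimpleGraph (Fin n)) =>
      (Q : Set (SimpleGraph (Fin n))).PairwiseDisjoint (fun G' => G'.edgeFinset)) with hfam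
  have hne : fam.Nonempty := ⟨∅, by simp [hfam]⟩
  obtain ⟨P, hP, hmax⟩ := Finset.exists_max_image fam Finset.card hne
  rw [hfam, Finset.mem_filter, Finset.mem_powerset] at hP
  refine ⟨P, hP.1, hP.2, fun Q hQ1 hQ2 => hmax Q ?_⟩
  rw [hfam, Finset.mem_filter, Finset.mem_powerset]
  exact ⟨hQ1, hQ2⟩

lemma unionGraph_edges (H F₁ : SimpleGraph (Fin n)) (P : Finset (SimpleGraph (Fin n)))
    (hP : P ⊆ copiesFinset H F₁)
    (hdis : (P : Set (SimpleGraph (Fin n))).PairwiseDisjoint (fun G' => G'.edgeFinset)) :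
    (unionGraph P).edgeSet.ncard = P.card * F₁.edgeFinset.card := by
  rw [ncard_edgeSet, unionGraph_edgeFinset, Finset.card_biUnion hdis]
  rw [Finset.sum_congr rfl (fun G' hG' => card_edgeFinset_of_mem H F₁ G' (hP hG'))]
  rw [Finset.sum_const, smul_eq_mul]

/-- every copy shares an edge with a member of a maximum edge-disjoint family -/
lemma cover_of_max_packing (H F₁ : SimpleGraph (Fin n)) (hm : 1 ≤ F₁.edgeFinset.card)
    (P : Finset (SimpleGraph (Fin n))) (hP : P ⊆ copiesFinset H F₁)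
    (hdis : (P : Set (SimpleGraph (Fin n))).PairwiseDisjoint (fun G' => G'.edgeFinset))
    (hmax : ∀ Q : Finset (SimpleGraph (Fin n)), Q ⊆ copiesFinset H F₁ →
        (Q : Set (SimpleGraph (Fin n))).PairwiseDisjoint (fun G' => G'.edgeFinset) →
        Q.card ≤ P.card)
    (G' : SimpleGraph (Fin n)) (hG' : G' ∈ copiesFinset H F₁) :
    ∃ Q ∈ P, ∃ e ∈ Q.edgeFinset, e ∈ G'.edgeFinset := by
  by_contra hno
  have hno' : ∀ Q ∈ P, Disjoint G'.edgeFinset Q.edgeFinset := by
    intro Q hQ
    rw [Finset.disjoint_left]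
    intro e he1 he2
    exact hno ⟨Q, hQ, e, he2, he1⟩
  have hcard : 1 ≤ G'.edgeFinset.card := by
    rw [card_edgeFinset_of_mem H F₁ G' hG']
    exact hm
  have hnot : G' ∉ P := by
    intro h
    obtain ⟨e, he⟩ := Finset.card_pos.mp hcard
    exact hno ⟨G', h, e, he, he⟩
  have hdis' : ((insert G' P : Finset (SimpleGraph (Fin n))) :
      Set (SimpleGraph (Fin n))).PairwiseDisjoint (fun G' => G'.edgeFinset) := by
    rw [Finset.coe_insert]
    apply hdis.insert
    intro Q hQ _
    exact hno' Q hQ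
  have := hmax (insert G' P) (Finset.insert_subset hG' hP) hdis'
  rw [Finset.card_insert_of_notMem hnot] at this
  omega

/-- the packing bound: if every subgraph of `H` has at least one expected copy at density `q`
and each adjacent pair lies in at most `D` copies of `F₁` in `H`, then the number of copies of
`F₁` in `H` is at most `3 m D` times the expected number of copies, `m` the number of edges -/
theorem packing_bound (H F₁ : SimpleGraph (Fin n)) (q : ℝ) (hq0 : 0 ≤ q)
    (hyp : ∀ F : SimpleGraph (Fin n), F ≤ H →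
      (1 : ℝ) ≤ (copies ⊤ F : ℝ) * q ^ F.edgeSet.ncard)
    (hm : 1 ≤ F₁.edgeFinset.card) (D : ℕ)
    (hD : ∀ a b, ((copiesFinset H F₁).filter (fun G' => G'.Adj a b)).card ≤ D) :
    (copies H F₁ : ℝ) ≤ 3 * (copies ⊤ F₁ : ℝ) * q ^ F₁.edgeFinset.card
      * ((F₁.edgeFinset.card : ℝ) * D) := by
  obtain ⟨P, hP, hdis, hmax⟩ := exists_max_packing H F₁
  have hle : unionGraph P ≤ H :=
    unionGraph_le H P (fun G' hG' => ((mem_copiesFinset H F₁ G').mp (hP hG')).1)
  have h2 := hyp (unionGraph P) hle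
  rw [unionGraph_edges H F₁ P hP hdis] at h2
  have h3 := copies_unionGraph_le H F₁ P hP
  have h4 : (1 : ℝ) ≤ (((copies ⊤ F₁).choose P.card : ℕ) : ℝ)
      * (q ^ F₁.edgeFinset.card) ^ P.card := by
    have hq : (0 : ℝ) ≤ q ^ (P.card * F₁.edgeFinset.card) := pow_nonneg hq0 _
    have h3' : (copies ⊤ (unionGraph P) : ℝ) ≤ (((copies ⊤ F₁).choose P.card : ℕ) : ℝ) := by
      exact_mod_cast h3
    calc (1 : ℝ) ≤ (copies ⊤ (unionGraph P) : ℝ) * q ^ (P.card * F₁.edgeFinset.card) := h2
      _ ≤ (((copies ⊤ F₁).choose P.card : ℕ) : ℝ) * q ^ (P.card * F₁.edgeFinset.card) :=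
          mul_le_mul_of_nonneg_right h3' hq
      _ = (((copies ⊤ F₁).choose P.card : ℕ) : ℝ) * (q ^ F₁.edgeFinset.card) ^ P.card := by
          rw [← pow_mul, mul_comm P.card]
  have h5 := card_bound P.card (copies ⊤ F₁) (q ^ F₁.edgeFinset.card) (pow_nonneg hq0 _) h4
  have hsub : copiesFinset H F₁ ⊆ P.biUnion (fun Q => Q.edgeFinset.biUnion (fun e =>
      (copiesFinset H F₁).filter (fun G' => e ∈ G'.edgeFinset))) := by
    intro G' hG'
    obtain ⟨Q, hQ, e, he1, he2⟩ := cover_of_max_packing H F₁ hm P hP hdis hmax G' hG'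
    rw [Finset.mem_biUnion]
    refine ⟨Q, hQ, ?_⟩
    rw [Finset.mem_biUnion]
    refine ⟨e, he1, ?_⟩
    rw [Finset.mem_filter]
    exact ⟨hG', he2⟩
  have hedge : ∀ e : Sym2 (Fin n),
      ((copiesFinset H F₁).filter (fun G' => e ∈ G'.edgeFinset)).card ≤ D := by
    intro e
    induction e using Sym2.ind with
    | _ a b =>
      have : (copiesFinset H F₁).filter (fun G' => s(a, b) ∈ G'.edgeFinset)
          = (copiesFinset H F₁).filter (fun G' => G'.Adj a b) := by
        apply Finset.filter_congr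
        intro G' _
        rw [SimpleGraph.mem_edgeFinset, SimpleGraph.mem_edgeSet]
      rw [this]
      exact hD a b
  have h6 : (copiesFinset H F₁).card ≤ P.card * (F₁.edgeFinset.card * D) := by
    refine le_trans (Finset.card_le_card hsub) (le_trans Finset.card_biUnion_le ?_)
    have hQ : ∀ Q ∈ P, (Q.edgeFinset.biUnion (fun e =>
        (copiesFinset H F₁).filter (fun G' => e ∈ G'.edgeFinset))).card
        ≤ F₁.edgeFinset.card * D := by
      intro Q hQ
      refine le_trans Finset.card_biUnion_le ?_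
      calc ∑ e ∈ Q.edgeFinset, ((copiesFinset H F₁).filter (fun G' => e ∈ G'.edgeFinset)).card
          ≤ ∑ _e ∈ Q.edgeFinset, D := Finset.sum_le_sum (fun e _ => hedge e)
        _ = Q.edgeFinset.card * D := by rw [Finset.sum_const, smul_eq_mul]
        _ = F₁.edgeFinset.card * D := by rw [card_edgeFinset_of_mem H F₁ Q (hP hQ)]
    calc ∑ Q ∈ P, (Q.edgeFinset.biUnion (fun e =>
        (copiesFinset H F₁).filter (fun G' => e ∈ G'.edgeFinset))).card
        ≤ ∑ _Q ∈ P, F₁.edgeFinset.card * D := Finset.sum_le_sum hQ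
      _ = P.card * (F₁.edgeFinset.card * D) := by rw [Finset.sum_const, smul_eq_mul]
  rw [copies_eq_card]
  have h7 : ((copiesFinset H F₁).card : ℝ) ≤ (P.card : ℝ) * ((F₁.edgeFinset.card : ℝ) * D) := by
    exact_mod_cast h6
  refine le_trans h7 ?_
  exact mul_le_mul_of_nonneg_right h5 (by positivity)

end Vale.Agent.Lib.P064
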