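import Vale.Agent.Lib.P034.H6.Transfer
import Vale.Agent.Lib.P064.Gen

namespace Vale.Agent.Lib.P064

open Finset

open Vale.Agent.Lib.P034.H6

open scoped Classical

variable {n : ℕ}

/-- the closure of a subgraph `G` of `H`: add all the edges of `H` at those non-isolated vertices
of `G` that have degree at least `K` in `H` -/
noncomputable def cl (H : SimpleGraph (Fin n)) (K : ℕ) (G : SimpleGraph (Fin n)) :
    SimpleGraph (Fin n) where
  Adj a b := G.Adj a b ∨
    (H.Adj a b ∧ ((a ∈ supp G ∧ K ≤ H.degree a) ∨ (b ∈ supp G ∧ K ≤ H.degree b)))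
  symm := ⟨fun a b h => by
    rcases h with h | ⟨h, h'⟩
    · exact Or.inl h.symm
    · exact Or.inr ⟨h.symm, h'.symm⟩⟩
  loopless := ⟨fun a h => by
    rcases h with h | ⟨h, _⟩
    · exact G.loopless.irrefl _ h
    · exact H.loopless.irrefl _ h⟩

lemma cl_adj (H : SimpleGraph (Fin n)) (K : ℕ) (G : SimpleGraph (Fin n)) (a b : Fin n) :
    (cl H K G).Adj a b ↔ G.Adj a b ∨
      (H.Adj a b ∧ ((a ∈ supp G ∧ K ≤ H.degree a) ∨ (b ∈ supp G ∧ K ≤ H.degree b))) := Iff.rfl

lemma le_cl (H : SimpleGraph (Fin n)) (K : ℕ) (G : SimpleGraph (Fin n)) : G ≤ cl H K G :=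
  fun _ _ h => Or.inl h

lemma cl_le (H : SimpleGraph (Fin n)) (K : ℕ) (G : SimpleGraph (Fin n)) (hG : G ≤ H) :
    cl H K G ≤ H := by
  intro a b h
  rcases h with h | ⟨h, _⟩
  · exact hG h
  · exact h

lemma cl_adj_supp (H : SimpleGraph (Fin n)) (K : ℕ) (G : SimpleGraph (Fin n)) (a b : Fin n)
    (h : (cl H K G).Adj a b) : a ∈ supp G ∨ b ∈ supp G := by
  rcases h with h | ⟨_, h | h⟩
  · exact Or.inl (supp_left G a b h)
  · exact Or.inl h.1
  · exact Or.inr h.1

lemma cl_degree (H : SimpleGraph (Fin n)) (K : ℕ) (G : SimpleGraph (Fin n)) (hG : G ≤ H)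
    (x : Fin n) (hx : x ∈ supp G) (hK : K ≤ H.degree x) :
    (cl H K G).degree x = H.degree x := by
  rw [← SimpleGraph.card_neighborFinset_eq_degree, ← SimpleGraph.card_neighborFinset_eq_degree]
  congr 1
  ext b
  rw [SimpleGraph.mem_neighborFinset, SimpleGraph.mem_neighborFinset]
  constructor
  · intro h
    exact cl_le H K G hG h
  · intro h
    exact Or.inr ⟨h, Or.inl ⟨hx, hK⟩⟩

lemma degree_permGraph (σ : Equiv.Perm (Fin n)) (T : SimpleGraph (Fin n)) (w : Fin n) :
    (permGraph σ T).degree (σ w) = T.degree w := by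
  rw [← SimpleGraph.card_neighborFinset_eq_degree, ← SimpleGraph.card_neighborFinset_eq_degree]
  have : (permGraph σ T).neighborFinset (σ w) = (T.neighborFinset w).map σ.toEmbedding := by
    ext b
    rw [SimpleGraph.mem_neighborFinset, Finset.mem_map_equiv, SimpleGraph.mem_neighborFinset]
    show T.Adj (σ.symm (σ w)) (σ.symm b) ↔ T.Adj w (σ.symm b)
    rw [Equiv.symm_apply_apply]
  rw [this, Finset.card_map]

lemma mem_supp_permGraph (σ : Equiv.Perm (Fin n)) (F : SimpleGraph (Fin n)) (x : Fin n) :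
    x ∈ supp (permGraph σ F) ↔ σ.symm x ∈ supp F := by
  rw [mem_supp, mem_supp]
  constructor
  · rintro ⟨v, hv⟩
    exact ⟨σ.symm v, hv⟩
  · rintro ⟨v, hv⟩
    refine ⟨σ v, ?_⟩
    show F.Adj (σ.symm x) (σ.symm (σ v))
    rw [Equiv.symm_apply_apply]
    exact hv

lemma card_edgeFinset_permGraph (σ : Equiv.Perm (Fin n)) (T : SimpleGraph (Fin n)) :
    (permGraph σ T).edgeFinset.card = T.edgeFinset.card := by
  obtain ⟨f⟩ := permGraph_iso σ T T ⟨SimpleGraph.Iso.refl⟩
  exact f.card_edgeFinset_eq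

/-- an ordering of a connected vertex set starting at `u` in which every other vertex has an
earlier neighbour -/
lemma exists_conn_order (F₁ : SimpleGraph (Fin n)) (W : Finset (Fin n))
    (hconn : ∀ S : Finset (Fin n), S ⊆ W → S.Nonempty → S ≠ W →
      ∃ x ∈ S, ∃ y ∈ W \ S, F₁.Adj x y)
    (u : Fin n) (hu : u ∈ W) :
    ∃ r : Fin n → ℕ, Set.InjOn r (W : Set (Fin n)) ∧
      ∀ w ∈ W, w ≠ u → ∃ w' ∈ W, F₁.Adj w' w ∧ r w' < r w := by
  have key : ∀ k : ℕ, 1 ≤ k → k ≤ W.card → ∃ S : Finset (Fin n), S ⊆ W ∧ u ∈ S ∧ S.card = k ∧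
      ∃ r : Fin n → ℕ, Set.InjOn r (S : Set (Fin n)) ∧ (∀ w ∈ S, r w < k) ∧
        ∀ w ∈ S, w ≠ u → ∃ w' ∈ S, F₁.Adj w' w ∧ r w' < r w := by
    intro k hk
    induction k, hk using Nat.le_induction with
    | base =>
      intro _
      refine ⟨{u}, by simpa using hu, by simp, by simp, fun _ => 0, ?_, ?_, ?_⟩
      · intro x hx y hy _
        simp only [Finset.coe_singleton, Set.mem_singleton_iff] at hx hy
        rw [hx, hy]
      · intro w _
        norm_num
      · intro w hw hne
        rw [Finset.mem_singleton] at hw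
        exact absurd hw hne
    | succ k hk ih =>
      intro hk1
      obtain ⟨S, hSW, huS, hcard, r, hinj, hlt, hprev⟩ := ih (by omega)
      have hne : S ≠ W := by
        intro h
        rw [h] at hcard
        omega
      obtain ⟨x, hx, y, hy, hxy⟩ := hconn S hSW ⟨u, huS⟩ hne
      rw [Finset.mem_sdiff] at hy
      have hup : ∀ w ∈ S, Function.update r y k w = r w := by
        intro w hw
        apply Function.update_of_ne
        intro h
        exact hy.2 (h ▸ hw)
      refine ⟨insert y S, ?_, ?_, ?_, Function.update r y k, ?_, ?_, ?_⟩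
      · exact Finset.insert_subset hy.1 hSW
      · exact Finset.mem_insert_of_mem huS
      · rw [Finset.card_insert_of_notMem hy.2, hcard]
      · intro w₁ h₁ w₂ h₂ h12
        rw [Finset.coe_insert, Set.mem_insert_iff, Finset.mem_coe] at h₁ h₂
        rcases h₁ with rfl | h₁ <;> rcases h₂ with rfl | h₂
        · rfl
        · rw [Function.update_self, hup w₂ h₂] at h12
          have := hlt w₂ h₂
          omega
        · rw [Function.update_self, hup w₁ h₁] at h12
          have := hlt w₁ h₁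
          omega
        · rw [hup w₁ h₁, hup w₂ h₂] at h12
          exact hinj h₁ h₂ h12
      · intro w hw
        rw [Finset.mem_insert] at hw
        rcases hw with rfl | hw
        · rw [Function.update_self]
          omega
        · rw [hup w hw]
          have := hlt w hw
          omega
      · intro w hw hwu
        rw [Finset.mem_insert] at hw
        rcases hw with rfl | hw
        · refine ⟨x, Finset.mem_insert_of_mem hx, hxy, ?_⟩
          rw [Function.update_self, hup x hx]
          exact hlt x hx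
        · obtain ⟨w', hw', hadj, hr⟩ := hprev w hw hwu
          refine ⟨w', Finset.mem_insert_of_mem hw', hadj, ?_⟩
          rw [hup w hw, hup w' hw']
          exact hr
  have hpos : 1 ≤ W.card := Finset.card_pos.mpr ⟨u, hu⟩
  obtain ⟨S, hSW, _, hcard, r, hinj, _, hprev⟩ := key W.card hpos le_rfl
  have hS : S = W := Finset.eq_of_subset_of_card_le hSW (by omega)
  subst hS
  exact ⟨r, hinj, hprev⟩

/-- the later neighbours of `w` in an ordering `r` -/
noncomputable def outN (F₁ : SimpleGraph (Fin n)) (W : Finset (Fin n)) (r : Fin n → ℕ)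
    (w : Fin n) : Finset (Fin n) :=
  W.filter (fun w' => F₁.Adj w w' ∧ r w < r w')

lemma mem_outN (F₁ : SimpleGraph (Fin n)) (W : Finset (Fin n)) (r : Fin n → ℕ) (w w' : Fin n) :
    w' ∈ outN F₁ W r w ↔ w' ∈ W ∧ F₁.Adj w w' ∧ r w < r w' := by
  simp [outN]

lemma sum_card_outN_le (F₁ : SimpleGraph (Fin n)) (W : Finset (Fin n)) (r : Fin n → ℕ) :
    ∑ w ∈ W, (outN F₁ W r w).card ≤ F₁.edgeFinset.card := by
  rw [← Finset.card_sigma]
  apply Finset.card_le_card_of_injOn (fun p : (Σ _ : Fin n, Fin n) => s(p.1, p.2))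
  · intro p hp
    rw [Finset.mem_coe, Finset.mem_sigma, mem_outN] at hp
    rw [Finset.mem_coe, SimpleGraph.mem_edgeFinset, SimpleGraph.mem_edgeSet]
    exact hp.2.2.1
  · rintro ⟨w, w'⟩ hp ⟨z, z'⟩ hq h
    rw [Finset.mem_coe, Finset.mem_sigma, mem_outN] at hp hq
    simp only at hp hq h
    rw [Sym2.eq_iff] at h
    rcases h with ⟨h1, h2⟩ | ⟨h1, h2⟩
    · rw [h1, h2]
    · exfalso
      have h3 := hp.2.2.2
      have h4 := hq.2.2.2
      rw [h1, h2] at h3
      omega

end Vale.Agent.Lib.P064
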