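import Vale.Agent.Lib.P064.SparseSum

namespace Vale.Agent.Lib.P064

open Finset

open Vale.Agent.Lib.P034.H6

open scoped Classical

variable {n : ℕ}

lemma nat_aux_sparse0 (m : ℕ) (hm : 1 ≤ m) : 24 * m * (m + 1) ≤ 192 ^ m := by
  induction m, hm using Nat.le_induction with
  | base => norm_num
  | succ m hm ih =>
    calc 24 * (m + 1) * (m + 1 + 1) ≤ 192 * (24 * m * (m + 1)) := by nlinarith
      _ ≤ 192 * 192 ^ m := Nat.mul_le_mul_left _ ih
      _ = 192 ^ (m + 1) := by ring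

lemma nat_aux_sparse (m v : ℕ) (hm : 1 ≤ m) (hv : v ≤ m + 1) :
    6 * m * v * 4 ^ v ≤ 768 ^ m := by
  have h1 : 24 * m * (m + 1) ≤ 192 ^ m := nat_aux_sparse0 m hm
  calc 6 * m * v * 4 ^ v ≤ 6 * m * (m + 1) * 4 ^ (m + 1) :=
        Nat.mul_le_mul (Nat.mul_le_mul_left _ hv) (Nat.pow_le_pow_right (by norm_num) hv)
    _ = (24 * m * (m + 1)) * 4 ^ m := by ring
    _ ≤ 192 ^ m * 4 ^ m := Nat.mul_le_mul_right _ h1
    _ = 768 ^ m := by rw [← Nat.mul_pow]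

lemma add_le_mul_two_pow (m x : ℕ) (hm : 1 ≤ m) : x + m ≤ m * 2 ^ x := by
  have h1 : x + 1 ≤ 2 ^ x := Nat.lt_two_pow_self
  calc x + m ≤ m * (x + 1) := by nlinarith
    _ ≤ m * 2 ^ x := Nat.mul_le_mul_left _ h1

/-- the weight of a closure type -/
noncomputable def betaT (F₁ : SimpleGraph (Fin n)) (W : Finset (Fin n)) (K : ℕ) (q : ℝ)
    (T₁ : SimpleGraph (Fin n)) : ℝ :=
  if goodT F₁ W K T₁ then
    6 * (copies ⊤ F₁ : ℝ) * q ^ T₁.edgeFinset.card * (T₁.edgeFinset.card *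
      (W.card * (2 ^ W.card * (2 * (K : ℝ)) ^ F₁.edgeFinset.card * ∏ w ∈ W, hw T₁ K w)))
  else 0

lemma betaT_nonneg (F₁ : SimpleGraph (Fin n)) (W : Finset (Fin n)) (K : ℕ) (q : ℝ)
    (hq0 : 0 ≤ q) (T₁ : SimpleGraph (Fin n)) : 0 ≤ betaT F₁ W K q T₁ := by
  rw [betaT]
  split_ifs
  · have hprod : (0 : ℝ) ≤ ∏ w ∈ W, hw T₁ K w :=
      Finset.prod_nonneg (fun w _ => le_trans zero_le_one (one_le_hw T₁ K w))
    positivity
  · exact le_rfl

lemma betaT_le (F₁ : SimpleGraph (Fin n)) (W : Finset (Fin n)) (K : ℕ) (q : ℝ)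
    (hq0 : 0 ≤ q) (hm1 : 1 ≤ F₁.edgeFinset.card) (T₁ : SimpleGraph (Fin n))
    (hgood : goodT F₁ W K T₁) :
    betaT F₁ W K q T₁ ≤ (6 * (copies ⊤ F₁ : ℝ) * F₁.edgeFinset.card * W.card * 2 ^ W.card
      * (8 * (K : ℝ) * q) ^ F₁.edgeFinset.card) * (8 * q) ^ (Xset F₁ T₁).card := by
  rw [betaT, if_pos hgood]
  have hc := card_Xset F₁ T₁ hgood.1
  have hP := prod_hw_le W K T₁
  have hP0 : (0 : ℝ) ≤ ∏ w ∈ W, hw T₁ K w :=
    Finset.prod_nonneg (fun w _ => le_trans zero_le_one (one_le_hw T₁ K w))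
  rw [← hc] at hP ⊢
  generalize (Xset F₁ T₁).card = x at hP ⊢
  generalize F₁.edgeFinset.card = m at hP hm1 ⊢
  generalize (∏ w ∈ W, hw T₁ K w) = P at hP hP0 ⊢
  have hxm : ((x + m : ℕ) : ℝ) ≤ (m : ℝ) * 2 ^ x := by
    exact_mod_cast add_le_mul_two_pow m x hm1
  have hN : (0 : ℝ) ≤ (copies ⊤ F₁ : ℝ) := Nat.cast_nonneg _
  have hK0 : (0 : ℝ) ≤ (K : ℝ) := Nat.cast_nonneg _
  have hW0 : (0 : ℝ) ≤ (W.card : ℝ) := Nat.cast_nonneg _
  have hm0 : (0 : ℝ) ≤ (m : ℝ) := Nat.cast_nonneg _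
  have e8m : (8 : ℝ) ^ m = 2 ^ m * 4 ^ m := by
    rw [← mul_pow]
    norm_num
  have e8x : (8 : ℝ) ^ x = 2 ^ x * 4 ^ x := by
    rw [← mul_pow]
    norm_num
  calc 6 * (copies ⊤ F₁ : ℝ) * q ^ (x + m) * (((x + m : ℕ) : ℝ) *
        (W.card * (2 ^ W.card * (2 * (K : ℝ)) ^ m * P)))
      ≤ 6 * (copies ⊤ F₁ : ℝ) * q ^ (x + m) * (((m : ℝ) * 2 ^ x) *
        (W.card * (2 ^ W.card * (2 * (K : ℝ)) ^ m * (4 : ℝ) ^ (x + m)))) := by
        apply mul_le_mul_of_nonneg_left _ (by positivity)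
        apply mul_le_mul hxm _ (by positivity) (by positivity)
        apply mul_le_mul_of_nonneg_left _ hW0
        exact mul_le_mul_of_nonneg_left hP (by positivity)
    _ = (6 * (copies ⊤ F₁ : ℝ) * m * W.card * 2 ^ W.card * (8 * (K : ℝ) * q) ^ m)
          * (8 * q) ^ x := by
        rw [pow_add, pow_add, mul_pow, mul_pow, mul_pow, mul_pow, e8m, e8x]
        ring

/-- the bound for the number of copies of a connected piece, sparse regime -/
lemma piece_copies_sparse (H F₁ : SimpleGraph (Fin n)) (W : Finset (Fin n)) (K : ℕ)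
    (hK : 1 ≤ K)
    (hW : ∀ u v, F₁.Adj u v → u ∈ W)
    (hconn : ∀ S : Finset (Fin n), S ⊆ W → S.Nonempty → S ≠ W →
      ∃ x ∈ S, ∃ y ∈ W \ S, F₁.Adj x y)
    (h2 : 2 ≤ W.card) (q : ℝ) (hq0 : 0 ≤ q) (hKq : 128 * (n : ℝ) * q ≤ K)
    (hyp : ∀ F : SimpleGraph (Fin n), F ≤ H →
      (1 : ℝ) ≤ (copies ⊤ F : ℝ) * q ^ F.edgeSet.ncard) :
    (copies H F₁ : ℝ) ≤ (copies ⊤ F₁ : ℝ) * (98304 * K * q) ^ F₁.edgeFinset.card := by
  have hne : W.Nonempty := by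
    rw [← Finset.card_pos]
    omega
  have hm := edges_ge_of_conn F₁ W hne hconn
  have hm1 : 1 ≤ F₁.edgeFinset.card := by omega
  have hsupp := supp_eq_of_conn F₁ W hW hconn h2
  have hclass : ∀ T₁, ((classH H F₁ T₁ K).card : ℝ)
      ≤ (orbT F₁ T₁).card * betaT F₁ W K q T₁ := by
    intro T₁
    by_cases hemp : classH H F₁ T₁ K = ∅
    · rw [hemp, Finset.card_empty, Nat.cast_zero]
      exact mul_nonneg (Nat.cast_nonneg _) (betaT_nonneg F₁ W K q hq0 T₁)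
    · obtain ⟨G, hG⟩ := Finset.nonempty_iff_ne_empty.mpr hemp
      have hgood := goodT_of_class H F₁ T₁ W K hsupp G hG
      rw [betaT, if_pos hgood]
      exact class_bound H F₁ T₁ W K hK hW hconn h2 q hq0 hyp hm1 hgood.1
  have h1 := class_partition H F₁ K (betaT F₁ W K q) (betaT_nonneg F₁ W K q hq0) hclass
  have hsum : ∑ T₁ : SimpleGraph (Fin n), betaT F₁ W K q T₁
      = ∑ T₁ ∈ (Finset.univ : Finset (SimpleGraph (Fin n))).filter (goodT F₁ W K),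
          betaT F₁ W K q T₁ := by
    rw [Finset.sum_filter]
    apply Finset.sum_congr rfl
    intro T₁ _
    by_cases hg : goodT F₁ W K T₁
    · rw [if_pos hg]
    · rw [if_neg hg, betaT, if_neg hg]
  have hC0 : (0 : ℝ) ≤ 6 * (copies ⊤ F₁ : ℝ) * F₁.edgeFinset.card * W.card * 2 ^ W.card
      * (8 * (K : ℝ) * q) ^ F₁.edgeFinset.card := by positivity
  have h3 : ∑ T₁ ∈ (Finset.univ : Finset (SimpleGraph (Fin n))).filter (goodT F₁ W K),
      betaT F₁ W K q T₁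
      ≤ (6 * (copies ⊤ F₁ : ℝ) * F₁.edgeFinset.card * W.card * 2 ^ W.card
          * (8 * (K : ℝ) * q) ^ F₁.edgeFinset.card)
        * (16 ^ F₁.edgeFinset.card * 2 ^ W.card) := by
    refine le_trans (Finset.sum_le_sum (fun T₁ hT₁ =>
      betaT_le F₁ W K q hq0 hm1 T₁ (Finset.mem_filter.mp hT₁).2)) ?_
    rw [← Finset.mul_sum]
    exact mul_le_mul_of_nonneg_left (sum_good_le F₁ W K hK q hq0 hKq) hC0
  have hnat : (6 * (F₁.edgeFinset.card : ℝ) * W.card * 4 ^ W.card)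
      ≤ 768 ^ F₁.edgeFinset.card := by
    exact_mod_cast nat_aux_sparse F₁.edgeFinset.card W.card hm1 hm
  have e4 : (4 : ℝ) ^ W.card = 2 ^ W.card * 2 ^ W.card := by
    rw [← mul_pow]
    norm_num
  have e128 : (128 * (K : ℝ) * q) ^ F₁.edgeFinset.card
      = (8 * (K : ℝ) * q) ^ F₁.edgeFinset.card * 16 ^ F₁.edgeFinset.card := by
    rw [← mul_pow]
    ring_nf
  have e98304 : (98304 * (K : ℝ) * q) ^ F₁.edgeFinset.card
      = 768 ^ F₁.edgeFinset.card * (128 * (K : ℝ) * q) ^ F₁.edgeFinset.card := by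
    rw [← mul_pow]
    ring_nf
  have hN : (0 : ℝ) ≤ (copies ⊤ F₁ : ℝ) := Nat.cast_nonneg _
  have hK0 : (0 : ℝ) ≤ (K : ℝ) := Nat.cast_nonneg _
  calc (copies H F₁ : ℝ) ≤ ∑ T₁ : SimpleGraph (Fin n), betaT F₁ W K q T₁ := h1
    _ ≤ (6 * (copies ⊤ F₁ : ℝ) * F₁.edgeFinset.card * W.card * 2 ^ W.card
          * (8 * (K : ℝ) * q) ^ F₁.edgeFinset.card)
        * (16 ^ F₁.edgeFinset.card * 2 ^ W.card) := by
        rw [hsum]
        exact h3
    _ = (copies ⊤ F₁ : ℝ) * ((6 * (F₁.edgeFinset.card : ℝ) * W.card * 4 ^ W.card)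
          * (128 * (K : ℝ) * q) ^ F₁.edgeFinset.card) := by
        rw [e4, e128]
        ring
    _ ≤ (copies ⊤ F₁ : ℝ) * (768 ^ F₁.edgeFinset.card
          * (128 * (K : ℝ) * q) ^ F₁.edgeFinset.card) := by
        apply mul_le_mul_of_nonneg_left _ hN
        exact mul_le_mul_of_nonneg_right hnat (by positivity)
    _ = (copies ⊤ F₁ : ℝ) * (98304 * K * q) ^ F₁.edgeFinset.card := by
        rw [e98304]

/-- the bound for the embeddings of a connected piece, sparse regime -/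
lemma piece_bound_sparse (H F₁ : SimpleGraph (Fin n)) (W : Finset (Fin n)) (K : ℕ)
    (hK : 1 ≤ K)
    (hW : ∀ u v, F₁.Adj u v → u ∈ W)
    (hconn : ∀ S : Finset (Fin n), S ⊆ W → S.Nonempty → S ≠ W →
      ∃ x ∈ S, ∃ y ∈ W \ S, F₁.Adj x y)
    (h2 : 2 ≤ W.card) (q : ℝ) (hq0 : 0 ≤ q) (hKq : 128 * (n : ℝ) * q ≤ K)
    (hyp : ∀ F : SimpleGraph (Fin n), F ≤ H →
      (1 : ℝ) ≤ (copies ⊤ F : ℝ) * q ^ F.edgeSet.ncard) :
    ((embSet F₁ H W).card : ℝ)
      ≤ (n.descFactorial W.card : ℝ) * (98304 * K * q) ^ F₁.edgeFinset.card := by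
  have pb := piece_copies_sparse H F₁ W K hK hW hconn h2 q hq0 hKq hyp
  have e1 := card_embSet_eq F₁ H W hW
  have e2 := card_embSet_eq F₁ ⊤ W hW
  rw [card_embSet_top] at e2
  rw [e1, e2]
  push_cast
  have hA : (0 : ℝ) ≤ ((embSet F₁ F₁ W).card : ℝ) := Nat.cast_nonneg _
  calc (copies H F₁ : ℝ) * ((embSet F₁ F₁ W).card : ℝ)
      ≤ ((copies ⊤ F₁ : ℝ) * (98304 * K * q) ^ F₁.edgeFinset.card)
          * ((embSet F₁ F₁ W).card : ℝ) := mul_le_mul_of_nonneg_right pb hA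
    _ = (copies ⊤ F₁ : ℝ) * ((embSet F₁ F₁ W).card : ℝ)
          * (98304 * K * q) ^ F₁.edgeFinset.card := by ring

/-- the comparison in the sparse regime, for every graph `F` -/
theorem comparison_sparse (H : SimpleGraph (Fin n)) (q : ℝ) (hq0 : 0 ≤ q)
    (hyp : ∀ F : SimpleGraph (Fin n), F ≤ H →
      (1 : ℝ) ≤ (copies ⊤ F : ℝ) * q ^ F.edgeSet.ncard)
    (F : SimpleGraph (Fin n)) :
    (copies H F : ℝ) ≤ (copies ⊤ F : ℝ)
      * (114130944 * max 1 ((n : ℝ) * q) * q) ^ F.edgeFinset.card := by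
  have hnq0 : (0 : ℝ) ≤ 128 * (n : ℝ) * q := by positivity
  obtain ⟨K, hK, hKq, hKle⟩ : ∃ K : ℕ, 1 ≤ K ∧ 128 * (n : ℝ) * q ≤ K
      ∧ (K : ℝ) ≤ 129 * max 1 ((n : ℝ) * q) := by
    refine ⟨max 1 ⌈128 * (n : ℝ) * q⌉₊, le_max_left _ _, ?_, ?_⟩
    · refine le_trans (Nat.le_ceil _) ?_
      exact_mod_cast le_max_right 1 ⌈128 * (n : ℝ) * q⌉₊
    · have h1 : (1 : ℝ) ≤ max 1 ((n : ℝ) * q) := le_max_left _ _
      have h2 : (n : ℝ) * q ≤ max 1 ((n : ℝ) * q) := le_max_right _ _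
      have h3 : ((⌈128 * (n : ℝ) * q⌉₊ : ℕ) : ℝ) < 128 * (n : ℝ) * q + 1 :=
        Nat.ceil_lt_add_one hnq0
      rw [Nat.cast_max, Nat.cast_one]
      apply max_le
      · linarith
      · linarith
  have hK0 : (0 : ℝ) ≤ (K : ℝ) := Nat.cast_nonneg _
  have hfin := final_step F H (98304 * K * q) (by positivity) ?_
  · refine le_trans hfin ?_
    apply mul_le_mul_of_nonneg_left _ (Nat.cast_nonneg _)
    apply pow_le_pow_left₀ (by positivity)
    have : (9 : ℝ) * (98304 * K * q) ≤ 9 * (98304 * (129 * max 1 ((n : ℝ) * q)) * q) := by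
      apply mul_le_mul_of_nonneg_left _ (by norm_num)
      apply mul_le_mul_of_nonneg_right _ hq0
      exact mul_le_mul_of_nonneg_left hKle (by norm_num)
    refine le_trans this (le_of_eq ?_)
    ring
  · have hcb := comp_bound F H (98304 * K * q) (by positivity) ?_ (supp F).card (supp F) le_rfl
      (fun u hu v huv => supp_left F v u huv.symm) (fun u hu => (mem_supp F u).mp hu)
    · rw [restr_supp] at hcb
      exact hcb
    · intro W₁ h2 hcl hconn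
      have hpb := piece_bound_sparse H (restr F W₁) W₁ K hK (fun u v huv => huv.2.1)
        (fun S hS hSne hSW => by
          obtain ⟨x, hx, z, hz, hxz⟩ := hconn S hS hSne hSW
          exact ⟨x, hx, z, hz, hxz, hS hx, (Finset.mem_sdiff.mp hz).1⟩)
        h2 q hq0 hKq hyp
      rw [embSet_restr] at hpb
      refine le_trans hpb ?_
      apply mul_le_mul_of_nonneg_right _ (by positivity)
      exact_mod_cast Nat.descFactorial_le_pow n W₁.card

/-- the set defining the expectation threshold is closed, so the infimum is attained -/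
lemma pE_mem (H : SimpleGraph (Fin n)) :
    pE H ∈ {p : ℝ | 0 ≤ p ∧ p ≤ 1 ∧
      ∀ F : SimpleGraph (Fin n), F ≤ H → 1 / 2 ≤ expCopies F p} := by
  have hclosed : IsClosed {p : ℝ | 0 ≤ p ∧ p ≤ 1 ∧
      ∀ F : SimpleGraph (Fin n), F ≤ H → 1 / 2 ≤ expCopies F p} := by
    have e : {p : ℝ | 0 ≤ p ∧ p ≤ 1 ∧
        ∀ F : SimpleGraph (Fin n), F ≤ H → 1 / 2 ≤ expCopies F p}
        = Set.Ici 0 ∩ (Set.Iic 1 ∩ ⋂ F : SimpleGraph (Fin n), ⋂ (_ : F ≤ H),
            {p : ℝ | 1 / 2 ≤ expCopies F p}) := by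
      ext p
      simp only [Set.mem_ofPred_eq, Set.mem_inter_iff, Set.mem_Ici, Set.mem_Iic, Set.mem_iInter]
    rw [e]
    refine isClosed_Ici.inter (isClosed_Iic.inter ?_)
    refine isClosed_iInter (fun F => isClosed_iInter (fun _ => ?_))
    apply isClosed_le continuous_const
    unfold expCopies
    fun_prop
  exact hclosed.csInf_mem ⟨1, pE_set_nonempty H⟩ ⟨0, fun p hp => hp.1⟩

/-- the threshold bound in the sparse regime -/
theorem pEt_le_sparse (H : SimpleGraph (Fin n)) :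
    pEt H ≤ 456523776 * max 1 ((n : ℝ) * pE H) * pE H := by
  have hbdd : BddBelow {p : ℝ | 0 ≤ p ∧ p ≤ 1 ∧
      ∀ F : SimpleGraph (Fin n), F ≤ H → (copies H F : ℝ) / 2 ≤ expCopies F p} :=
    ⟨0, fun p hp => hp.1⟩
  obtain ⟨hp0, hp1, hp⟩ := pE_mem H
  set p := pE H with hpdef
  have hq0 : (0 : ℝ) ≤ min 1 (2 * p) := le_min (by norm_num) (by positivity)
  have hyp := hyp_of_mem H p hp0 hp
  have hc := comparison_sparse H (min 1 (2 * p)) hq0 hyp
  have hn0 : (0 : ℝ) ≤ (n : ℝ) := Nat.cast_nonneg _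
  have hy0 : (0 : ℝ) ≤ 114130944 * max 1 ((n : ℝ) * min 1 (2 * p)) * min 1 (2 * p) := by
    positivity
  have hmem : min 1 (114130944 * max 1 ((n : ℝ) * min 1 (2 * p)) * min 1 (2 * p))
      ∈ {p : ℝ | 0 ≤ p ∧ p ≤ 1 ∧
        ∀ F : SimpleGraph (Fin n), F ≤ H → (copies H F : ℝ) / 2 ≤ expCopies F p} := by
    refine ⟨le_min (by norm_num) hy0, min_le_left _ _, fun F _ => ?_⟩
    have hcn : (0 : ℝ) ≤ (copies H F : ℝ) := Nat.cast_nonneg _
    rw [expCopies, ncard_edgeSet]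
    by_cases h1 : (1 : ℝ) ≤ 114130944 * max 1 ((n : ℝ) * min 1 (2 * p)) * min 1 (2 * p)
    · rw [min_eq_left h1, one_pow, mul_one]
      have : (copies H F : ℝ) ≤ (copies ⊤ F : ℝ) := by exact_mod_cast copies_le_top H F
      linarith
    · rw [not_le] at h1
      rw [min_eq_right h1.le]
      have := hc F
      linarith
  have h1 : pEt H ≤ min 1 (114130944 * max 1 ((n : ℝ) * min 1 (2 * p)) * min 1 (2 * p)) :=
    csInf_le hbdd hmem
  have h2 : min 1 (114130944 * max 1 ((n : ℝ) * min 1 (2 * p)) * min 1 (2 * p))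
      ≤ 114130944 * max 1 ((n : ℝ) * min 1 (2 * p)) * min 1 (2 * p) := min_le_right _ _
  have h3 : min 1 (2 * p) ≤ 2 * p := min_le_right _ _
  have h4 : max 1 ((n : ℝ) * min 1 (2 * p)) ≤ 2 * max 1 ((n : ℝ) * p) := by
    have a1 : (1 : ℝ) ≤ max 1 ((n : ℝ) * p) := le_max_left _ _
    have a2 : (n : ℝ) * p ≤ max 1 ((n : ℝ) * p) := le_max_right _ _
    apply max_le
    · linarith
    · calc (n : ℝ) * min 1 (2 * p) ≤ (n : ℝ) * (2 * p) := mul_le_mul_of_nonneg_left h3 hn0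
        _ = 2 * ((n : ℝ) * p) := by ring
        _ ≤ 2 * max 1 ((n : ℝ) * p) := by linarith
  have h5 : 114130944 * max 1 ((n : ℝ) * min 1 (2 * p)) * min 1 (2 * p)
      ≤ 114130944 * (2 * max 1 ((n : ℝ) * p)) * (2 * p) := by
    apply mul_le_mul _ h3 hq0 (by positivity)
    exact mul_le_mul_of_nonneg_left h4 (by norm_num)
  calc pEt H ≤ 114130944 * (2 * max 1 ((n : ℝ) * p)) * (2 * p) := le_trans h1 (le_trans h2 h5)
    _ = 456523776 * max 1 ((n : ℝ) * p) * p := by ring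

end Vale.Agent.Lib.P064
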