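import Vale.Agent.Lib.P064.Classes

namespace Vale.Agent.Lib.P064

open Finset

open Vale.Agent.Lib.P034.H6

open scoped Classical

variable {n : ℕ}

/-- the possible closure types: graphs containing `F₁` all of whose further edges have an
endpoint in `W` of degree at least `K` -/
def goodT (F₁ : SimpleGraph (Fin n)) (W : Finset (Fin n)) (K : ℕ) (T₁ : SimpleGraph (Fin n)) :
    Prop :=
  F₁ ≤ T₁ ∧ ∀ a b, T₁.Adj a b → ¬ F₁.Adj a b →
    (a ∈ W ∧ K ≤ T₁.degree a) ∨ (b ∈ W ∧ K ≤ T₁.degree b)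

lemma goodT_of_class (H F₁ T₁ : SimpleGraph (Fin n)) (W : Finset (Fin n)) (K : ℕ)
    (hsupp : supp F₁ = W) (G : SimpleGraph (Fin n)) (hG : G ∈ classH H F₁ T₁ K) :
    goodT F₁ W K T₁ := by
  rw [mem_classH, mem_copiesFinset] at hG
  obtain ⟨⟨hGH, _⟩, σ, hσ1, hσ2⟩ := hG
  have hF : ∀ a b, G.Adj (σ a) (σ b) ↔ F₁.Adj a b := by
    intro a b
    rw [← hσ2, permGraph_adj]
  have hT : ∀ a b, (cl H K G).Adj (σ a) (σ b) ↔ T₁.Adj a b := by
    intro a b
    rw [← hσ1, permGraph_adj]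
  have hsuppG : ∀ a, σ a ∈ supp G ↔ a ∈ W := by
    intro a
    rw [← hσ2, mem_supp_permGraph, Equiv.symm_apply_apply, hsupp]
  have hdeg : ∀ a, σ a ∈ supp G → K ≤ H.degree (σ a) → K ≤ T₁.degree a := by
    intro a h1 h2
    have hd := cl_degree H K G hGH (σ a) h1 h2
    rw [← hσ1, degree_permGraph] at hd
    rw [hd]
    exact h2
  constructor
  · intro a b hab
    exact (hT a b).mp (le_cl H K G ((hF a b).mpr hab))
  · intro a b hTab hFab
    have h1 := (hT a b).mpr hTab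
    rw [cl_adj] at h1
    rcases h1 with h1 | ⟨_, h1 | h1⟩
    · exact absurd ((hF a b).mp h1) hFab
    · exact Or.inl ⟨(hsuppG a).mp h1.1, hdeg a h1.1 h1.2⟩
    · exact Or.inr ⟨(hsuppG b).mp h1.1, hdeg b h1.1 h1.2⟩

/-- the bound for one class of copies -/
lemma class_bound (H F₁ T₁ : SimpleGraph (Fin n)) (W : Finset (Fin n)) (K : ℕ) (hK : 1 ≤ K)
    (hW : ∀ u v, F₁.Adj u v → u ∈ W)
    (hconn : ∀ S : Finset (Fin n), S ⊆ W → S.Nonempty → S ≠ W →
      ∃ x ∈ S, ∃ y ∈ W \ S, F₁.Adj x y)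
    (h2 : 2 ≤ W.card) (q : ℝ) (hq0 : 0 ≤ q)
    (hyp : ∀ F : SimpleGraph (Fin n), F ≤ H →
      (1 : ℝ) ≤ (copies ⊤ F : ℝ) * q ^ F.edgeSet.ncard)
    (hm1 : 1 ≤ F₁.edgeFinset.card) (hle : F₁ ≤ T₁) :
    ((classH H F₁ T₁ K).card : ℝ) ≤ (orbT F₁ T₁).card *
      (6 * (copies ⊤ F₁ : ℝ) * q ^ T₁.edgeFinset.card * (T₁.edgeFinset.card *
        (W.card * (2 ^ W.card * (2 * (K : ℝ)) ^ F₁.edgeFinset.card * ∏ w ∈ W, hw T₁ K w)))) := by
  set Γ : ℝ := W.card * (2 ^ W.card * (2 * (K : ℝ)) ^ F₁.edgeFinset.card * ∏ w ∈ W, hw T₁ K w)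
    with hΓ
  have hprodpos : (0 : ℝ) < ∏ w ∈ W, hw T₁ K w :=
    Finset.prod_pos (fun w _ => lt_of_lt_of_le one_pos (one_le_hw T₁ K w))
  have hΓ0 : 0 ≤ Γ := by
    rw [hΓ]
    positivity
  have hm : 1 ≤ T₁.edgeFinset.card :=
    le_trans hm1 (Finset.card_le_card (SimpleGraph.edgeFinset_subset_edgeFinset.mpr hle))
  have hc : ∀ G ∈ classH H F₁ T₁ K, cl H K G ∈ copiesFinset H T₁ := by
    intro G hG
    rw [mem_classH, mem_copiesFinset] at hG
    obtain ⟨⟨hGH, _⟩, σ, hσ1, _⟩ := hG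
    rw [mem_copiesFinset]
    refine ⟨cl_le H K G hGH, ?_⟩
    rw [← hσ1]
    exact permGraph_iso σ T₁ T₁ ⟨SimpleGraph.Iso.refl⟩
  have hD : ∀ a b, (((classH H F₁ T₁ K).filter (fun G => (cl H K G).Adj a b)).card : ℝ)
      ≤ 2 * Γ := by
    intro a b
    have hsub : (classH H F₁ T₁ K).filter (fun G => (cl H K G).Adj a b)
        ⊆ (classH H F₁ T₁ K).filter (fun G => a ∈ supp G)
          ∪ (classH H F₁ T₁ K).filter (fun G => b ∈ supp G) := by
      intro G hG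
      rw [Finset.mem_filter] at hG
      rw [Finset.mem_union, Finset.mem_filter, Finset.mem_filter]
      rcases cl_adj_supp H K G a b hG.2 with h | h
      · exact Or.inl ⟨hG.1, h⟩
      · exact Or.inr ⟨hG.1, h⟩
    have h1 := conflict_bound H F₁ T₁ W K hK hW hconn h2 a
    have h2' := conflict_bound H F₁ T₁ W K hK hW hconn h2 b
    have h3 : (((classH H F₁ T₁ K).filter (fun G => (cl H K G).Adj a b)).card : ℝ)
        ≤ (((classH H F₁ T₁ K).filter (fun G => a ∈ supp G)).card : ℝ)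
          + (((classH H F₁ T₁ K).filter (fun G => b ∈ supp G)).card : ℝ) := by
      exact_mod_cast le_trans (Finset.card_le_card hsub) (Finset.card_union_le _ _)
    linarith
  have hpk := packing_family H T₁ q hq0 hyp hm (classH H F₁ T₁ K) (cl H K) hc (2 * Γ)
    (by positivity) hD
  have horb : (copies ⊤ T₁ : ℝ) ≤ (copies ⊤ F₁ : ℝ) * (orbT F₁ T₁).card := by
    exact_mod_cast copies_top_le_orb F₁ T₁
  have hnn : (0 : ℝ) ≤ q ^ T₁.edgeFinset.card * ((T₁.edgeFinset.card : ℝ) * (2 * Γ)) := by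
    positivity
  calc ((classH H F₁ T₁ K).card : ℝ)
      ≤ 3 * (copies ⊤ T₁ : ℝ) * q ^ T₁.edgeFinset.card
          * ((T₁.edgeFinset.card : ℝ) * (2 * Γ)) := hpk
    _ = (copies ⊤ T₁ : ℝ) * (3 * (q ^ T₁.edgeFinset.card
          * ((T₁.edgeFinset.card : ℝ) * (2 * Γ)))) := by ring
    _ ≤ ((copies ⊤ F₁ : ℝ) * (orbT F₁ T₁).card) * (3 * (q ^ T₁.edgeFinset.card
          * ((T₁.edgeFinset.card : ℝ) * (2 * Γ)))) :=
        mul_le_mul_of_nonneg_right horb (by positivity)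
    _ = (orbT F₁ T₁).card * (6 * (copies ⊤ F₁ : ℝ) * q ^ T₁.edgeFinset.card
          * (T₁.edgeFinset.card * Γ)) := by ring

/-- the vertices of `W` of degree at least `K` in `T₁` -/
noncomputable def Yset (W : Finset (Fin n)) (K : ℕ) (T₁ : SimpleGraph (Fin n)) :
    Finset (Fin n) :=
  W.filter (fun w => K ≤ T₁.degree w)

/-- the edges of `T₁` outside `F₁` -/
noncomputable def Xset (F₁ T₁ : SimpleGraph (Fin n)) : Finset (Sym2 (Fin n)) :=
  T₁.edgeFinset \ F₁.edgeFinset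

/-- the pairs meeting `Y` -/
noncomputable def Estar (Y : Finset (Fin n)) : Finset (Sym2 (Fin n)) :=
  Finset.univ.filter (fun e => ∃ y ∈ Y, y ∈ e)

lemma card_Estar_le (Y : Finset (Fin n)) : (Estar Y).card ≤ n * Y.card := by
  have hsub : Estar Y ⊆ Y.biUnion (fun y =>
      (Finset.univ : Finset (Fin n)).image (fun z => s(y, z))) := by
    intro e he
    rw [Estar, Finset.mem_filter] at he
    obtain ⟨-, y, hy, hye⟩ := he
    rw [Finset.mem_biUnion]
    refine ⟨y, hy, ?_⟩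
    rw [Finset.mem_image]
    exact ⟨Sym2.Mem.other hye, Finset.mem_univ _, Sym2.other_spec hye⟩
  refine le_trans (Finset.card_le_card hsub) (le_trans Finset.card_biUnion_le ?_)
  calc ∑ y ∈ Y, ((Finset.univ : Finset (Fin n)).image (fun z => s(y, z))).card
      ≤ ∑ _y ∈ Y, n := by
        apply Finset.sum_le_sum
        intro y _
        refine le_trans Finset.card_image_le ?_
        rw [Finset.card_univ, Fintype.card_fin]
    _ = n * Y.card := by rw [Finset.sum_const, smul_eq_mul, mul_comm]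

lemma Xset_subset (F₁ T₁ : SimpleGraph (Fin n)) (W : Finset (Fin n)) (K : ℕ)
    (hgood : goodT F₁ W K T₁) : Xset F₁ T₁ ⊆ Estar (Yset W K T₁) := by
  intro e he
  rw [Xset, Finset.mem_sdiff] at he
  rw [Estar, Finset.mem_filter]
  refine ⟨Finset.mem_univ _, ?_⟩
  induction e using Sym2.ind with
  | _ a b =>
    rw [SimpleGraph.mem_edgeFinset, SimpleGraph.mem_edgeSet, SimpleGraph.mem_edgeFinset,
      SimpleGraph.mem_edgeSet] at he
    rcases hgood.2 a b he.1 he.2 with h | h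
    · exact ⟨a, by rw [Yset, Finset.mem_filter]; exact h, Sym2.mem_mk_left a b⟩
    · exact ⟨b, by rw [Yset, Finset.mem_filter]; exact h, Sym2.mem_mk_right a b⟩

lemma card_Xset (F₁ T₁ : SimpleGraph (Fin n)) (hle : F₁ ≤ T₁) :
    (Xset F₁ T₁).card + F₁.edgeFinset.card = T₁.edgeFinset.card := by
  rw [Xset]
  exact Finset.card_sdiff_add_card_eq_card (SimpleGraph.edgeFinset_subset_edgeFinset.mpr hle)

lemma K_mul_card_Yset_le (W : Finset (Fin n)) (K : ℕ) (T₁ : SimpleGraph (Fin n)) :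
    K * (Yset W K T₁).card ≤ 2 * T₁.edgeFinset.card := by
  calc K * (Yset W K T₁).card = ∑ _y ∈ Yset W K T₁, K := by
        rw [Finset.sum_const, smul_eq_mul, mul_comm]
    _ ≤ ∑ y ∈ Yset W K T₁, T₁.degree y :=
        Finset.sum_le_sum (fun y hy => (Finset.mem_filter.mp hy).2)
    _ ≤ ∑ y : Fin n, T₁.degree y := Finset.sum_le_sum_of_subset (Finset.subset_univ _)
    _ = 2 * T₁.edgeFinset.card := T₁.sum_degrees_eq_twice_card_edges

lemma prod_hw_le (W : Finset (Fin n)) (K : ℕ) (T₁ : SimpleGraph (Fin n)) :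
    ∏ w ∈ W, hw T₁ K w ≤ 4 ^ T₁.edgeFinset.card := by
  have h1 : ∀ w ∈ W, hw T₁ K w ≤ (2 : ℝ) ^ T₁.degree w := by
    intro w _
    rw [hw]
    split_ifs
    · exact le_rfl
    · exact one_le_pow₀ (by norm_num)
  calc ∏ w ∈ W, hw T₁ K w ≤ ∏ w ∈ W, (2 : ℝ) ^ T₁.degree w :=
        Finset.prod_le_prod (fun w _ => le_trans zero_le_one (one_le_hw T₁ K w)) h1
    _ = (2 : ℝ) ^ (∑ w ∈ W, T₁.degree w) := Finset.prod_pow_eq_pow_sum _ _ _
    _ ≤ (2 : ℝ) ^ (2 * T₁.edgeFinset.card) := by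
        apply pow_le_pow_right₀ (by norm_num)
        rw [← T₁.sum_degrees_eq_twice_card_edges]
        exact Finset.sum_le_sum_of_subset (Finset.subset_univ _)
    _ = 4 ^ T₁.edgeFinset.card := by
        rw [pow_mul]
        norm_num

/-- the inner sum over the extra edge sets -/
lemma inner_sum_le (Y : Finset (Fin n)) (K : ℕ) (hK : 1 ≤ K) (q : ℝ) (hq0 : 0 ≤ q)
    (hKq : 128 * (n : ℝ) * q ≤ K) :
    ∑ X ∈ (Estar Y).powerset, (128 * q) ^ X.card * (1 / 4 : ℝ) ^ (K * Y.card)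
      ≤ (3 / 4 : ℝ) ^ Y.card := by
  rw [← Finset.sum_mul]
  have hs := Finset.sum_pow_mul_eq_add_pow (128 * q) (1 : ℝ) (Estar Y)
  simp only [one_pow, mul_one] at hs
  rw [hs]
  have hx0 : (0 : ℝ) ≤ 128 * q := by positivity
  have h1 : (128 * q + 1) ^ (Estar Y).card ≤ (128 * q + 1) ^ (n * Y.card) :=
    pow_le_pow_right₀ (by linarith) (card_Estar_le Y)
  have h2 : (128 * q + 1) ^ (n * Y.card) ≤ Real.exp ((n * Y.card : ℕ) * (128 * q)) := by
    rw [add_comm]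
    exact one_add_pow_le_exp _ hx0 _
  have h3 : ((n * Y.card : ℕ) : ℝ) * (128 * q) ≤ ((K * Y.card : ℕ) : ℝ) := by
    push_cast
    have : (0 : ℝ) ≤ (Y.card : ℝ) := Nat.cast_nonneg _
    nlinarith
  have h4 : Real.exp ((n * Y.card : ℕ) * (128 * q)) ≤ 3 ^ (K * Y.card) := by
    calc Real.exp ((n * Y.card : ℕ) * (128 * q)) ≤ Real.exp ((K * Y.card : ℕ) : ℝ) :=
          Real.exp_le_exp.mpr h3
      _ = Real.exp 1 ^ (K * Y.card) := by
          rw [← Real.exp_nat_mul, mul_one]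
      _ ≤ 3 ^ (K * Y.card) :=
          pow_le_pow_left₀ (Real.exp_pos 1).le Real.exp_one_lt_three.le _
  have h5 : (128 * q + 1) ^ (Estar Y).card ≤ 3 ^ (K * Y.card) := le_trans h1 (le_trans h2 h4)
  calc (128 * q + 1) ^ (Estar Y).card * (1 / 4 : ℝ) ^ (K * Y.card)
      ≤ 3 ^ (K * Y.card) * (1 / 4 : ℝ) ^ (K * Y.card) :=
        mul_le_mul_of_nonneg_right h5 (by positivity)
    _ = (3 / 4 : ℝ) ^ (K * Y.card) := by
        rw [← mul_pow]
        norm_num
    _ ≤ (3 / 4 : ℝ) ^ Y.card := by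
        apply pow_le_pow_of_le_one (by norm_num) (by norm_num)
        exact Nat.le_mul_of_pos_left _ (by omega)

/-- the sum over the closure types -/
lemma sum_good_le (F₁ : SimpleGraph (Fin n)) (W : Finset (Fin n)) (K : ℕ) (hK : 1 ≤ K)
    (q : ℝ) (hq0 : 0 ≤ q) (hKq : 128 * (n : ℝ) * q ≤ K) :
    ∑ T₁ ∈ (Finset.univ : Finset (SimpleGraph (Fin n))).filter (goodT F₁ W K),
      (8 * q) ^ (Xset F₁ T₁).card ≤ 16 ^ F₁.edgeFinset.card * 2 ^ W.card := by
  set Tg := (Finset.univ : Finset (SimpleGraph (Fin n))).filter (goodT F₁ W K) with hTg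
  have hgood : ∀ T₁ ∈ Tg, goodT F₁ W K T₁ := fun T₁ h => (Finset.mem_filter.mp h).2
  -- step 1
  have hstep1 : ∀ T₁ ∈ Tg, (8 * q) ^ (Xset F₁ T₁).card
      ≤ 16 ^ F₁.edgeFinset.card
        * ((128 * q) ^ (Xset F₁ T₁).card * (1 / 4 : ℝ) ^ (K * (Yset W K T₁).card)) := by
    intro T₁ hT₁
    have hc := card_Xset F₁ T₁ (hgood T₁ hT₁).1
    have hKY := K_mul_card_Yset_le W K T₁
    rw [← hc] at hKY
    have h4 : (4 : ℝ) ^ (K * (Yset W K T₁).card)
        ≤ 16 ^ ((Xset F₁ T₁).card + F₁.edgeFinset.card) := by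
      calc (4 : ℝ) ^ (K * (Yset W K T₁).card)
          ≤ 4 ^ (2 * ((Xset F₁ T₁).card + F₁.edgeFinset.card)) :=
            pow_le_pow_right₀ (by norm_num) hKY
        _ = 16 ^ ((Xset F₁ T₁).card + F₁.edgeFinset.card) := by
            rw [pow_mul]
            norm_num
    have h4pos : (0 : ℝ) < 4 ^ (K * (Yset W K T₁).card) := by positivity
    have hone : (1 : ℝ) ≤ 16 ^ ((Xset F₁ T₁).card + F₁.edgeFinset.card)
        * (1 / 4 : ℝ) ^ (K * (Yset W K T₁).card) := by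
      rw [one_div, inv_pow, ← div_eq_mul_inv, le_div_iff₀ h4pos, one_mul]
      exact h4
    have hq8 : (0 : ℝ) ≤ (8 * q) ^ (Xset F₁ T₁).card := by positivity
    calc (8 * q) ^ (Xset F₁ T₁).card = (8 * q) ^ (Xset F₁ T₁).card * 1 := (mul_one _).symm
      _ ≤ (8 * q) ^ (Xset F₁ T₁).card * (16 ^ ((Xset F₁ T₁).card + F₁.edgeFinset.card)
            * (1 / 4 : ℝ) ^ (K * (Yset W K T₁).card)) := mul_le_mul_of_nonneg_left hone hq8
      _ = 16 ^ F₁.edgeFinset.card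
            * ((128 * q) ^ (Xset F₁ T₁).card * (1 / 4 : ℝ) ^ (K * (Yset W K T₁).card)) := by
          rw [pow_add, mul_pow, mul_pow]
          have : (128 : ℝ) ^ (Xset F₁ T₁).card = 8 ^ (Xset F₁ T₁).card * 16 ^ (Xset F₁ T₁).card := by
            rw [← mul_pow]
            norm_num
          rw [this]
          ring
  -- step 2
  have hmaps : ∀ T₁ ∈ Tg, Yset W K T₁ ∈ W.powerset := by
    intro T₁ _
    rw [Finset.mem_powerset, Yset]
    exact Finset.filter_subset _ _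
  have hfiber : ∀ Y ∈ W.powerset,
      ∑ T₁ ∈ Tg.filter (fun T₁ => Yset W K T₁ = Y),
        ((128 * q) ^ (Xset F₁ T₁).card * (1 / 4 : ℝ) ^ (K * (Yset W K T₁).card))
      ≤ (3 / 4 : ℝ) ^ Y.card := by
    intro Y _
    refine le_trans ?_ (inner_sum_le Y K hK q hq0 hKq)
    have hinj : Set.InjOn (Xset F₁)
        ((Tg.filter (fun T₁ => Yset W K T₁ = Y) : Finset (SimpleGraph (Fin n))) :
          Set (SimpleGraph (Fin n))) := by
      intro T₁ h₁ T₂ h₂ h12
      rw [Finset.mem_coe, Finset.mem_filter] at h₁ h₂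
      have e1 : T₁.edgeFinset = F₁.edgeFinset ∪ Xset F₁ T₁ := by
        rw [Xset, Finset.union_sdiff_of_subset
          (SimpleGraph.edgeFinset_subset_edgeFinset.mpr (hgood T₁ h₁.1).1)]
      have e2 : T₂.edgeFinset = F₁.edgeFinset ∪ Xset F₁ T₂ := by
        rw [Xset, Finset.union_sdiff_of_subset
          (SimpleGraph.edgeFinset_subset_edgeFinset.mpr (hgood T₂ h₂.1).1)]
      have : T₁.edgeFinset = T₂.edgeFinset := by rw [e1, e2, h12]
      exact SimpleGraph.edgeFinset_inj.mp this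
    have hrew : ∑ T₁ ∈ Tg.filter (fun T₁ => Yset W K T₁ = Y),
        ((128 * q) ^ (Xset F₁ T₁).card * (1 / 4 : ℝ) ^ (K * (Yset W K T₁).card))
        = ∑ X ∈ (Tg.filter (fun T₁ => Yset W K T₁ = Y)).image (Xset F₁),
            (128 * q) ^ X.card * (1 / 4 : ℝ) ^ (K * Y.card) := by
      rw [Finset.sum_image hinj]
      apply Finset.sum_congr rfl
      intro T₁ hT₁
      rw [(Finset.mem_filter.mp hT₁).2]
    rw [hrew]
    apply Finset.sum_le_sum_of_subset_of_nonneg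
    · intro X hX
      rw [Finset.mem_image] at hX
      obtain ⟨T₁, hT₁, rfl⟩ := hX
      rw [Finset.mem_filter] at hT₁
      rw [Finset.mem_powerset, ← hT₁.2]
      exact Xset_subset F₁ T₁ W K (hgood T₁ hT₁.1)
    · intro X _ _
      positivity
  calc ∑ T₁ ∈ Tg, (8 * q) ^ (Xset F₁ T₁).card
      ≤ ∑ T₁ ∈ Tg, 16 ^ F₁.edgeFinset.card
          * ((128 * q) ^ (Xset F₁ T₁).card * (1 / 4 : ℝ) ^ (K * (Yset W K T₁).card)) :=
        Finset.sum_le_sum hstep1
    _ = 16 ^ F₁.edgeFinset.card * ∑ T₁ ∈ Tg,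
          ((128 * q) ^ (Xset F₁ T₁).card * (1 / 4 : ℝ) ^ (K * (Yset W K T₁).card)) := by
        rw [Finset.mul_sum]
    _ = 16 ^ F₁.edgeFinset.card * ∑ Y ∈ W.powerset,
          ∑ T₁ ∈ Tg.filter (fun T₁ => Yset W K T₁ = Y),
            ((128 * q) ^ (Xset F₁ T₁).card * (1 / 4 : ℝ) ^ (K * (Yset W K T₁).card)) := by
        rw [Finset.sum_fiberwise_of_maps_to hmaps]
    _ ≤ 16 ^ F₁.edgeFinset.card * ∑ Y ∈ W.powerset, (3 / 4 : ℝ) ^ Y.card :=
        mul_le_mul_of_nonneg_left (Finset.sum_le_sum hfiber) (by positivity)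
    _ ≤ 16 ^ F₁.edgeFinset.card * 2 ^ W.card := by
        apply mul_le_mul_of_nonneg_left _ (by positivity)
        have hs := Finset.sum_pow_mul_eq_add_pow (3 / 4 : ℝ) (1 : ℝ) W
        simp only [one_pow, mul_one] at hs
        rw [hs]
        exact pow_le_pow_left₀ (by norm_num) (by norm_num) _

end Vale.Agent.Lib.P064
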