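import Vale.Agent.Lib.P064.Forest

namespace Vale.Agent.Lib.P064

open Finset

open scoped Classical

variable {n : ℕ}

/-- the comparison for a single star with at least one leaf -/
lemma star_comparison (H : SimpleGraph (Fin n)) (q : ℝ) (hq0 : 0 ≤ q)
    (hyp : ∀ F : SimpleGraph (Fin n), F ≤ H →
      (1 : ℝ) ≤ (copies ⊤ F : ℝ) * q ^ F.edgeSet.ncard)
    (c : Fin n) (A : Finset (Fin n)) (hc : c ∉ A) (ht : 1 ≤ A.card) :
    (copies H (starGraph c A) : ℝ) ≤ (copies ⊤ (starGraph c A) : ℝ) * (72 * q) ^ A.card := by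
  obtain ⟨s, hs⟩ : ∃ s, A.card = s + 1 := ⟨A.card - 1, by omega⟩
  have h1 : (copies H (starGraph c A) : ℝ) ≤ ((starPairs H (s + 1)).card : ℝ) := by
    have := copies_le_starPairs H c A hc
    rw [hs] at this
    exact_mod_cast this
  have h2 := starPairs_bound H q hq0 hyp s
  have h3 : ((starPairs (⊤ : SimpleGraph (Fin n)) (s + 1)).card : ℝ)
      ≤ 2 * (copies ⊤ (starGraph c A) : ℝ) := by
    have := starPairs_top_le c A hc ht
    rw [hs] at this
    exact_mod_cast this
  have h4 : (0 : ℝ) ≤ (36 * q) ^ (s + 1) := by positivity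
  have h5 : (2 : ℝ) * (36 * q) ^ (s + 1) ≤ (72 * q) ^ (s + 1) := by
    have e : (72 * q) ^ (s + 1) = 2 ^ (s + 1) * (36 * q) ^ (s + 1) := by
      rw [← mul_pow]
      ring
    rw [e]
    have h2s : (2 : ℝ) ≤ 2 ^ (s + 1) := by
      calc (2 : ℝ) = 2 ^ 1 := by norm_num
        _ ≤ 2 ^ (s + 1) := pow_le_pow_right₀ (by norm_num) (by omega)
    exact mul_le_mul_of_nonneg_right h2s h4
  have hcop : (0 : ℝ) ≤ (copies ⊤ (starGraph c A) : ℝ) := Nat.cast_nonneg _
  rw [hs]
  calc (copies H (starGraph c A) : ℝ)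
      ≤ ((starPairs H (s + 1)).card : ℝ) := h1
    _ ≤ ((starPairs (⊤ : SimpleGraph (Fin n)) (s + 1)).card : ℝ) * (36 * q) ^ (s + 1) := h2
    _ ≤ (2 * (copies ⊤ (starGraph c A) : ℝ)) * (36 * q) ^ (s + 1) :=
        mul_le_mul_of_nonneg_right h3 h4
    _ = (copies ⊤ (starGraph c A) : ℝ) * (2 * (36 * q) ^ (s + 1)) := by ring
    _ ≤ (copies ⊤ (starGraph c A) : ℝ) * (72 * q) ^ (s + 1) :=
        mul_le_mul_of_nonneg_left h5 hcop

/-- a star with leaf set `A` has `|A|` edges -/
lemma starGraph_edgeFinset_card (c : Fin n) (A : Finset (Fin n)) (hc : c ∉ A) :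
    (starGraph c A).edgeFinset.card = A.card := by
  have h : (starGraph c A).edgeFinset = A.image (fun a => s(c, a)) := by
    ext e
    induction e using Sym2.ind with
    | _ a b =>
      rw [SimpleGraph.mem_edgeFinset, SimpleGraph.mem_edgeSet, starGraph_adj, Finset.mem_image]
      constructor
      · rintro ⟨_, ⟨rfl, hb⟩ | ⟨rfl, ha⟩⟩
        · exact ⟨b, hb, rfl⟩
        · exact ⟨a, ha, Sym2.eq_swap⟩
      · rintro ⟨a', ha', h⟩
        rw [Sym2.eq_iff] at h
        rcases h with ⟨rfl, rfl⟩ | ⟨rfl, rfl⟩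
        · exact ⟨fun h => hc (h ▸ ha'), Or.inl ⟨rfl, ha'⟩⟩
        · exact ⟨fun h => hc (h ▸ ha'), Or.inr ⟨rfl, ha'⟩⟩
  rw [h]
  apply Finset.card_image_of_injective
  intro a b hab
  exact Sym2.congr_right.mp hab

/-- a connected piece of a graph in which every edge has a leaf endpoint is a star, so the
star comparison bounds its embeddings -/
lemma star_piece (F H : SimpleGraph (Fin n)) (q : ℝ) (hq0 : 0 ≤ q)
    (hyp : ∀ F : SimpleGraph (Fin n), F ≤ H →
      (1 : ℝ) ≤ (copies ⊤ F : ℝ) * q ^ F.edgeSet.ncard)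
    (hstar : ∀ a b, F.Adj a b → (∀ c, F.Adj a c → c = b) ∨ (∀ c, F.Adj b c → c = a))
    (W₁ : Finset (Fin n)) (h2 : 2 ≤ W₁.card)
    (hcl : ∀ u ∈ W₁, ∀ v, F.Adj u v → v ∈ W₁)
    (hconn : ∀ S : Finset (Fin n), S ⊆ W₁ → S.Nonempty → S ≠ W₁ →
      ∃ x ∈ S, ∃ z ∈ W₁ \ S, F.Adj x z) :
    ((embSet F H W₁).card : ℝ)
      ≤ (n : ℝ) ^ W₁.card * (72 * q) ^ (restr F W₁).edgeFinset.card := by
  have hne : W₁.Nonempty := by
    rw [← Finset.card_pos]
    omega
  obtain ⟨c, hcW, hcmax⟩ := Finset.exists_max_image W₁ (fun v => F.degree v) hne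
  set A := F.neighborFinset c with hA
  have hcA : c ∉ A := by
    rw [hA, SimpleGraph.mem_neighborFinset]
    exact F.loopless.irrefl c
  have hA1 : 1 ≤ A.card := by
    have hsing : ({c} : Finset (Fin n)) ≠ W₁ := by
      intro h
      rw [← h, Finset.card_singleton] at h2
      omega
    obtain ⟨x, hx, z, _, hxz⟩ := hconn {c} (Finset.singleton_subset_iff.mpr hcW)
      (Finset.singleton_nonempty c) hsing
    rw [Finset.mem_singleton] at hx
    subst hx
    exact Finset.card_pos.mpr ⟨z, (SimpleGraph.mem_neighborFinset F x z).mpr hxz⟩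
  have claim1 : ∀ a ∈ A, ∀ b, F.Adj a b → b = c := by
    intro a ha b hab
    have hca : F.Adj c a := (SimpleGraph.mem_neighborFinset F c a).mp ha
    rcases hstar c a hca with h | h
    · by_contra hbc
      have hsub : ({c, b} : Finset (Fin n)) ⊆ F.neighborFinset a := by
        intro w hw
        rw [Finset.mem_insert, Finset.mem_singleton] at hw
        rw [SimpleGraph.mem_neighborFinset]
        rcases hw with rfl | rfl
        · exact hca.symm
        · exact hab
      have h1 : 2 ≤ (F.neighborFinset a).card := by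
        have := Finset.card_le_card hsub
        rwa [Finset.card_pair (Ne.symm hbc)] at this
      have h3 : (F.neighborFinset c).card ≤ 1 := by
        rw [Finset.card_le_one]
        intro u hu v hv
        rw [SimpleGraph.mem_neighborFinset] at hu hv
        rw [h u hu, h v hv]
      have h4 := hcmax a (hcl c hcW a hca)
      rw [← SimpleGraph.card_neighborFinset_eq_degree,
        ← SimpleGraph.card_neighborFinset_eq_degree] at h4
      omega
    · exact h b hab
  have hsubW : insert c A ⊆ W₁ := by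
    intro w hw
    rw [Finset.mem_insert] at hw
    rcases hw with rfl | hw
    · exact hcW
    · exact hcl c hcW w ((SimpleGraph.mem_neighborFinset F c w).mp hw)
  have claim2 : insert c A = W₁ := by
    by_contra hne'
    obtain ⟨x, hx, z, hz, hxz⟩ := hconn (insert c A) hsubW (Finset.insert_nonempty c A) hne'
    rw [Finset.mem_sdiff] at hz
    rw [Finset.mem_insert] at hx
    rcases hx with rfl | hx
    · exact hz.2 (Finset.mem_insert_of_mem ((SimpleGraph.mem_neighborFinset F x z).mpr hxz))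
    · have := claim1 x hx z hxz
      exact hz.2 (this ▸ Finset.mem_insert_self c A)
  have claim3 : restr F W₁ = starGraph c A := by
    ext u v
    rw [restr_adj, starGraph_adj, ← claim2]
    constructor
    · rintro ⟨huv, hu, _⟩
      refine ⟨huv.ne, ?_⟩
      rw [Finset.mem_insert] at hu
      rcases hu with rfl | huA
      · exact Or.inl ⟨rfl, (SimpleGraph.mem_neighborFinset F u v).mpr huv⟩
      · exact Or.inr ⟨claim1 u huA v huv, huA⟩
    · rintro ⟨_, ⟨rfl, hv⟩ | ⟨rfl, hu⟩⟩
      · exact ⟨(SimpleGraph.mem_neighborFinset F u v).mp hv, Finset.mem_insert_self _ _,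
          Finset.mem_insert_of_mem hv⟩
      · exact ⟨((SimpleGraph.mem_neighborFinset F v u).mp hu).symm, Finset.mem_insert_of_mem hu,
          Finset.mem_insert_self _ _⟩
  have e1 := card_embSet_eq (restr F W₁) H W₁ (fun u v h => h.2.1)
  have e2 := card_embSet_eq (restr F W₁) ⊤ W₁ (fun u v h => h.2.1)
  rw [card_embSet_top] at e2
  have sc := star_comparison H q hq0 hyp c A hcA hA1
  rw [← starGraph_edgeFinset_card c A hcA, ← claim3] at sc
  rw [← embSet_restr, e1]
  have hdesc : ((n.descFactorial W₁.card : ℕ) : ℝ) ≤ (n : ℝ) ^ W₁.card := by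
    exact_mod_cast Nat.descFactorial_le_pow n W₁.card
  have hA0 : (0 : ℝ) ≤ ((embSet (restr F W₁) (restr F W₁) W₁).card : ℝ) := Nat.cast_nonneg _
  have hq72 : (0 : ℝ) ≤ (72 * q) ^ (restr F W₁).edgeFinset.card := by positivity
  push_cast
  calc (copies H (restr F W₁) : ℝ) * ((embSet (restr F W₁) (restr F W₁) W₁).card : ℝ)
      ≤ ((copies ⊤ (restr F W₁) : ℝ) * (72 * q) ^ (restr F W₁).edgeFinset.card)
          * ((embSet (restr F W₁) (restr F W₁) W₁).card : ℝ) :=
        mul_le_mul_of_nonneg_right sc hA0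
    _ = (((copies ⊤ (restr F W₁) * (embSet (restr F W₁) (restr F W₁) W₁).card : ℕ)) : ℝ)
          * (72 * q) ^ (restr F W₁).edgeFinset.card := by
        push_cast
        ring
    _ = ((n.descFactorial W₁.card : ℕ) : ℝ) * (72 * q) ^ (restr F W₁).edgeFinset.card := by
        rw [e2]
    _ ≤ (n : ℝ) ^ W₁.card * (72 * q) ^ (restr F W₁).edgeFinset.card :=
        mul_le_mul_of_nonneg_right hdesc hq72

/-- the comparison for star forests, with a universal constant -/
theorem comparison_starForest (H : SimpleGraph (Fin n)) (q : ℝ) (hq0 : 0 ≤ q)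
    (hyp : ∀ F : SimpleGraph (Fin n), F ≤ H →
      (1 : ℝ) ≤ (copies ⊤ F : ℝ) * q ^ F.edgeSet.ncard)
    (F : SimpleGraph (Fin n))
    (hstar : ∀ a b, F.Adj a b → (∀ c, F.Adj a c → c = b) ∨ (∀ c, F.Adj b c → c = a)) :
    (copies H F : ℝ) ≤ (copies ⊤ F : ℝ) * (648 * q) ^ F.edgeFinset.card := by
  have hcb := comp_bound F H (72 * q) (by positivity)
    (fun W₁ h2 hcl hconn => star_piece F H q hq0 hyp hstar W₁ h2 hcl hconn)
    (supp F).card (supp F) le_rfl
    (fun u _ v huv => supp_left F v u huv.symm) (fun u hu => (mem_supp F u).mp hu)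
  rw [restr_supp] at hcb
  have hfin := final_step F H (72 * q) (by positivity) hcb
  have e : (9 : ℝ) * (72 * q) = 648 * q := by ring
  rw [e] at hfin
  exact hfin

end Vale.Agent.Lib.P064
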