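import Vale.Agent.Lib.P064.Defs
import Vale.Agent.Lib.P064.Binom

namespace Vale.Agent.Lib.P064

open Finset

open scoped Classical

variable {n : ℕ}

lemma starGraph_adj (c : Fin n) (A : Finset (Fin n)) (u v : Fin n) :
    (starGraph c A).Adj u v ↔ u ≠ v ∧ ((u = c ∧ v ∈ A) ∨ (v = c ∧ u ∈ A)) :=
  SimpleGraph.fromRel_adj _ u v

lemma starGraph_map_adj (σ : Equiv.Perm (Fin n)) (c : Fin n) (A : Finset (Fin n))
    (u v : Fin n) :
    (starGraph (σ c) (A.map σ.toEmbedding)).Adj (σ u) (σ v) ↔ (starGraph c A).Adj u v := by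
  simp only [starGraph_adj, ne_eq, EmbeddingLike.apply_eq_iff_eq]
  rw [Finset.mem_map_equiv, Finset.mem_map_equiv]
  simp

lemma mem_iff_star_adj (c : Fin n) (A : Finset (Fin n)) (hc : c ∉ A) (b : Fin n) :
    b ∈ A ↔ (starGraph c A).Adj c b := by
  rw [starGraph_adj]
  constructor
  · intro hb
    exact ⟨fun h => hc (h ▸ hb), Or.inl ⟨rfl, hb⟩⟩
  · rintro ⟨hne, ⟨_, hb⟩ | ⟨hbc, _⟩⟩
    · exact hb
    · exact absurd hbc.symm hne

/-- isomorphism of graphs on `Fin n` through a permutation -/
lemma iso_iff_perm (G' F : SimpleGraph (Fin n)) :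
    Nonempty (G' ≃g F) ↔
      ∃ σ : Equiv.Perm (Fin n), ∀ u v, G'.Adj (σ u) (σ v) ↔ F.Adj u v := by
  constructor
  · rintro ⟨φ⟩
    exact ⟨φ.symm.toEquiv, fun u v => φ.symm.map_rel_iff⟩
  · rintro ⟨σ, h⟩
    exact ⟨(⟨σ, fun {u v} => h u v⟩ : F ≃g G').symm⟩

/-- star pairs of `G`: a centre together with a set of `t` of its neighbours -/
noncomputable def starPairs (G : SimpleGraph (Fin n)) (t : ℕ) :
    Finset (Σ _ : Fin n, Finset (Fin n)) :=
  (Finset.univ : Finset (Fin n)).sigma fun c => Finset.powersetCard t (G.neighborFinset c)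

lemma mem_starPairs (G : SimpleGraph (Fin n)) (t : ℕ) (x : Σ _ : Fin n, Finset (Fin n)) :
    x ∈ starPairs G t ↔ x.2 ⊆ G.neighborFinset x.1 ∧ x.2.card = t := by
  simp [starPairs, Finset.mem_powersetCard]

lemma not_mem_of_mem_starPairs {G : SimpleGraph (Fin n)} {t : ℕ}
    {x : Σ _ : Fin n, Finset (Fin n)} (hx : x ∈ starPairs G t) : x.1 ∉ x.2 := by
  intro h
  have := ((mem_starPairs G t x).mp hx).1 h
  simp at this

lemma card_starPairs (G : SimpleGraph (Fin n)) (t : ℕ) :
    (starPairs G t).card = ∑ c : Fin n, (G.degree c).choose t := by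
  simp [starPairs, Finset.card_sigma, Finset.card_powersetCard]

lemma neighborFinset_top_eq (c : Fin n) [Fintype ((⊤ : SimpleGraph (Fin n)).neighborSet c)] :
    (⊤ : SimpleGraph (Fin n)).neighborFinset c = Finset.univ.erase c := by
  ext w
  rw [SimpleGraph.mem_neighborFinset, SimpleGraph.top_adj, Finset.mem_erase]
  simp [eq_comm]

lemma card_starPairs_top (t : ℕ) :
    (starPairs (⊤ : SimpleGraph (Fin n)) t).card = n * (n - 1).choose t := by
  rw [starPairs, Finset.card_sigma]
  trans ∑ _c : Fin n, (n - 1).choose t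
  · refine Finset.sum_congr rfl fun c _ => ?_
    rw [Finset.card_powersetCard, neighborFinset_top_eq,
      Finset.card_erase_of_mem (Finset.mem_univ c), Finset.card_univ, Fintype.card_fin]
  · simp

/-- Lemma A: every copy of a star in `H` comes from a star pair of `H`. -/
lemma copies_le_starPairs (H : SimpleGraph (Fin n)) (c₀ : Fin n) (A₀ : Finset (Fin n))
    (hc : c₀ ∉ A₀) :
    copies H (starGraph c₀ A₀) ≤ (starPairs H A₀.card).card := by
  have hsub : {G' : SimpleGraph (Fin n) | G' ≤ H ∧ Nonempty (G' ≃g starGraph c₀ A₀)}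
      ⊆ (fun x : Σ _ : Fin n, Finset (Fin n) => starGraph x.1 x.2) ''
          (starPairs H A₀.card : Set (Σ _ : Fin n, Finset (Fin n))) := by
    rintro G' ⟨hle, hiso⟩
    obtain ⟨σ, hσ⟩ := (iso_iff_perm G' (starGraph c₀ A₀)).mp hiso
    have hG' : starGraph (σ c₀) (A₀.map σ.toEmbedding) = G' := by
      ext u v
      obtain ⟨u', rfl⟩ := σ.surjective u
      obtain ⟨v', rfl⟩ := σ.surjective v
      rw [starGraph_map_adj, hσ]
    refine ⟨⟨σ c₀, A₀.map σ.toEmbedding⟩, ?_, hG'⟩
    rw [Finset.mem_coe, mem_starPairs]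
    refine ⟨?_, Finset.card_map _⟩
    intro a ha
    rw [Finset.mem_map] at ha
    obtain ⟨a₀, ha₀, rfl⟩ := ha
    rw [SimpleGraph.mem_neighborFinset]
    apply hle
    rw [Equiv.coe_toEmbedding, hσ]
    exact (mem_iff_star_adj c₀ A₀ hc a₀).mp ha₀
  calc copies H (starGraph c₀ A₀)
      ≤ Set.ncard ((fun x : Σ _ : Fin n, Finset (Fin n) => starGraph x.1 x.2) ''
          (starPairs H A₀.card : Set (Σ _ : Fin n, Finset (Fin n)))) :=
        Set.ncard_le_ncard hsub (Set.toFinite _)
    _ ≤ Set.ncard (starPairs H A₀.card : Set (Σ _ : Fin n, Finset (Fin n))) :=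
        Set.ncard_image_le (Set.toFinite _)
    _ = (starPairs H A₀.card).card := Set.ncard_coe_finset _

/-- any two stars with the same number of leaves are isomorphic -/
lemma star_iso (c c₀ : Fin n) (A A₀ : Finset (Fin n)) (hc : c ∉ A) (hc₀ : c₀ ∉ A₀)
    (hcard : A.card = A₀.card) : Nonempty (starGraph c A ≃g starGraph c₀ A₀) := by
  rw [iso_iff_perm]
  obtain ⟨σ₁, hσ₁⟩ := Equiv.Perm.exists_map_finset_eq A₀ A hcard.symm
  have hnot : σ₁ c₀ ∉ A := by
    rw [← hσ₁, Finset.mem_map_equiv, Equiv.symm_apply_apply]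
    exact hc₀
  let σ : Equiv.Perm (Fin n) := σ₁.trans (Equiv.swap (σ₁ c₀) c)
  have h1 : σ c₀ = c := by simp [σ]
  have h2 : A₀.map σ.toEmbedding = A := by
    ext x
    rw [Finset.mem_map_equiv]
    constructor
    · intro hx
      have hx1 : σ₁ (σ.symm x) ∈ A := by
        rw [← hσ₁, Finset.mem_map_equiv, Equiv.symm_apply_apply]
        exact hx
      have hx2 : σ (σ.symm x) = σ₁ (σ.symm x) := by
        simp only [σ, Equiv.trans_apply]
        apply Equiv.swap_apply_of_ne_of_ne
        · exact fun h => hnot (h ▸ hx1)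
        · exact fun h => hc (h ▸ hx1)
      rw [← hx2, Equiv.apply_symm_apply] at hx1
      exact hx1
    · intro hx
      have hx2 : σ (σ₁.symm x) = x := by
        simp only [σ, Equiv.trans_apply, Equiv.apply_symm_apply]
        apply Equiv.swap_apply_of_ne_of_ne
        · exact fun h => hnot (h ▸ hx)
        · exact fun h => hc (h ▸ hx)
      have hx3 : σ.symm x = σ₁.symm x := by
        rw [Equiv.symm_apply_eq, hx2]
      rw [hx3]
      have : x ∈ A₀.map σ₁.toEmbedding := by rw [hσ₁]; exact hx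
      rwa [Finset.mem_map_equiv] at this
  refine ⟨σ, fun u v => ?_⟩
  rw [← h1, ← h2, starGraph_map_adj]

/-- Lemma B: the number of copies of a star in the complete graph is at least half the
number of star pairs. -/
lemma starPairs_top_le (c₀ : Fin n) (A₀ : Finset (Fin n)) (hc₀ : c₀ ∉ A₀)
    (ht : 1 ≤ A₀.card) :
    (starPairs (⊤ : SimpleGraph (Fin n)) A₀.card).card ≤ 2 * copies ⊤ (starGraph c₀ A₀) := by
  set f : (Σ _ : Fin n, Finset (Fin n)) → SimpleGraph (Fin n) :=
    fun x => starGraph x.1 x.2 with hf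
  have hfib : ∀ G₀ ∈ (starPairs (⊤ : SimpleGraph (Fin n)) A₀.card).image f,
      ((starPairs (⊤ : SimpleGraph (Fin n)) A₀.card).filter (fun x => f x = G₀)).card ≤ 2 := by
    intro G₀ hG₀
    obtain ⟨x₁, hx₁, rfl⟩ := Finset.mem_image.mp hG₀
    have hx₁' := (mem_starPairs _ _ x₁).mp hx₁
    have hne : x₁.2.Nonempty := by
      rw [← Finset.card_pos, hx₁'.2]
      exact ht
    obtain ⟨a, ha⟩ := hne
    have hadj : (starGraph x₁.1 x₁.2).Adj x₁.1 a :=
      (mem_iff_star_adj x₁.1 x₁.2 (not_mem_of_mem_starPairs hx₁) a).mp ha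
    refine le_trans (Finset.card_le_card_of_injOn (t := ({x₁.1, a} : Finset (Fin n)))
      (fun x => x.1) ?_ ?_) Finset.card_le_two
    · intro x hx
      rw [Finset.mem_coe, Finset.mem_filter] at hx
      have h2 : (starGraph x.1 x.2).Adj x₁.1 a := by
        have : starGraph x.1 x.2 = starGraph x₁.1 x₁.2 := hx.2
        rw [this]
        exact hadj
      rw [starGraph_adj] at h2
      rw [Finset.mem_coe, Finset.mem_insert, Finset.mem_singleton]
      rcases h2.2 with ⟨h, _⟩ | ⟨h, _⟩
      · exact Or.inl h.symm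
      · exact Or.inr h.symm
    · intro x hx y hy hxy
      rw [Finset.mem_coe, Finset.mem_filter] at hx hy
      have hxy' : x.1 = y.1 := hxy
      have hgraph : starGraph x.1 x.2 = starGraph y.1 y.2 := hx.2.trans hy.2.symm
      have h2 : x.2 = y.2 := by
        ext b
        rw [mem_iff_star_adj x.1 x.2 (not_mem_of_mem_starPairs hx.1) b,
          mem_iff_star_adj y.1 y.2 (not_mem_of_mem_starPairs hy.1) b, hgraph, hxy']
      rcases x with ⟨x1, x2⟩
      rcases y with ⟨y1, y2⟩
      simp only at hxy' h2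
      subst hxy' h2
      rfl
  have h1 := Finset.card_le_mul_card_image (f := f)
    (starPairs (⊤ : SimpleGraph (Fin n)) A₀.card) 2 hfib
  have h2 : ((starPairs (⊤ : SimpleGraph (Fin n)) A₀.card).image f).card
      ≤ copies ⊤ (starGraph c₀ A₀) := by
    rw [copies, ← Set.ncard_coe_finset]
    apply Set.ncard_le_ncard _ (Set.toFinite _)
    intro G' hG'
    rw [Finset.mem_coe, Finset.mem_image] at hG'
    obtain ⟨x, hx, rfl⟩ := hG'
    exact ⟨le_top, star_iso x.1 c₀ x.2 A₀ (not_mem_of_mem_starPairs hx) hc₀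
      ((mem_starPairs _ _ x).mp hx).2⟩
  omega

/-- Lemma C: monotonicity of the number of copies in the host graph -/
lemma copies_le_top (H F : SimpleGraph (Fin n)) : copies H F ≤ copies ⊤ F := by
  apply Set.ncard_le_ncard _ (Set.toFinite _)
  rintro G' ⟨_, h⟩
  exact ⟨le_top, h⟩

/-- the edges of a star pair -/
noncomputable def starEdges (x : Σ _ : Fin n, Finset (Fin n)) : Finset (Sym2 (Fin n)) :=
  x.2.image fun a => s(x.1, a)

lemma mem_starEdges (x : Σ _ : Fin n, Finset (Fin n)) (e : Sym2 (Fin n)) :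
    e ∈ starEdges x ↔ ∃ a ∈ x.2, s(x.1, a) = e := by
  simp [starEdges]

lemma card_starEdges (x : Σ _ : Fin n, Finset (Fin n)) : (starEdges x).card = x.2.card := by
  apply Finset.card_image_of_injective
  intro a b h
  exact Sym2.congr_right.mp h

/-- the edges used by a family of star pairs -/
noncomputable def familyEdges (F : Finset (Σ _ : Fin n, Finset (Fin n))) :
    Finset (Sym2 (Fin n)) :=
  F.biUnion starEdges

/-- the graph formed by a family of star pairs -/
noncomputable def familyGraph (F : Finset (Σ _ : Fin n, Finset (Fin n))) :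
    SimpleGraph (Fin n) :=
  SimpleGraph.fromEdgeSet (familyEdges F : Set (Sym2 (Fin n)))

lemma familyEdges_subset (H : SimpleGraph (Fin n)) (d : ℕ)
    (F : Finset (Σ _ : Fin n, Finset (Fin n))) (hF : F ⊆ starPairs H d) :
    (familyEdges F : Set (Sym2 (Fin n))) ⊆ H.edgeSet := by
  intro e he
  rw [Finset.mem_coe, familyEdges, Finset.mem_biUnion] at he
  obtain ⟨x, hx, he⟩ := he
  rw [mem_starEdges] at he
  obtain ⟨a, ha, rfl⟩ := he
  rw [SimpleGraph.mem_edgeSet]
  have := ((mem_starPairs H d x).mp (hF hx)).1 ha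
  rwa [SimpleGraph.mem_neighborFinset] at this

lemma familyGraph_le (H : SimpleGraph (Fin n)) (d : ℕ)
    (F : Finset (Σ _ : Fin n, Finset (Fin n))) (hF : F ⊆ starPairs H d) :
    familyGraph F ≤ H := by
  have := SimpleGraph.fromEdgeSet_mono (familyEdges_subset H d F hF)
  rwa [SimpleGraph.fromEdgeSet_edgeSet] at this

lemma familyGraph_edges (H : SimpleGraph (Fin n)) (d : ℕ)
    (F : Finset (Σ _ : Fin n, Finset (Fin n))) (hF : F ⊆ starPairs H d)
    (hdis : (F : Set (Σ _ : Fin n, Finset (Fin n))).PairwiseDisjoint starEdges) :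
    (familyGraph F).edgeSet.ncard = F.card * d := by
  have h1 : (familyGraph F).edgeSet = (familyEdges F : Set (Sym2 (Fin n))) := by
    rw [familyGraph, SimpleGraph.edgeSet_fromEdgeSet]
    ext e
    simp only [Set.mem_sdiff, and_iff_left_iff_imp]
    intro he
    exact SimpleGraph.not_isDiag_of_mem_edgeSet H (familyEdges_subset H d F hF he)
  rw [h1, Set.ncard_coe_finset, familyEdges, Finset.card_biUnion hdis]
  rw [Finset.sum_congr rfl (fun x hx => by
    rw [card_starEdges, ((mem_starPairs H d x).mp (hF hx)).2] : ∀ x ∈ F, (starEdges x).card = d)]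
  rw [Finset.sum_const, smul_eq_mul]

/-- transport of a star pair by a permutation -/
def mapPair (σ : Equiv.Perm (Fin n)) (x : Σ _ : Fin n, Finset (Fin n)) :
    Σ _ : Fin n, Finset (Fin n) :=
  ⟨σ x.1, x.2.map σ.toEmbedding⟩

lemma mapPair_injective (σ : Equiv.Perm (Fin n)) : Function.Injective (mapPair σ) := by
  rintro ⟨x1, x2⟩ ⟨y1, y2⟩ h
  simp only [mapPair, Sigma.mk.injEq, heq_eq_eq] at h
  obtain ⟨h1, h2⟩ := h
  have h1' := σ.injective h1
  have h2' := Finset.map_injective _ h2
  subst h1' h2'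
  rfl

lemma starEdges_mapPair (σ : Equiv.Perm (Fin n)) (x : Σ _ : Fin n, Finset (Fin n)) :
    starEdges (mapPair σ x) = (starEdges x).image (Sym2.map σ) := by
  ext e
  simp only [mem_starEdges, mapPair, Finset.mem_map, Equiv.coe_toEmbedding, Finset.mem_image,
    exists_exists_and_eq_and, Sym2.map_mk]

lemma familyEdges_image (σ : Equiv.Perm (Fin n)) (F : Finset (Σ _ : Fin n, Finset (Fin n))) :
    familyEdges (F.image (mapPair σ)) = (familyEdges F).image (Sym2.map σ) := by
  simp only [familyEdges, Finset.image_biUnion, Finset.biUnion_image, starEdges_mapPair]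

lemma familyGraph_image_adj (σ : Equiv.Perm (Fin n))
    (F : Finset (Σ _ : Fin n, Finset (Fin n))) (u v : Fin n) :
    (familyGraph (F.image (mapPair σ))).Adj (σ u) (σ v) ↔ (familyGraph F).Adj u v := by
  simp only [familyGraph, SimpleGraph.fromEdgeSet_adj, familyEdges_image, Finset.mem_coe, ne_eq,
    EmbeddingLike.apply_eq_iff_eq]
  have : s(σ u, σ v) = Sym2.map σ s(u, v) := by rw [Sym2.map_mk]
  rw [this, (Sym2.map.injective σ.injective).mem_finset_image]

/-- the number of copies of the graph of a family of `k` star pairs with `d` leaves is at most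
the number of `k`-sets of star pairs of the complete graph -/
lemma copies_familyGraph_le (H : SimpleGraph (Fin n)) (d : ℕ)
    (F : Finset (Σ _ : Fin n, Finset (Fin n))) (hF : F ⊆ starPairs H d) :
    copies ⊤ (familyGraph F) ≤ ((starPairs (⊤ : SimpleGraph (Fin n)) d).card).choose F.card := by
  have hsub : {G' : SimpleGraph (Fin n) | G' ≤ ⊤ ∧ Nonempty (G' ≃g familyGraph F)}
      ⊆ familyGraph '' (Finset.powersetCard F.card (starPairs (⊤ : SimpleGraph (Fin n)) d) :
          Set (Finset (Σ _ : Fin n, Finset (Fin n)))) := by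
    rintro G' ⟨-, hiso⟩
    obtain ⟨σ, hσ⟩ := (iso_iff_perm G' (familyGraph F)).mp hiso
    refine ⟨F.image (mapPair σ), ?_, ?_⟩
    · rw [Finset.mem_coe, Finset.mem_powersetCard]
      refine ⟨?_, Finset.card_image_of_injective _ (mapPair_injective σ)⟩
      intro y hy
      rw [Finset.mem_image] at hy
      obtain ⟨x, hx, rfl⟩ := hy
      have hx' := (mem_starPairs H d x).mp (hF hx)
      rw [mem_starPairs]
      refine ⟨?_, ?_⟩
      · intro b hb
        simp only [mapPair, Finset.mem_map, Equiv.coe_toEmbedding] at hb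
        obtain ⟨a, ha, rfl⟩ := hb
        rw [SimpleGraph.mem_neighborFinset, SimpleGraph.top_adj]
        simp only [mapPair, ne_eq, EmbeddingLike.apply_eq_iff_eq]
        intro h
        exact not_mem_of_mem_starPairs (hF hx) (h ▸ ha)
      · simp only [mapPair, Finset.card_map]
        exact hx'.2
    · ext u v
      obtain ⟨u', rfl⟩ := σ.surjective u
      obtain ⟨v', rfl⟩ := σ.surjective v
      rw [familyGraph_image_adj, hσ]
  calc copies ⊤ (familyGraph F)
      ≤ Set.ncard (familyGraph '' (Finset.powersetCard F.card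
          (starPairs (⊤ : SimpleGraph (Fin n)) d) :
          Set (Finset (Σ _ : Fin n, Finset (Fin n))))) :=
        Set.ncard_le_ncard hsub (Set.toFinite _)
    _ ≤ Set.ncard (Finset.powersetCard F.card (starPairs (⊤ : SimpleGraph (Fin n)) d) :
          Set (Finset (Σ _ : Fin n, Finset (Fin n)))) :=
        Set.ncard_image_le (Set.toFinite _)
    _ = ((starPairs (⊤ : SimpleGraph (Fin n)) d).card).choose F.card := by
        rw [Set.ncard_coe_finset, Finset.card_powersetCard]

/-- a maximum family of pairwise edge-disjoint star pairs with `d` leaves -/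
lemma exists_max_family (H : SimpleGraph (Fin n)) (d : ℕ) :
    ∃ F : Finset (Σ _ : Fin n, Finset (Fin n)), F ⊆ starPairs H d ∧
      (F : Set (Σ _ : Fin n, Finset (Fin n))).PairwiseDisjoint starEdges ∧
      ∀ G : Finset (Σ _ : Fin n, Finset (Fin n)), G ⊆ starPairs H d →
        (G : Set (Σ _ : Fin n, Finset (Fin n))).PairwiseDisjoint starEdges → G.card ≤ F.card := by
  set fam := (starPairs H d).powerset.filter
    (fun G : Finset (Σ _ : Fin n, Finset (Fin n)) =>
      (G : Set (Σ _ : Fin n, Finset (Fin n))).PairwiseDisjoint starEdges) with hfam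
  have hne : fam.Nonempty := ⟨∅, by simp [hfam]⟩
  obtain ⟨F, hF, hmax⟩ := Finset.exists_max_image fam Finset.card hne
  rw [hfam, Finset.mem_filter, Finset.mem_powerset] at hF
  refine ⟨F, hF.1, hF.2, fun G hG1 hG2 => hmax G ?_⟩
  rw [hfam, Finset.mem_filter, Finset.mem_powerset]
  exact ⟨hG1, hG2⟩

/-- every vertex of degree at least `d` is touched by a maximum edge-disjoint family -/
lemma cover_of_max (H : SimpleGraph (Fin n)) (d : ℕ)
    (F : Finset (Σ _ : Fin n, Finset (Fin n))) (hF : F ⊆ starPairs H d)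
    (hdis : (F : Set (Σ _ : Fin n, Finset (Fin n))).PairwiseDisjoint starEdges)
    (hmax : ∀ G : Finset (Σ _ : Fin n, Finset (Fin n)), G ⊆ starPairs H d →
        (G : Set (Σ _ : Fin n, Finset (Fin n))).PairwiseDisjoint starEdges → G.card ≤ F.card)
    (v : Fin n) (hv : d ≤ H.degree v) : ∃ x ∈ F, v = x.1 ∨ v ∈ x.2 := by
  by_contra hno
  have hno' : ∀ x ∈ F, v ≠ x.1 ∧ v ∉ x.2 := by
    intro x hx
    constructor
    · intro h
      exact hno ⟨x, hx, Or.inl h⟩
    · intro h
      exact hno ⟨x, hx, Or.inr h⟩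
  obtain ⟨A, hA1, hA2⟩ := Finset.exists_subset_card_eq
    (s := H.neighborFinset v) (n := d) (by rwa [SimpleGraph.card_neighborFinset_eq_degree])
  set y : Σ _ : Fin n, Finset (Fin n) := ⟨v, A⟩ with hy
  have hy1 : y ∈ starPairs H d := by
    rw [mem_starPairs]
    exact ⟨hA1, hA2⟩
  have hy2 : y ∉ F := fun h => (hno' y h).1 rfl
  have hdis' : ((insert y F : Finset (Σ _ : Fin n, Finset (Fin n))) :
      Set (Σ _ : Fin n, Finset (Fin n))).PairwiseDisjoint starEdges := by
    rw [Finset.coe_insert]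
    apply hdis.insert
    intro x hx _
    rw [Finset.disjoint_left]
    intro e he1 he2
    rw [mem_starEdges] at he1 he2
    obtain ⟨a, _, rfl⟩ := he1
    obtain ⟨b, hb, hb2⟩ := he2
    have hx' := hno' x hx
    rw [Sym2.eq_iff] at hb2
    rcases hb2 with ⟨h1, _⟩ | ⟨_, h2⟩
    · exact hx'.1 h1.symm
    · have hbv : b = v := h2
      exact hx'.2 (hbv ▸ hb)
  have hsub : insert y F ⊆ starPairs H d := Finset.insert_subset hy1 hF
  have := hmax (insert y F) hsub hdis'
  rw [Finset.card_insert_of_notMem hy2] at this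
  omega

/-- the number of vertices of degree at least `d` is at most `(d+1)` times the size of a
maximum edge-disjoint family of star pairs with `d` leaves -/
lemma card_high_degree_le (H : SimpleGraph (Fin n)) (d : ℕ)
    (F : Finset (Σ _ : Fin n, Finset (Fin n))) (hF : F ⊆ starPairs H d)
    (hdis : (F : Set (Σ _ : Fin n, Finset (Fin n))).PairwiseDisjoint starEdges)
    (hmax : ∀ G : Finset (Σ _ : Fin n, Finset (Fin n)), G ⊆ starPairs H d →
        (G : Set (Σ _ : Fin n, Finset (Fin n))).PairwiseDisjoint starEdges → G.card ≤ F.card) :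
    ((Finset.univ : Finset (Fin n)).filter (fun v => d ≤ H.degree v)).card
      ≤ F.card * (d + 1) := by
  have hsub : (Finset.univ : Finset (Fin n)).filter (fun v => d ≤ H.degree v)
      ⊆ F.biUnion (fun x => insert x.1 x.2) := by
    intro v hv
    rw [Finset.mem_filter] at hv
    obtain ⟨x, hx, hvx⟩ := cover_of_max H d F hF hdis hmax v hv.2
    rw [Finset.mem_biUnion]
    refine ⟨x, hx, ?_⟩
    rw [Finset.mem_insert]
    exact hvx
  refine le_trans (Finset.card_le_card hsub) (le_trans Finset.card_biUnion_le ?_)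
  have : ∀ x ∈ F, (insert x.1 x.2).card ≤ d + 1 := by
    intro x hx
    refine le_trans (Finset.card_insert_le _ _) ?_
    rw [((mem_starPairs H d x).mp (hF hx)).2]
  calc ∑ x ∈ F, (insert x.1 x.2).card ≤ ∑ _x ∈ F, (d + 1) := Finset.sum_le_sum this
    _ = F.card * (d + 1) := by rw [Finset.sum_const, smul_eq_mul]

/-- Step 1: under the hypothesis that every subgraph of `H` has at least one expected copy at
density `q`, the number of vertices of degree at least `d` is at most `6 d n C(n-1,d) q^d`. -/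
lemma degree_count_bound (H : SimpleGraph (Fin n)) (q : ℝ) (hq0 : 0 ≤ q)
    (hyp : ∀ F : SimpleGraph (Fin n), F ≤ H →
      (1 : ℝ) ≤ (copies ⊤ F : ℝ) * q ^ F.edgeSet.ncard)
    (d : ℕ) (hd : 1 ≤ d) :
    (((Finset.univ : Finset (Fin n)).filter (fun v => d ≤ H.degree v)).card : ℝ)
      ≤ 6 * d * n * (n - 1).choose d * q ^ d := by
  obtain ⟨F, hF, hdis, hmax⟩ := exists_max_family H d
  have h1 := card_high_degree_le H d F hF hdis hmax
  have h2 := hyp (familyGraph F) (familyGraph_le H d F hF)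
  rw [familyGraph_edges H d F hF hdis] at h2
  have h3 := copies_familyGraph_le H d F hF
  rw [card_starPairs_top] at h3
  have h4 : (1 : ℝ) ≤ ((n * (n - 1).choose d).choose F.card : ℝ) * (q ^ d) ^ F.card := by
    have hq : (0 : ℝ) ≤ q ^ (F.card * d) := pow_nonneg hq0 _
    have h3' : (copies ⊤ (familyGraph F) : ℝ) ≤ ((n * (n - 1).choose d).choose F.card : ℝ) := by
      exact_mod_cast h3
    calc (1 : ℝ) ≤ (copies ⊤ (familyGraph F) : ℝ) * q ^ (F.card * d) := h2
      _ ≤ ((n * (n - 1).choose d).choose F.card : ℝ) * q ^ (F.card * d) :=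
          mul_le_mul_of_nonneg_right h3' hq
      _ = ((n * (n - 1).choose d).choose F.card : ℝ) * (q ^ d) ^ F.card := by
          rw [← pow_mul, mul_comm d F.card]
  have h5 := card_bound F.card (n * (n - 1).choose d) (q ^ d) (pow_nonneg hq0 d) h4
  have h6 : (((Finset.univ : Finset (Fin n)).filter (fun v => d ≤ H.degree v)).card : ℝ)
      ≤ (F.card : ℝ) * (d + 1) := by exact_mod_cast h1
  have hd' : (1 : ℝ) ≤ (d : ℝ) := by exact_mod_cast hd
  have h7 : (F.card : ℝ) * (d + 1) ≤ (F.card : ℝ) * (2 * d) :=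
    mul_le_mul_of_nonneg_left (by linarith) (Nat.cast_nonneg _)
  have h8 : (F.card : ℝ) * (2 * d) ≤ (3 * ((n * (n - 1).choose d : ℕ) : ℝ) * q ^ d) * (2 * d) :=
    mul_le_mul_of_nonneg_right h5 (by positivity)
  calc (((Finset.univ : Finset (Fin n)).filter (fun v => d ≤ H.degree v)).card : ℝ)
      ≤ (3 * ((n * (n - 1).choose d : ℕ) : ℝ) * q ^ d) * (2 * d) := le_trans h6 (le_trans h7 h8)
    _ = 6 * d * n * (n - 1).choose d * q ^ d := by push_cast; ring

/-- Step 2: the comparison for star pairs -/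
theorem starPairs_bound (H : SimpleGraph (Fin n)) (q : ℝ) (hq0 : 0 ≤ q)
    (hyp : ∀ F : SimpleGraph (Fin n), F ≤ H →
      (1 : ℝ) ≤ (copies ⊤ F : ℝ) * q ^ F.edgeSet.ncard)
    (s : ℕ) :
    ((starPairs H (s + 1)).card : ℝ)
      ≤ ((starPairs (⊤ : SimpleGraph (Fin n)) (s + 1)).card : ℝ) * (36 * q) ^ (s + 1) := by
  rw [card_starPairs, card_starPairs_top]
  have hdeg : ∀ v ∈ (Finset.univ : Finset (Fin n)), H.degree v ≤ n - 1 := by
    intro v _
    have := H.degree_lt_card_verts v
    simp only [Fintype.card_fin] at this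
    omega
  rw [sum_choose_deg Finset.univ (fun v => H.degree v) (n - 1) s hdeg]
  push_cast
  refine main_sum n (n - 1) s q hq0
    (fun d => ((Finset.univ : Finset (Fin n)).filter (fun v => d ≤ H.degree v)).card) ?_ ?_
  · intro d
    have := Finset.card_filter_le (Finset.univ : Finset (Fin n)) (fun v => d ≤ H.degree v)
    simpa using this
  · intro d hd
    exact degree_count_bound H q hq0 hyp d hd

end Vale.Agent.Lib.P064
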