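import Vale.Agent.Lib.P064.Thresholds
import Vale.Agent.Lib.P064.Final

namespace Vale.Agent.Lib.P064

open Finset

open scoped Classical

variable {n : ℕ}

lemma one_le_copies_top (F : SimpleGraph (Fin n)) : 1 ≤ copies ⊤ F := by
  rw [copies_eq_card, Nat.one_le_iff_ne_zero, ← Nat.pos_iff_ne_zero, Finset.card_pos]
  exact ⟨F, (mem_copiesFinset ⊤ F F).mpr ⟨le_top, ⟨SimpleGraph.Iso.refl⟩⟩⟩

/-- halving the threshold constant: from expected counts at least `1/2` at `p` to expected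
counts at least `1` at `min 1 (2p)` -/
lemma hyp_of_mem (H : SimpleGraph (Fin n)) (p : ℝ) (hp0 : 0 ≤ p)
    (hp : ∀ F : SimpleGraph (Fin n), F ≤ H → 1 / 2 ≤ expCopies F p)
    (F : SimpleGraph (Fin n)) (hF : F ≤ H) :
    (1 : ℝ) ≤ (copies ⊤ F : ℝ) * (min 1 (2 * p)) ^ F.edgeSet.ncard := by
  have hc : (1 : ℝ) ≤ (copies ⊤ F : ℝ) := by exact_mod_cast one_le_copies_top F
  by_cases hm : F.edgeSet.ncard = 0
  · rw [hm, pow_zero, mul_one]
    exact hc
  by_cases h2 : (1 : ℝ) ≤ 2 * p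
  · rw [min_eq_left h2, one_pow, mul_one]
    exact hc
  · rw [not_le] at h2
    rw [min_eq_right h2.le, mul_pow]
    have h1 := hp F hF
    rw [expCopies] at h1
    have h3 : (2 : ℝ) ≤ 2 ^ F.edgeSet.ncard := by
      have : 1 ≤ F.edgeSet.ncard := Nat.one_le_iff_ne_zero.mpr hm
      calc (2 : ℝ) = 2 ^ 1 := by norm_num
        _ ≤ 2 ^ F.edgeSet.ncard := pow_le_pow_right₀ (by norm_num) this
    have h4 : (0 : ℝ) ≤ (copies ⊤ F : ℝ) * p ^ F.edgeSet.ncard := by positivity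
    calc (1 : ℝ) = 2 * (1 / 2) := by norm_num
      _ ≤ 2 ^ F.edgeSet.ncard * ((copies ⊤ F : ℝ) * p ^ F.edgeSet.ncard) :=
          mul_le_mul h3 h1 (by norm_num) (by positivity)
      _ = (copies ⊤ F : ℝ) * (2 ^ F.edgeSet.ncard * p ^ F.edgeSet.ncard) := by ring

lemma pE_set_nonempty (H : SimpleGraph (Fin n)) :
    (1 : ℝ) ∈ {p : ℝ | 0 ≤ p ∧ p ≤ 1 ∧
      ∀ F : SimpleGraph (Fin n), F ≤ H → 1 / 2 ≤ expCopies F p} := by
  refine ⟨by norm_num, le_rfl, fun F _ => ?_⟩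
  rw [expCopies, one_pow, mul_one]
  have hc : (1 : ℝ) ≤ (copies ⊤ F : ℝ) := by exact_mod_cast one_le_copies_top F
  linarith

lemma pE_nonneg (H : SimpleGraph (Fin n)) : 0 ≤ pE H := by
  apply le_csInf ⟨1, pE_set_nonempty H⟩
  intro p hp
  exact hp.1

/-- from a comparison inequality with constant `L` to the threshold bound -/
theorem pEt_le_of_comparison (H : SimpleGraph (Fin n)) (L : ℝ) (hL : 0 ≤ L)
    (hcomp : ∀ q : ℝ, 0 ≤ q → q ≤ 1 →
      (∀ F : SimpleGraph (Fin n), F ≤ H → (1 : ℝ) ≤ (copies ⊤ F : ℝ) * q ^ F.edgeSet.ncard) →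
      ∀ F : SimpleGraph (Fin n), F ≤ H →
        (copies H F : ℝ) ≤ (copies ⊤ F : ℝ) * (L * q) ^ F.edgeSet.ncard) :
    pEt H ≤ 2 * L * pE H := by
  have hbdd : BddBelow {p : ℝ | 0 ≤ p ∧ p ≤ 1 ∧
      ∀ F : SimpleGraph (Fin n), F ≤ H → (copies H F : ℝ) / 2 ≤ expCopies F p} :=
    ⟨0, fun p hp => hp.1⟩
  have claim : ∀ p ∈ {p : ℝ | 0 ≤ p ∧ p ≤ 1 ∧
      ∀ F : SimpleGraph (Fin n), F ≤ H → 1 / 2 ≤ expCopies F p}, pEt H ≤ 2 * L * p := by
    rintro p ⟨hp0, hp1, hp⟩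
    have hq0 : (0 : ℝ) ≤ min 1 (2 * p) := le_min (by norm_num) (by positivity)
    have hq1 : min 1 (2 * p) ≤ 1 := min_le_left _ _
    have hyp := hyp_of_mem H p hp0 hp
    have hc := hcomp (min 1 (2 * p)) hq0 hq1 hyp
    have hLq0 : (0 : ℝ) ≤ L * min 1 (2 * p) := mul_nonneg hL hq0
    have hmem : min 1 (L * min 1 (2 * p)) ∈ {p : ℝ | 0 ≤ p ∧ p ≤ 1 ∧
        ∀ F : SimpleGraph (Fin n), F ≤ H → (copies H F : ℝ) / 2 ≤ expCopies F p} := by
      refine ⟨le_min (by norm_num) hLq0, min_le_left _ _, fun F hF => ?_⟩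
      have hcn : (0 : ℝ) ≤ (copies H F : ℝ) := Nat.cast_nonneg _
      rw [expCopies]
      by_cases h1 : (1 : ℝ) ≤ L * min 1 (2 * p)
      · rw [min_eq_left h1, one_pow, mul_one]
        have : (copies H F : ℝ) ≤ (copies ⊤ F : ℝ) := by exact_mod_cast copies_le_top H F
        linarith
      · rw [not_le] at h1
        rw [min_eq_right h1.le]
        have := hc F hF
        linarith
    have h1 : pEt H ≤ min 1 (L * min 1 (2 * p)) := csInf_le hbdd hmem
    have h2 : min 1 (L * min 1 (2 * p)) ≤ L * min 1 (2 * p) := min_le_right _ _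
    have h3 : L * min 1 (2 * p) ≤ L * (2 * p) := mul_le_mul_of_nonneg_left (min_le_right _ _) hL
    linarith
  rcases hL.eq_or_lt with hL0 | hLpos
  · have := claim 1 (pE_set_nonempty H)
    rw [← hL0] at this ⊢
    simpa using this
  · have h2L : (0 : ℝ) < 2 * L := by positivity
    have : pEt H / (2 * L) ≤ pE H := by
      apply le_csInf ⟨1, pE_set_nonempty H⟩
      intro p hp
      rw [div_le_iff₀ h2L]
      have := claim p hp
      linarith
    rw [div_le_iff₀ h2L] at this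
    linarith

end Vale.Agent.Lib.P064
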