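import Vale.Agent.Lib.P064.Defs

namespace Vale.Agent.Lib.P064

/-- `expCopies F p` is the expected number of copies of `F` in the binomial random graph
`G(n,p)` on the vertex set `Fin n`: the number of copies of `F` in the complete graph times
`p ^ e(F)`. -/
noncomputable def expCopies {n : ℕ} (F : SimpleGraph (Fin n)) (p : ℝ) : ℝ :=
  (copies (⊤ : SimpleGraph (Fin n)) F : ℝ) * p ^ F.edgeSet.ncard

/-- The expectation threshold `p_E(n,H)`: the least `p` in `[0,1]` such that every subgraph `F`
of `H` has expected number of copies at least `1/2` in `G(n,p)`. -/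
noncomputable def pE {n : ℕ} (H : SimpleGraph (Fin n)) : ℝ :=
  sInf {p : ℝ | 0 ≤ p ∧ p ≤ 1 ∧
    ∀ F : SimpleGraph (Fin n), F ≤ H → 1 / 2 ≤ expCopies F p}

/-- The modified expectation threshold: the least `p` in `[0,1]` such that every subgraph `F`
of `H` has expected number of copies in `G(n,p)` at least half the number of copies of `F`
in `H`. -/
noncomputable def pEt {n : ℕ} (H : SimpleGraph (Fin n)) : ℝ :=
  sInf {p : ℝ | 0 ≤ p ∧ p ≤ 1 ∧
    ∀ F : SimpleGraph (Fin n), F ≤ H → (copies H F : ℝ) / 2 ≤ expCopies F p}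

end Vale.Agent.Lib.P064
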